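import Mathlib

open MeasureTheory Set
open scoped ENNReal

namespace Vale.Agent.Lib.P243.helper23

/-- Layer cake formula for a function scaled by a positive constant. -/
theorem scaled_layer (f : ℝ → ℝ) (hf : Measurable f) (hf0 : ∀ t, 0 ≤ f t) {M : ℝ} (hM : 0 < M) :
    ∫⁻ u in Ioi (0 : ℝ), volume {t | u * M ≤ f t} =
      (∫⁻ t, ENNReal.ofReal (f t)) / ENNReal.ofReal M := by
  have h1 := lintegral_eq_lintegral_meas_le (volume : Measure ℝ) (f := fun t => f t / M)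
    (Filter.Eventually.of_forall (fun t => div_nonneg (hf0 t) hM.le))
    (hf.div_const M).aemeasurable
  have e1 : ∀ u : ℝ, {t | u ≤ f t / M} = {t | u * M ≤ f t} := by
    intro u
    ext t
    simp only [mem_ofPred_eq]
    rw [le_div_iff₀ hM]
  have e2 : ∫⁻ t, ENNReal.ofReal (f t / M) = (∫⁻ t, ENNReal.ofReal (f t)) / ENNReal.ofReal M := by
    rw [div_eq_mul_inv, ← lintegral_mul_const _ hf.ennreal_ofReal]
    apply lintegral_congr
    intro t
    rw [ENNReal.ofReal_div_of_pos hM, div_eq_mul_inv]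
  rw [← e2, h1]
  apply lintegral_congr
  intro u
  rw [e1 u]

theorem real_cs {θ a b p q : ℝ} (h0 : 0 < θ) (h1 : θ < 1) (hp : 0 < p) (hq : 0 < q) :
    ((1 - θ) * a + θ * b) ^ 2 ≤
      ((1 - θ) * p + θ * q) * ((1 - θ) * (a ^ 2 / p) + θ * (b ^ 2 / q)) := by
  have key : ((1 - θ) * p + θ * q) * ((1 - θ) * (a ^ 2 / p) + θ * (b ^ 2 / q)) -
      ((1 - θ) * a + θ * b) ^ 2 = (1 - θ) * θ * (a * q - b * p) ^ 2 / (p * q) := by
    field_simp
    ring
  have hnn : 0 ≤ (1 - θ) * θ * (a * q - b * p) ^ 2 / (p * q) := by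
    apply div_nonneg
    · exact mul_nonneg (mul_nonneg (by linarith) h0.le) (sq_nonneg _)
    · exact (mul_pos hp hq).le
  linarith

/-- One-dimensional layer-cake form of the Brunn-Minkowski mechanism. -/
theorem layer_bm (f g h : ℝ → ℝ) (hf : Measurable f) (hg : Measurable g) (hh : Measurable h)
    (hf0 : ∀ t, 0 ≤ f t) (hg0 : ∀ t, 0 ≤ g t) (hh0 : ∀ t, 0 ≤ h t) (Cf Cg : ℝ)
    (hfC : ∀ t, f t ≤ Cf) (hgC : ∀ t, g t ≤ Cg) (hfpos : ∃ t, 0 < f t) (hgpos : ∃ t, 0 < g t)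
    (hfi : ∫⁻ t, ENNReal.ofReal (f t) ≠ ⊤) (hgi : ∫⁻ t, ENNReal.ofReal (g t) ≠ ⊤) {θ : ℝ}
    (h0 : 0 < θ) (h1 : θ < 1)
    (hlev : ∀ s s' : ℝ, 0 < s → 0 < s' → (∃ t, s ≤ f t) → (∃ t, s' ≤ g t) →
      ENNReal.ofReal (1 - θ) * volume {t | s ≤ f t} + ENNReal.ofReal θ * volume {t | s' ≤ g t} ≤
        volume {t | (1 - θ) * s + θ * s' ≤ h t}) :
    ENNReal.ofReal (((1 - θ) * Real.sqrt (∫⁻ t, ENNReal.ofReal (f t)).toReal +
      θ * Real.sqrt (∫⁻ t, ENNReal.ofReal (g t)).toReal) ^ 2) ≤ ∫⁻ t, ENNReal.ofReal (h t) := by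
  have hbf : BddAbove (range f) := ⟨Cf, by rintro _ ⟨t, rfl⟩; exact hfC t⟩
  have hbg : BddAbove (range g) := ⟨Cg, by rintro _ ⟨t, rfl⟩; exact hgC t⟩
  obtain ⟨Mf, hMf⟩ : ∃ Mf, Mf = sSup (range f) := ⟨_, rfl⟩
  obtain ⟨Mg, hMg⟩ : ∃ Mg, Mg = sSup (range g) := ⟨_, rfl⟩
  have hfM : ∀ t, f t ≤ Mf := fun t => hMf ▸ le_csSup hbf (mem_range_self t)
  have hgM : ∀ t, g t ≤ Mg := fun t => hMg ▸ le_csSup hbg (mem_range_self t)
  have hMfpos : 0 < Mf := by
    obtain ⟨t, ht⟩ := hfpos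
    exact lt_of_lt_of_le ht (hfM t)
  have hMgpos : 0 < Mg := by
    obtain ⟨t, ht⟩ := hgpos
    exact lt_of_lt_of_le ht (hgM t)
  have hfex : ∀ u : ℝ, u < 1 → ∃ t, u * Mf ≤ f t := by
    intro u hu
    have hlt : u * Mf < sSup (range f) := by
      rw [← hMf]
      nlinarith
    obtain ⟨_, ⟨t, rfl⟩, ht⟩ := exists_lt_of_lt_csSup (range_nonempty f) hlt
    exact ⟨t, ht.le⟩
  have hgex : ∀ u : ℝ, u < 1 → ∃ t, u * Mg ≤ g t := by
    intro u hu
    have hlt : u * Mg < sSup (range g) := by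
      rw [← hMg]
      nlinarith
    obtain ⟨_, ⟨t, rfl⟩, ht⟩ := exists_lt_of_lt_csSup (range_nonempty g) hlt
    exact ⟨t, ht.le⟩
  obtain ⟨M, hMdef⟩ : ∃ M, M = (1 - θ) * Mf + θ * Mg := ⟨_, rfl⟩
  have hMpos : 0 < M := by
    rw [hMdef]
    have : 0 < (1 - θ) * Mf := mul_pos (by linarith) hMfpos
    have : 0 < θ * Mg := mul_pos h0 hMgpos
    linarith
  -- pointwise inequality of level-set measures
  have hpt : ∀ u : ℝ, 0 < u → u ≠ 1 →
      ENNReal.ofReal (1 - θ) * volume {t | u * Mf ≤ f t} +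
        ENNReal.ofReal θ * volume {t | u * Mg ≤ g t} ≤ volume {t | u * M ≤ h t} := by
    intro u hu hu1
    rcases lt_or_gt_of_ne hu1 with hlt | hgt
    · have := hlev (u * Mf) (u * Mg) (mul_pos hu hMfpos) (mul_pos hu hMgpos) (hfex u hlt)
        (hgex u hlt)
      have e : (1 - θ) * (u * Mf) + θ * (u * Mg) = u * M := by rw [hMdef]; ring
      rw [e] at this
      exact this
    · have e1 : {t | u * Mf ≤ f t} = ∅ := by
        ext t
        simp only [mem_ofPred_eq, mem_empty_iff_false, iff_false, not_le]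
        have := hfM t
        nlinarith
      have e2 : {t | u * Mg ≤ g t} = ∅ := by
        ext t
        simp only [mem_ofPred_eq, mem_empty_iff_false, iff_false, not_le]
        have := hgM t
        nlinarith
      rw [e1, e2]
      simp
  have hae : ∀ᵐ u ∂(volume.restrict (Ioi (0 : ℝ))),
      ENNReal.ofReal (1 - θ) * volume {t | u * Mf ≤ f t} +
        ENNReal.ofReal θ * volume {t | u * Mg ≤ g t} ≤ volume {t | u * M ≤ h t} := by
    rw [ae_restrict_iff' measurableSet_Ioi]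
    have hne : ∀ᵐ u ∂(volume : Measure ℝ), u ≠ 1 := by
      rw [ae_iff]
      simp
    filter_upwards [hne] with u hu1 hu
    exact hpt u hu hu1
  have hint := lintegral_mono_ae hae
  have hsum := le_lintegral_add (μ := volume.restrict (Ioi (0 : ℝ)))
    (fun u : ℝ => ENNReal.ofReal (1 - θ) * volume {t | u * Mf ≤ f t})
    (fun u : ℝ => ENNReal.ofReal θ * volume {t | u * Mg ≤ g t})
  rw [lintegral_const_mul' _ _ ENNReal.ofReal_ne_top,
    lintegral_const_mul' _ _ ENNReal.ofReal_ne_top] at hsum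
  have hall := le_trans hsum hint
  rw [scaled_layer f hf hf0 hMfpos, scaled_layer g hg hg0 hMgpos,
    scaled_layer h hh hh0 hMpos] at hall
  -- convert to real numbers
  by_cases hH : ∫⁻ t, ENNReal.ofReal (h t) = ⊤
  · rw [hH]
    exact le_top
  obtain ⟨x, hx⟩ : ∃ x, x = (∫⁻ t, ENNReal.ofReal (f t)).toReal := ⟨_, rfl⟩
  obtain ⟨y, hy⟩ : ∃ y, y = (∫⁻ t, ENNReal.ofReal (g t)).toReal := ⟨_, rfl⟩
  obtain ⟨z, hz⟩ : ∃ z, z = (∫⁻ t, ENNReal.ofReal (h t)).toReal := ⟨_, rfl⟩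
  have hx0 : 0 ≤ x := hx ▸ ENNReal.toReal_nonneg
  have hy0 : 0 ≤ y := hy ▸ ENNReal.toReal_nonneg
  have hz0 : 0 ≤ z := hz ▸ ENNReal.toReal_nonneg
  have hF : ∫⁻ t, ENNReal.ofReal (f t) = ENNReal.ofReal x := by
    rw [hx, ENNReal.ofReal_toReal hfi]
  have hG : ∫⁻ t, ENNReal.ofReal (g t) = ENNReal.ofReal y := by
    rw [hy, ENNReal.ofReal_toReal hgi]
  have hHz : ∫⁻ t, ENNReal.ofReal (h t) = ENNReal.ofReal z := by
    rw [hz, ENNReal.ofReal_toReal hH]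
  rw [← hx, ← hy, hHz]
  rw [hF, hG, hHz, ← ENNReal.ofReal_div_of_pos hMfpos, ← ENNReal.ofReal_div_of_pos hMgpos,
    ← ENNReal.ofReal_div_of_pos hMpos, ← ENNReal.ofReal_mul (by linarith),
    ← ENNReal.ofReal_mul h0.le,
    ← ENNReal.ofReal_add (mul_nonneg (by linarith) (div_nonneg hx0 hMfpos.le))
      (mul_nonneg h0.le (div_nonneg hy0 hMgpos.le)),
    ENNReal.ofReal_le_ofReal_iff (div_nonneg hz0 hMpos.le)] at hall
  apply ENNReal.ofReal_le_ofReal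
  have hcs := real_cs (a := Real.sqrt x) (b := Real.sqrt y) h0 h1 hMfpos hMgpos
  rw [Real.sq_sqrt hx0, Real.sq_sqrt hy0, ← hMdef] at hcs
  have hmul : M * ((1 - θ) * (x / Mf) + θ * (y / Mg)) ≤ z := by
    have := mul_le_mul_of_nonneg_left hall hMpos.le
    rwa [mul_div_cancel₀ _ hMpos.ne'] at this
  linarith

end Vale.Agent.Lib.P243.helper23
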