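import Mathlib

open MeasureTheory Set
open scoped ENNReal

namespace Vale.Agent.Lib.P243.helper23.Pl

/-- Fibre of `K` over `q` along the first coordinate. -/
def fib (K : Set (ℝ × ℝ)) (q : ℝ) : Set ℝ := (fun a : ℝ => (a, q)) ⁻¹' K

/-- Chord length of `K` over `q` (along the first coordinate). -/
noncomputable def chord (K : Set (ℝ × ℝ)) (q : ℝ) : ℝ := (volume (fib K q)).toReal

/-- Superlevel set of the chord function. -/
def lev (K : Set (ℝ × ℝ)) (t : ℝ) : Set (ℝ) := {q | t ≤ chord K q}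

theorem mem_fib {K : Set (ℝ × ℝ)} {q : ℝ} {a : ℝ} : a ∈ fib K q ↔ (a, q) ∈ K := Iff.rfl

theorem fib_compact {K : Set (ℝ × ℝ)} (hK : IsCompact K) (q : ℝ) :
    IsCompact (fib K q) := by
  have h : fib K q = Prod.fst '' (K ∩ {p | p.2 = q}) := by
    ext a
    constructor
    · intro ha
      exact ⟨(a, q), ⟨ha, rfl⟩, rfl⟩
    · rintro ⟨p, ⟨hp, hpq⟩, rfl⟩
      have hpq' : p.2 = q := hpq
      show (p.1, q) ∈ K
      rw [← hpq']
      exact hp
  rw [h]
  exact (hK.inter_right (isClosed_eq continuous_snd continuous_const)).image continuous_fst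

theorem fib_convex {K : Set (ℝ × ℝ)} (hK : Convex ℝ K) (q : ℝ) :
    Convex ℝ (fib K q) := by
  intro a ha b hb θ₁ θ₂ h1 h2 h12
  have := hK ha hb h1 h2 h12
  have e : θ₁ • ((a, q) : ℝ × ℝ) + θ₂ • ((b, q) : ℝ × ℝ) = (θ₁ • a + θ₂ • b, q) := by
    refine Prod.ext rfl ?_
    show θ₁ • q + θ₂ • q = q
    rw [← add_smul, h12, one_smul]
  rw [e] at this
  exact this

theorem fib_nonempty_iff {K : Set (ℝ × ℝ)} {q : ℝ} :
    (fib K q).Nonempty ↔ q ∈ Prod.snd '' K := by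
  constructor
  · rintro ⟨a, ha⟩
    exact ⟨(a, q), ha, rfl⟩
  · rintro ⟨p, hp, rfl⟩
    exact ⟨p.1, hp⟩

theorem fib_eq_Icc {K : Set (ℝ × ℝ)} (hK : Convex ℝ K) (hKc : IsCompact K) {q : ℝ}
    (hne : (fib K q).Nonempty) : fib K q = Icc (sInf (fib K q)) (sSup (fib K q)) := by
  have hc := fib_compact hKc q
  apply Subset.antisymm
  · intro b hb
    exact ⟨csInf_le hc.bddBelow hb, le_csSup hc.bddAbove hb⟩
  · have hoc : OrdConnected (fib K q) := (fib_convex hK q).ordConnected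
    exact hoc.out (hc.sInf_mem hne) (hc.sSup_mem hne)

theorem volume_fib {K : Set (ℝ × ℝ)} (hK : Convex ℝ K) (hKc : IsCompact K) {q : ℝ}
    (hne : (fib K q).Nonempty) :
    volume (fib K q) = ENNReal.ofReal (sSup (fib K q) - sInf (fib K q)) := by
  conv_lhs => rw [fib_eq_Icc hK hKc hne]
  rw [Real.volume_Icc]

theorem chord_eq {K : Set (ℝ × ℝ)} (hK : Convex ℝ K) (hKc : IsCompact K) {q : ℝ}
    (hne : (fib K q).Nonempty) : chord K q = sSup (fib K q) - sInf (fib K q) := by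
  unfold chord
  rw [volume_fib hK hKc hne, ENNReal.toReal_ofReal]
  have hc := fib_compact hKc q
  obtain ⟨b, hb⟩ := hne
  linarith [csInf_le hc.bddBelow hb, le_csSup hc.bddAbove hb]

theorem chord_nonneg (K : Set (ℝ × ℝ)) (q : ℝ) : 0 ≤ chord K q := ENNReal.toReal_nonneg

theorem chord_eq_zero {K : Set (ℝ × ℝ)} {q : ℝ} (h : q ∉ Prod.snd '' K) :
    chord K q = 0 := by
  have : fib K q = ∅ := by
    rw [← Set.not_nonempty_iff_eq_empty, fib_nonempty_iff]
    exact h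
  unfold chord
  rw [this]
  simp

theorem volume_fib_ne_top {K : Set (ℝ × ℝ)} (hKc : IsCompact K) (q : ℝ) :
    volume (fib K q) ≠ ⊤ := (fib_compact hKc q).measure_lt_top.ne

theorem ofReal_chord {K : Set (ℝ × ℝ)} (hKc : IsCompact K) (q : ℝ) :
    ENNReal.ofReal (chord K q) = volume (fib K q) :=
  ENNReal.ofReal_toReal (volume_fib_ne_top hKc q)

theorem mem_lev_iff {K : Set (ℝ × ℝ)} (hK : Convex ℝ K) (hKc : IsCompact K) {t : ℝ}
    (ht : 0 < t) {q : ℝ} :
    q ∈ lev K t ↔ ∃ a a' : ℝ, (a, q) ∈ K ∧ (a', q) ∈ K ∧ t ≤ a' - a := by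
  constructor
  · intro hq
    have hq' : t ≤ chord K q := hq
    have hne : (fib K q).Nonempty := by
      by_contra hcon
      have : chord K q = 0 := chord_eq_zero (fun h => hcon (fib_nonempty_iff.mpr h))
      linarith
    have hc := fib_compact hKc q
    refine ⟨sInf (fib K q), sSup (fib K q), hc.sInf_mem hne, hc.sSup_mem hne, ?_⟩
    rw [← chord_eq hK hKc hne]
    exact hq'
  · rintro ⟨a, a', ha, ha', hle⟩
    have hne : (fib K q).Nonempty := ⟨a, ha⟩
    have hc := fib_compact hKc q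
    show t ≤ chord K q
    rw [chord_eq hK hKc hne]
    have h1 : sInf (fib K q) ≤ a := csInf_le hc.bddBelow ha
    have h2 : a' ≤ sSup (fib K q) := le_csSup hc.bddAbove ha'
    linarith

theorem lev_subset {K : Set (ℝ × ℝ)} {t : ℝ} (ht : 0 < t) : lev K t ⊆ Prod.snd '' K := by
  intro q hq
  by_contra hcon
  have : chord K q = 0 := chord_eq_zero hcon
  have hq' : t ≤ chord K q := hq
  linarith

theorem chord_concave {K : Set (ℝ × ℝ)} (hK : Convex ℝ K) (hKc : IsCompact K)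
    {q q' : ℝ} (hq : q ∈ Prod.snd '' K) (hq' : q' ∈ Prod.snd '' K) {θ : ℝ} (h0 : 0 ≤ θ)
    (h1 : θ ≤ 1) :
    (1 - θ) * chord K q + θ * chord K q' ≤ chord K ((1 - θ) • q + θ • q') := by
  have hne := fib_nonempty_iff.mpr hq
  have hne' := fib_nonempty_iff.mpr hq'
  have hc := fib_compact hKc q
  have hc' := fib_compact hKc q'
  have hcm := fib_compact hKc ((1 - θ) • q + θ • q')
  have hmix : ∀ a ∈ fib K q, ∀ a' ∈ fib K q',
      (1 - θ) * a + θ * a' ∈ fib K ((1 - θ) • q + θ • q') := by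
    intro a ha a' ha'
    have := hK ha ha' (by linarith : (0:ℝ) ≤ 1 - θ) h0 (by ring)
    rw [Prod.smul_mk, Prod.smul_mk, Prod.mk_add_mk] at this
    exact this
  have hnem : (fib K ((1 - θ) • q + θ • q')).Nonempty :=
    ⟨_, hmix _ (hc.sSup_mem hne) _ (hc'.sSup_mem hne')⟩
  rw [chord_eq hK hKc hne, chord_eq hK hKc hne', chord_eq hK hKc hnem]
  have hhi := le_csSup hcm.bddAbove (hmix _ (hc.sSup_mem hne) _ (hc'.sSup_mem hne'))
  have hlo := csInf_le hcm.bddBelow (hmix _ (hc.sInf_mem hne) _ (hc'.sInf_mem hne'))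
  linarith

theorem lev_convex {K : Set (ℝ × ℝ)} (hK : Convex ℝ K) (hKc : IsCompact K) {t : ℝ}
    (ht : 0 < t) : Convex ℝ (lev K t) := by
  intro q hq q' hq' θ₁ θ₂ h1 h2 h12
  have hq1 : t ≤ chord K q := hq
  have hq1' : t ≤ chord K q' := hq'
  have e : θ₁ = 1 - θ₂ := by linarith
  rw [e]
  have h := chord_concave hK hKc (lev_subset ht hq) (lev_subset ht hq') h2 (by linarith)
  show t ≤ chord K ((1 - θ₂) • q + θ₂ • q')
  have h3 : (1 - θ₂) * t ≤ (1 - θ₂) * chord K q := mul_le_mul_of_nonneg_left hq1 (by linarith)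
  have h4 : θ₂ * t ≤ θ₂ * chord K q' := mul_le_mul_of_nonneg_left hq1' h2
  linarith

theorem lev_compact {K : Set (ℝ × ℝ)} (hK : Convex ℝ K) (hKc : IsCompact K) {t : ℝ}
    (ht : 0 < t) : IsCompact (lev K t) := by
  have hbig : IsCompact ((Prod.fst '' K) ×ˢ ((Prod.fst '' K) ×ˢ (Prod.snd '' K))) :=
    (hKc.image continuous_fst).prod ((hKc.image continuous_fst).prod (hKc.image continuous_snd))
  have hcl : IsClosed {p : ℝ × ℝ × ℝ | (p.1, p.2.2) ∈ K ∧ (p.2.1, p.2.2) ∈ K ∧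
      t ≤ p.2.1 - p.1} := by
    have h1 : IsClosed {p : ℝ × ℝ × ℝ | (p.1, p.2.2) ∈ K} :=
      hKc.isClosed.preimage (by fun_prop)
    have h2 : IsClosed {p : ℝ × ℝ × ℝ | (p.2.1, p.2.2) ∈ K} :=
      hKc.isClosed.preimage (by fun_prop)
    have h3 : IsClosed {p : ℝ × ℝ × ℝ | t ≤ p.2.1 - p.1} :=
      isClosed_le continuous_const (by fun_prop)
    exact h1.inter (h2.inter h3)
  have hcomp := hbig.inter_right hcl
  have himg : lev K t = (fun p : ℝ × ℝ × ℝ => p.2.2) ''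
      (((Prod.fst '' K) ×ˢ ((Prod.fst '' K) ×ˢ (Prod.snd '' K))) ∩
        {p : ℝ × ℝ × ℝ | (p.1, p.2.2) ∈ K ∧ (p.2.1, p.2.2) ∈ K ∧ t ≤ p.2.1 - p.1}) := by
    ext q
    rw [mem_lev_iff hK hKc ht]
    constructor
    · rintro ⟨a, a', ha, ha', hle⟩
      refine ⟨(a, a', q), ⟨⟨⟨(a, q), ha, rfl⟩, ⟨(a', q), ha', rfl⟩, ⟨(a, q), ha, rfl⟩⟩,
        ha, ha', hle⟩, rfl⟩
    · rintro ⟨p, ⟨_, hp1, hp2, hp3⟩, rfl⟩
      exact ⟨p.1, p.2.1, hp1, hp2, hp3⟩
  rw [himg]
  exact hcomp.image (by fun_prop)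

theorem chord_measurable {K : Set (ℝ × ℝ)} (hKc : IsCompact K) : Measurable (chord K) := by
  unfold chord
  apply Measurable.ennreal_toReal
  exact measurable_measure_prodMk_right hKc.isClosed.measurableSet

theorem volume_eq_lintegral_chord {K : Set (ℝ × ℝ)} (hKc : IsCompact K) :
    volume K = ∫⁻ q, ENNReal.ofReal (chord K q) := by
  rw [Measure.volume_eq_prod, Measure.prod_apply_symm hKc.isClosed.measurableSet]
  apply lintegral_congr
  intro q
  exact (ofReal_chord hKc q).symm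

theorem volume_cyl_eq {K : Set (ℝ × ℝ)} (hKc : IsCompact K) {B : Set (ℝ)}
    (hB : MeasurableSet B) :
    volume (K ∩ Prod.snd ⁻¹' B) = ∫⁻ q in B, ENNReal.ofReal (chord K q) := by
  have hm : MeasurableSet (K ∩ (Prod.snd ⁻¹' B : Set (ℝ × ℝ))) :=
    hKc.isClosed.measurableSet.inter (measurable_snd hB)
  rw [Measure.volume_eq_prod, Measure.prod_apply_symm hm, ← lintegral_indicator hB]
  apply lintegral_congr
  intro q
  by_cases hq : q ∈ B
  · rw [indicator_of_mem hq, ofReal_chord hKc q]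
    congr 1
    ext a
    simp [fib, hq]
  · rw [indicator_of_notMem hq]
    have : (fun a : ℝ => (a, q)) ⁻¹' (K ∩ (Prod.snd ⁻¹' B : Set (ℝ × ℝ))) = ∅ := by
      ext a
      simp [hq]
    rw [this]
    simp

end Vale.Agent.Lib.P243.helper23.Pl
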