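import Mathlib
import Vale.Agent.Lib.P243.helper23.PlanarSec
import Vale.Agent.Lib.P243.helper23.LayerCake

open MeasureTheory Set
open scoped ENNReal Pointwise

namespace Vale.Agent.Lib.P243.helper23

namespace Pl

theorem chord_le_bound {K : Set (ℝ × ℝ)} (hKc : IsCompact K) (q : ℝ) :
    chord K q ≤ (volume (Prod.fst '' K)).toReal := by
  unfold chord
  apply ENNReal.toReal_mono (hKc.image continuous_fst).measure_lt_top.ne
  apply measure_mono
  intro a ha
  exact ⟨(a, q), ha, rfl⟩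

theorem mix_compact {A B : Set (ℝ × ℝ)} (hAc : IsCompact A) (hBc : IsCompact B) (θ : ℝ) :
    IsCompact ((1 - θ) • A + θ • B) := (hAc.smul _).add (hBc.smul _)

theorem mix_convex {A B : Set (ℝ × ℝ)} (hA : Convex ℝ A) (hB : Convex ℝ B) (θ : ℝ) :
    Convex ℝ ((1 - θ) • A + θ • B) := (hA.smul _).add (hB.smul _)

theorem lev_mix {A B : Set (ℝ × ℝ)} (hA : Convex ℝ A) (hB : Convex ℝ B) (hAc : IsCompact A)
    (hBc : IsCompact B) {θ : ℝ} (h0 : 0 < θ) (h1 : θ < 1) {s s' : ℝ} (hs : 0 < s)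
    (hs' : 0 < s') {t t' : ℝ} (ht : t ∈ lev A s) (ht' : t' ∈ lev B s') :
    (1 - θ) * t + θ * t' ∈ lev ((1 - θ) • A + θ • B) ((1 - θ) * s + θ * s') := by
  have hp1 : 0 < (1 - θ) * s := mul_pos (by linarith) hs
  have hp2 : 0 < θ * s' := mul_pos h0 hs'
  have hpos : 0 < (1 - θ) * s + θ * s' := by linarith
  rw [mem_lev_iff hA hAc hs] at ht
  rw [mem_lev_iff hB hBc hs'] at ht'
  rw [mem_lev_iff (mix_convex hA hB θ) (mix_compact hAc hBc θ) hpos]
  obtain ⟨a, a', ha, ha', hle⟩ := ht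
  obtain ⟨b, b', hb, hb', hle'⟩ := ht'
  refine ⟨(1 - θ) * a + θ * b, (1 - θ) * a' + θ * b', ?_, ?_, ?_⟩
  · refine ⟨_, smul_mem_smul_set ha, _, smul_mem_smul_set hb, ?_⟩
    simp
  · refine ⟨_, smul_mem_smul_set ha', _, smul_mem_smul_set hb', ?_⟩
    simp
  · have e1 : (1 - θ) * s ≤ (1 - θ) * (a' - a) := mul_le_mul_of_nonneg_left hle (by linarith)
    have e2 : θ * s' ≤ θ * (b' - b) := mul_le_mul_of_nonneg_left hle' h0.le
    linarith

theorem eq_Icc_of_compact_convex {S : Set ℝ} (hS : Convex ℝ S) (hSc : IsCompact S)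
    (hne : S.Nonempty) : S = Icc (sInf S) (sSup S) := by
  apply Subset.antisymm
  · intro b hb
    exact ⟨csInf_le hSc.bddBelow hb, le_csSup hSc.bddAbove hb⟩
  · have hoc : OrdConnected S := hS.ordConnected
    exact hoc.out (hSc.sInf_mem hne) (hSc.sSup_mem hne)

theorem lev_volume_mix {A B : Set (ℝ × ℝ)} (hA : Convex ℝ A) (hB : Convex ℝ B)
    (hAc : IsCompact A) (hBc : IsCompact B) {θ : ℝ} (h0 : 0 < θ) (h1 : θ < 1) {s s' : ℝ}
    (hs : 0 < s) (hs' : 0 < s') (hne : (lev A s).Nonempty) (hne' : (lev B s').Nonempty) :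
    ENNReal.ofReal (1 - θ) * volume (lev A s) + ENNReal.ofReal θ * volume (lev B s') ≤
      volume (lev ((1 - θ) • A + θ • B) ((1 - θ) * s + θ * s')) := by
  have hp1 : 0 < (1 - θ) * s := mul_pos (by linarith) hs
  have hp2 : 0 < θ * s' := mul_pos h0 hs'
  have hpos : 0 < (1 - θ) * s + θ * s' := by linarith
  have hLA := lev_compact hA hAc hs
  have hLB := lev_compact hB hBc hs'
  have eA := eq_Icc_of_compact_convex (lev_convex hA hAc hs) hLA hne
  have eB := eq_Icc_of_compact_convex (lev_convex hB hBc hs') hLB hne'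
  have hCconv := lev_convex (mix_convex hA hB θ) (mix_compact hAc hBc θ) hpos
  have hlo := lev_mix hA hB hAc hBc h0 h1 hs hs' (hLA.sInf_mem hne) (hLB.sInf_mem hne')
  have hhi := lev_mix hA hB hAc hBc h0 h1 hs hs' (hLA.sSup_mem hne) (hLB.sSup_mem hne')
  have hsub : Icc ((1 - θ) * sInf (lev A s) + θ * sInf (lev B s'))
      ((1 - θ) * sSup (lev A s) + θ * sSup (lev B s')) ⊆
      lev ((1 - θ) • A + θ • B) ((1 - θ) * s + θ * s') := hCconv.ordConnected.out hlo hhi
  have hab : sInf (lev A s) ≤ sSup (lev A s) := by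
    obtain ⟨x, hx⟩ := hne
    exact le_trans (csInf_le hLA.bddBelow hx) (le_csSup hLA.bddAbove hx)
  have hcd : sInf (lev B s') ≤ sSup (lev B s') := by
    obtain ⟨x, hx⟩ := hne'
    exact le_trans (csInf_le hLB.bddBelow hx) (le_csSup hLB.bddAbove hx)
  have vA : volume (lev A s) = ENNReal.ofReal (sSup (lev A s) - sInf (lev A s)) := by
    conv_lhs => rw [eA]
    rw [Real.volume_Icc]
  have vB : volume (lev B s') = ENNReal.ofReal (sSup (lev B s') - sInf (lev B s')) := by
    conv_lhs => rw [eB]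
    rw [Real.volume_Icc]
  rw [vA, vB, ← ENNReal.ofReal_mul (by linarith), ← ENNReal.ofReal_mul h0.le,
    ← ENNReal.ofReal_add (mul_nonneg (by linarith) (by linarith))
      (mul_nonneg h0.le (by linarith))]
  refine le_trans ?_ (measure_mono hsub)
  rw [Real.volume_Icc]
  apply ENNReal.ofReal_le_ofReal
  linarith

theorem mix_volume_ge_right {A B : Set (ℝ × ℝ)} (hAne : A.Nonempty) (θ : ℝ) :
    ENNReal.ofReal (θ ^ 2) * volume B ≤ volume ((1 - θ) • A + θ • B) := by
  obtain ⟨a, ha⟩ := hAne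
  have hsub : ((1 - θ) • a) +ᵥ (θ • B) ⊆ (1 - θ) • A + θ • B := by
    rintro x ⟨y, hy, rfl⟩
    exact ⟨_, smul_mem_smul_set ha, y, hy, rfl⟩
  have e : volume (θ • B) = ENNReal.ofReal (θ ^ 2) * volume B := by
    rw [Measure.addHaar_smul]
    simp
  calc ENNReal.ofReal (θ ^ 2) * volume B = volume (θ • B) := e.symm
    _ = volume (((1 - θ) • a) +ᵥ (θ • B)) := (measure_vadd _ _ _).symm
    _ ≤ _ := measure_mono hsub

theorem mix_volume_ge_left {A B : Set (ℝ × ℝ)} (hBne : B.Nonempty) (θ : ℝ) :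
    ENNReal.ofReal ((1 - θ) ^ 2) * volume A ≤ volume ((1 - θ) • A + θ • B) := by
  have h := mix_volume_ge_right (A := B) (B := A) hBne (1 - θ)
  rw [sub_sub_cancel, add_comm] at h
  exact h

end Pl

/-- Brunn-Minkowski inequality for compact convex sets in the plane. -/
theorem planar_bm {A B : Set (ℝ × ℝ)} (hA : Convex ℝ A) (hB : Convex ℝ B) (hAc : IsCompact A)
    (hBc : IsCompact B) (hAne : A.Nonempty) (hBne : B.Nonempty) {θ : ℝ} (h0 : 0 ≤ θ)
    (h1 : θ ≤ 1) :
    (1 - θ) * Real.sqrt (volume A).toReal + θ * Real.sqrt (volume B).toReal ≤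
      Real.sqrt (volume ((1 - θ) • A + θ • B)).toReal := by
  have hCc : IsCompact ((1 - θ) • A + θ • B) := Pl.mix_compact hAc hBc θ
  have hCfin : volume ((1 - θ) • A + θ • B) ≠ ⊤ := hCc.measure_lt_top.ne
  have hAfin : volume A ≠ ⊤ := hAc.measure_lt_top.ne
  have hBfin : volume B ≠ ⊤ := hBc.measure_lt_top.ne
  have hsa := Real.sqrt_nonneg (volume A).toReal
  have hsb := Real.sqrt_nonneg (volume B).toReal
  have key : ENNReal.ofReal (((1 - θ) * Real.sqrt (volume A).toReal +
      θ * Real.sqrt (volume B).toReal) ^ 2) ≤ volume ((1 - θ) • A + θ • B) := by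
    by_cases hL : (1 - θ) * Real.sqrt (volume A).toReal = 0
    · rw [hL, zero_add, mul_pow, Real.sq_sqrt ENNReal.toReal_nonneg,
        ENNReal.ofReal_mul (sq_nonneg θ), ENNReal.ofReal_toReal hBfin]
      exact Pl.mix_volume_ge_right hAne θ
    by_cases hR : θ * Real.sqrt (volume B).toReal = 0
    · rw [hR, add_zero, mul_pow, Real.sq_sqrt ENNReal.toReal_nonneg,
        ENNReal.ofReal_mul (sq_nonneg (1 - θ)), ENNReal.ofReal_toReal hAfin]
      exact Pl.mix_volume_ge_left hBne θ
    have hθ0 : 0 < θ := lt_of_le_of_ne h0 (fun h => hR (by rw [← h, zero_mul]))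
    have hθ1 : θ < 1 := lt_of_le_of_ne h1 (fun h => hL (by rw [h, sub_self, zero_mul]))
    have hA0 : volume A ≠ 0 := by
      intro h
      apply hL
      rw [h]
      simp
    have hB0 : volume B ≠ 0 := by
      intro h
      apply hR
      rw [h]
      simp
    have hposA : ∃ t, 0 < Pl.chord A t := by
      by_contra hcon
      apply hA0
      rw [Pl.volume_eq_lintegral_chord hAc]
      have : ∀ t, ENNReal.ofReal (Pl.chord A t) = 0 := by
        intro t
        rw [ENNReal.ofReal_eq_zero]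
        by_contra h
        exact hcon ⟨t, not_le.mp h⟩
      simp [this]
    have hposB : ∃ t, 0 < Pl.chord B t := by
      by_contra hcon
      apply hB0
      rw [Pl.volume_eq_lintegral_chord hBc]
      have : ∀ t, ENNReal.ofReal (Pl.chord B t) = 0 := by
        intro t
        rw [ENNReal.ofReal_eq_zero]
        by_contra h
        exact hcon ⟨t, not_le.mp h⟩
      simp [this]
    have hmain := layer_bm (Pl.chord A) (Pl.chord B)
      (Pl.chord ((1 - θ) • A + θ • B)) (Pl.chord_measurable hAc) (Pl.chord_measurable hBc)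
      (Pl.chord_measurable hCc) (Pl.chord_nonneg A) (Pl.chord_nonneg B) (Pl.chord_nonneg _)
      (volume (Prod.fst '' A)).toReal (volume (Prod.fst '' B)).toReal (Pl.chord_le_bound hAc)
      (Pl.chord_le_bound hBc) hposA hposB
      (by rw [← Pl.volume_eq_lintegral_chord hAc]; exact hAfin)
      (by rw [← Pl.volume_eq_lintegral_chord hBc]; exact hBfin) hθ0 hθ1
      (fun s s' hs hs' hne hne' =>
        Pl.lev_volume_mix hA hB hAc hBc hθ0 hθ1 hs hs' hne hne')
    rw [← Pl.volume_eq_lintegral_chord hAc, ← Pl.volume_eq_lintegral_chord hBc,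
      ← Pl.volume_eq_lintegral_chord hCc] at hmain
    exact hmain
  have h2 : ((1 - θ) * Real.sqrt (volume A).toReal + θ * Real.sqrt (volume B).toReal) ^ 2 ≤
      (volume ((1 - θ) • A + θ • B)).toReal := by
    have := ENNReal.toReal_mono hCfin key
    rwa [ENNReal.toReal_ofReal (sq_nonneg _)] at this
  have h3 : 0 ≤ (1 - θ) * Real.sqrt (volume A).toReal + θ * Real.sqrt (volume B).toReal :=
    add_nonneg (mul_nonneg (by linarith) hsa) (mul_nonneg h0 hsb)
  calc (1 - θ) * Real.sqrt (volume A).toReal + θ * Real.sqrt (volume B).toReal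
      = Real.sqrt (((1 - θ) * Real.sqrt (volume A).toReal +
          θ * Real.sqrt (volume B).toReal) ^ 2) := (Real.sqrt_sq h3).symm
    _ ≤ _ := Real.sqrt_le_sqrt h2

end Vale.Agent.Lib.P243.helper23
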