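import Mathlib

open MeasureTheory Set
open scoped ENNReal Pointwise

namespace Vale.Agent.Lib.P243.helper23

/-- Euclidean dot product on the coordinate plane. -/
def dot (x y : ℝ × ℝ) : ℝ := x.1 * y.1 + x.2 * y.2

theorem dot_comm (x y : ℝ × ℝ) : dot x y = dot y x := by unfold dot; ring

theorem dot_add_left (x y z : ℝ × ℝ) : dot (x + y) z = dot x z + dot y z := by
  unfold dot; simp only [Prod.fst_add, Prod.snd_add]; ring

theorem dot_sub_left (x y z : ℝ × ℝ) : dot (x - y) z = dot x z - dot y z := by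
  unfold dot; simp only [Prod.fst_sub, Prod.snd_sub]; ring

theorem dot_smul_left (a : ℝ) (x z : ℝ × ℝ) : dot (a • x) z = a * dot x z := by
  unfold dot; simp only [Prod.smul_fst, Prod.smul_snd, smul_eq_mul]; ring

theorem dot_add_right (x y z : ℝ × ℝ) : dot x (y + z) = dot x y + dot x z := by
  rw [dot_comm, dot_add_left, dot_comm y, dot_comm z]

theorem dot_sub_right (x y z : ℝ × ℝ) : dot x (y - z) = dot x y - dot x z := by
  rw [dot_comm, dot_sub_left, dot_comm y, dot_comm z]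

theorem dot_smul_right (a : ℝ) (x z : ℝ × ℝ) : dot x (a • z) = a * dot x z := by
  rw [dot_comm, dot_smul_left, dot_comm]

theorem dot_zero_left (z : ℝ × ℝ) : dot 0 z = 0 := by unfold dot; simp

theorem dot_sum_left {κ : Type*} (s : Finset κ) (f : κ → ℝ × ℝ) (z : ℝ × ℝ) :
    dot (∑ k ∈ s, f k) z = ∑ k ∈ s, dot (f k) z := by
  classical
  induction s using Finset.induction_on with
  | empty => simp [dot_zero_left]
  | insert a s ha ih => rw [Finset.sum_insert ha, Finset.sum_insert ha, dot_add_left, ih]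

theorem dot_self_nonneg (x : ℝ × ℝ) : 0 ≤ dot x x := by
  unfold dot; nlinarith [sq_nonneg x.1, sq_nonneg x.2]

theorem dot_cs (x y : ℝ × ℝ) : (dot x y) ^ 2 ≤ dot x x * dot y y := by
  unfold dot; nlinarith [sq_nonneg (x.1 * y.2 - x.2 * y.1)]

theorem continuous_dot_left (v : ℝ × ℝ) : Continuous (fun x : ℝ × ℝ => dot x v) := by
  unfold dot; fun_prop

/-- Bang's sign lemma in the plane. -/
theorem bang_signs {κ : Type*} [Fintype κ] (n : κ → ℝ × ℝ) (hn : ∀ k, dot (n k) (n k) = 1)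
    (h c : κ → ℝ) (hh : ∀ k, 0 < h k) (z : ℝ × ℝ) :
    ∃ σ : κ → ℝ, (∀ k, σ k = 1 ∨ σ k = -1) ∧
      ∀ k, h k ≤ |dot (z + ∑ j, (σ j * h j) • n j) (n k) - c k| := by
  classical
  obtain ⟨P, hP⟩ : ∃ P : (κ → ℝ) → ℝ × ℝ, ∀ σ, P σ = ∑ j, (σ j * h j) • n j := ⟨_, fun _ => rfl⟩
  obtain ⟨G, hG⟩ : ∃ G : (κ → ℝ) → ℝ, ∀ σ, G σ = dot (P σ) (P σ) +
      2 * ∑ j, σ j * h j * (dot z (n j) - c j) := ⟨_, fun _ => rfl⟩
  have hne : (Fintype.piFinset (fun _ : κ => ({1, -1} : Finset ℝ))).Nonempty :=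
    ⟨fun _ => 1, by simp [Fintype.mem_piFinset]⟩
  obtain ⟨σ, hσmem, hσ⟩ := Finset.exists_max_image _ G hne
  have hσ1 : ∀ k, σ k = 1 ∨ σ k = -1 := by
    intro k
    have := (Fintype.mem_piFinset.mp hσmem) k
    simpa using this
  refine ⟨σ, hσ1, ?_⟩
  intro k
  obtain ⟨σ', hσ'⟩ : ∃ σ' : κ → ℝ, σ' = fun j => if j = k then -σ k else σ j := ⟨_, rfl⟩
  have hmem' : σ' ∈ Fintype.piFinset (fun _ : κ => ({1, -1} : Finset ℝ)) := by
    rw [Fintype.mem_piFinset]
    intro j
    rw [hσ']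
    by_cases hj : j = k
    · simp only [hj, if_true]
      rcases hσ1 k with h1 | h1 <;> simp [h1]
    · simp only [hj, if_false]
      rcases hσ1 j with h1 | h1 <;> simp [h1]
  have hmax := hσ σ' hmem'
  have hPdiff : P σ' = P σ - (2 * σ k * h k) • n k := by
    rw [hP, hP]
    have e : ∀ j, (σ' j * h j) • n j = (σ j * h j) • n j -
        (if j = k then (2 * σ k * h k) • n k else 0) := by
      intro j
      rw [hσ']
      by_cases hj : j = k
      · subst hj
        simp only [if_true]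
        rw [← sub_smul]
        congr 1
        ring
      · simp [hj]
    rw [Finset.sum_congr rfl (fun j _ => e j), Finset.sum_sub_distrib,
      Finset.sum_ite_eq' Finset.univ k]
    simp
  have hSdiff : ∑ j, σ' j * h j * (dot z (n j) - c j) =
      ∑ j, σ j * h j * (dot z (n j) - c j) - 2 * σ k * h k * (dot z (n k) - c k) := by
    have e : ∀ j, σ' j * h j * (dot z (n j) - c j) = σ j * h j * (dot z (n j) - c j) -
        (if j = k then 2 * σ k * h k * (dot z (n k) - c k) else 0) := by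
      intro j
      rw [hσ']
      by_cases hj : j = k
      · subst hj
        simp only [if_true]
        ring
      · simp [hj]
    rw [Finset.sum_congr rfl (fun j _ => e j), Finset.sum_sub_distrib,
      Finset.sum_ite_eq' Finset.univ k]
    simp
  have hsq : σ k * σ k = 1 := by rcases hσ1 k with h1 | h1 <;> rw [h1] <;> norm_num
  rw [hG, hG, hPdiff, hSdiff] at hmax
  have e1 : dot (P σ - (2 * σ k * h k) • n k) (P σ - (2 * σ k * h k) • n k) =
      dot (P σ) (P σ) - 4 * σ k * h k * dot (P σ) (n k) + 4 * h k ^ 2 := by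
    rw [dot_sub_left, dot_sub_right, dot_sub_right, dot_smul_left, dot_smul_right, dot_smul_left,
      dot_smul_right, hn k, dot_comm (n k) (P σ)]
    have : (2 * σ k * h k) * ((2 * σ k * h k) * 1) = 4 * h k ^ 2 * (σ k * σ k) := by ring
    rw [hsq] at this
    linarith
  rw [e1] at hmax
  have hkey : h k * h k ≤ h k * (σ k * (dot (P σ) (n k) + dot z (n k) - c k)) := by
    nlinarith
  have hkey2 : h k ≤ σ k * (dot (P σ) (n k) + dot z (n k) - c k) :=
    le_of_mul_le_mul_left hkey (hh k)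
  have e2 : dot (z + ∑ j, (σ j * h j) • n j) (n k) - c k =
      dot (P σ) (n k) + dot z (n k) - c k := by
    rw [dot_add_left, ← hP]
    ring
  rw [e2]
  rcases hσ1 k with h1 | h1
  · rw [h1, one_mul] at hkey2
    exact le_trans hkey2 (le_abs_self _)
  · rw [h1] at hkey2
    have : h k ≤ -(dot (P σ) (n k) + dot z (n k) - c k) := by linarith
    exact le_trans this (neg_le_abs _)

/-- Every width of `S` (in unit directions of the plane) is at least `W`. -/
def WidthGE (S : Set (ℝ × ℝ)) (W : ℝ) : Prop :=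
  ∀ v : ℝ × ℝ, dot v v = 1 → ∃ x ∈ S, ∃ y ∈ S, W ≤ dot (x - y) v

theorem dot_clm (f : (ℝ × ℝ) →L[ℝ] ℝ) (x : ℝ × ℝ) :
    f x = dot x (f (1, 0), f (0, 1)) := by
  have hx : x = x.1 • ((1 : ℝ), (0 : ℝ)) + x.2 • ((0 : ℝ), (1 : ℝ)) := by
    ext <;> simp
  conv_lhs => rw [hx]
  rw [map_add, map_smul, map_smul]
  unfold dot
  simp

/-- A compact convex set all of whose widths are at least `W > 0` contains two points whose
difference is `W` times any prescribed unit vector. -/
theorem exists_diff_eq {S : Set (ℝ × ℝ)} (hSc : IsCompact S) (hS : Convex ℝ S)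
    (hne : S.Nonempty) {W : ℝ} (hW0 : 0 < W) (hW : WidthGE S W) (n : ℝ × ℝ)
    (hn : dot n n = 1) : ∃ a ∈ S, ∃ b ∈ S, a - b = W • n := by
  by_contra hcon
  have hnot : W • n ∉ S - S := by
    rintro ⟨a, ha, b, hb, hab⟩
    exact hcon ⟨a, ha, b, hb, hab⟩
  have hDc : IsCompact (S - S) := by
    rw [sub_eq_add_neg]
    exact hSc.add hSc.neg
  have hDconv : Convex ℝ (S - S) := hS.sub hS
  obtain ⟨f, u, hf1, hf2⟩ := geometric_hahn_banach_closed_point hDconv hDc.isClosed hnot
  obtain ⟨g, hg⟩ : ∃ g : ℝ × ℝ, g = (f (1, 0), f (0, 1)) := ⟨_, rfl⟩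
  have hfg : ∀ x, f x = dot x g := fun x => by rw [hg]; exact dot_clm f x
  obtain ⟨x0, hx0⟩ := hne
  have h0 : (0 : ℝ × ℝ) ∈ S - S := ⟨x0, hx0, x0, hx0, sub_self x0⟩
  have hu0 : 0 < u := by
    have := hf1 0 h0
    rwa [map_zero] at this
  have hgpos : 0 < dot g g := by
    rcases (dot_self_nonneg g).lt_or_eq with h | h
    · exact h
    · exfalso
      have hcs := dot_cs (W • n) g
      rw [← h, mul_zero] at hcs
      have hz : dot (W • n) g = 0 := by nlinarith
      rw [hfg, hz] at hf2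
      linarith
  obtain ⟨r, hr⟩ : ∃ r : ℝ, r = Real.sqrt (dot g g) := ⟨_, rfl⟩
  have hrpos : 0 < r := by rw [hr]; exact Real.sqrt_pos.mpr hgpos
  have hr2 : r * r = dot g g := by rw [hr]; exact Real.mul_self_sqrt hgpos.le
  have hvunit : dot (r⁻¹ • g) (r⁻¹ • g) = 1 := by
    rw [dot_smul_left, dot_smul_right, ← hr2]
    field_simp
  obtain ⟨x, hx, y, hy, hxy⟩ := hW (r⁻¹ • g) hvunit
  rw [dot_smul_right] at hxy
  have hfxy : f (x - y) < u := hf1 (x - y) ⟨x, hx, y, hy, rfl⟩
  rw [hfg] at hfxy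
  have h1 : W * r ≤ dot (x - y) g := by
    have := mul_le_mul_of_nonneg_left hxy hrpos.le
    rwa [← mul_assoc, mul_inv_cancel₀ hrpos.ne', one_mul, mul_comm] at this
  have h2 : dot (W • n) g ≤ W * r := by
    rw [dot_smul_left]
    have hcs := dot_cs n g
    rw [hn, one_mul, ← hr2] at hcs
    have : dot n g ≤ r := by nlinarith
    exact mul_le_mul_of_nonneg_left this hW0.le
  rw [hfg] at hf2
  linarith

/-- Shrinking step: the set of centres of segments of half-length `h` in direction `n` that fit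
inside `S`. -/
theorem shrink {S : Set (ℝ × ℝ)} (hSc : IsCompact S) (hS : Convex ℝ S) (hne : S.Nonempty)
    {W : ℝ} (hW : WidthGE S W) (n : ℝ × ℝ) (hn : dot n n = 1) {h : ℝ} (hh : 0 ≤ h)
    (h2 : 2 * h ≤ W) :
    IsCompact {x | x + h • n ∈ S ∧ x - h • n ∈ S} ∧ Convex ℝ {x | x + h • n ∈ S ∧ x - h • n ∈ S} ∧
      ({x | x + h • n ∈ S ∧ x - h • n ∈ S}).Nonempty ∧
      WidthGE {x | x + h • n ∈ S ∧ x - h • n ∈ S} (W - 2 * h) := by
  have hsub : {x | x + h • n ∈ S ∧ x - h • n ∈ S} ⊆ S := by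
    rintro x ⟨hx1, hx2⟩
    have := hS hx1 hx2 (by norm_num : (0 : ℝ) ≤ 1 / 2) (by norm_num : (0 : ℝ) ≤ 1 / 2)
      (by norm_num)
    have e : (1 / 2 : ℝ) • (x + h • n) + (1 / 2 : ℝ) • (x - h • n) = x := by
      rw [smul_add, smul_sub, add_add_sub_cancel, ← add_smul]
      norm_num
    rwa [e] at this
  have hclosed : IsClosed {x | x + h • n ∈ S ∧ x - h • n ∈ S} := by
    have h1 : IsClosed {x : ℝ × ℝ | x + h • n ∈ S} := hSc.isClosed.preimage (by fun_prop)
    have h2 : IsClosed {x : ℝ × ℝ | x - h • n ∈ S} := hSc.isClosed.preimage (by fun_prop)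
    exact h1.inter h2
  have hconv : Convex ℝ {x | x + h • n ∈ S ∧ x - h • n ∈ S} := by
    rintro x ⟨hx1, hx2⟩ y ⟨hy1, hy2⟩ a b ha hb hab
    constructor
    · have := hS hx1 hy1 ha hb hab
      have e : a • (x + h • n) + b • (y + h • n) = a • x + b • y + h • n := by
        rw [smul_add, smul_add, add_add_add_comm, ← add_smul, hab, one_smul]
      rwa [e] at this
    · have := hS hx2 hy2 ha hb hab
      have e : a • (x - h • n) + b • (y - h • n) = a • x + b • y - h • n := by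
        rw [smul_sub, smul_sub, sub_add_sub_comm, ← add_smul, hab, one_smul]
      rwa [e] at this
  refine ⟨hSc.of_isClosed_subset hclosed hsub, hconv, ?_, ?_⟩
  · -- nonempty
    rcases hh.eq_or_lt with h0 | hpos
    · obtain ⟨x, hx⟩ := hne
      refine ⟨x, ?_, ?_⟩ <;> simpa [← h0] using hx
    · have hW0 : 0 < W := by linarith
      obtain ⟨a, ha, b, hb, hab⟩ := exists_diff_eq hSc hS hne hW0 hW n hn
      obtain ⟨lam, hlam⟩ : ∃ lam : ℝ, lam = 2 * h / W := ⟨_, rfl⟩
      have hl0 : 0 ≤ lam := by rw [hlam]; positivity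
      have hl1 : lam ≤ 1 := by rw [hlam, div_le_one hW0]; exact h2
      have hlW : lam * W = 2 * h := by rw [hlam]; field_simp
      have hhn : h • n = (lam / 2) • (a - b) := by
        rw [hab, smul_smul]
        congr 1
        linarith
      refine ⟨(1 - lam) • a + lam • ((1 / 2 : ℝ) • (a + b)), ?_, ?_⟩
      · show (1 - lam) • a + lam • ((1 / 2 : ℝ) • (a + b)) + h • n ∈ S
        have e : (1 - lam) • a + lam • ((1 / 2 : ℝ) • (a + b)) + h • n = a := by
          rw [hhn]
          ext <;> simp <;> ring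
        rw [e]
        exact ha
      · show (1 - lam) • a + lam • ((1 / 2 : ℝ) • (a + b)) - h • n ∈ S
        have e : (1 - lam) • a + lam • ((1 / 2 : ℝ) • (a + b)) - h • n =
            (1 - lam) • a + lam • b := by
          rw [hhn]
          ext <;> simp <;> ring
        rw [e]
        exact hS ha hb (by linarith) hl0 (by ring)
  · -- widths
    intro v hv
    rcases hh.eq_or_lt with h0 | hpos
    · obtain ⟨x, hx, y, hy, hxy⟩ := hW v hv
      refine ⟨x, ⟨?_, ?_⟩, y, ⟨?_, ?_⟩, ?_⟩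
      · simpa [← h0] using hx
      · simpa [← h0] using hx
      · simpa [← h0] using hy
      · simpa [← h0] using hy
      · rw [← h0]; simpa using hxy
    · have hW0 : 0 < W := by linarith
      obtain ⟨a, ha, b, hb, hab⟩ := exists_diff_eq hSc hS hne hW0 hW n hn
      obtain ⟨lam, hlam⟩ : ∃ lam : ℝ, lam = 2 * h / W := ⟨_, rfl⟩
      have hl0 : 0 ≤ lam := by rw [hlam]; positivity
      have hl1 : lam ≤ 1 := by rw [hlam, div_le_one hW0]; exact h2
      have hlW : lam * W = 2 * h := by rw [hlam]; field_simp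
      have hhn : h • n = (lam / 2) • (a - b) := by
        rw [hab, smul_smul]
        congr 1
        linarith
      obtain ⟨x, hx, y, hy, hxy⟩ := hW v hv
      have hmem : ∀ p ∈ S, (1 - lam) • p + lam • ((1 / 2 : ℝ) • (a + b)) ∈
          {x | x + h • n ∈ S ∧ x - h • n ∈ S} := by
        intro p hp
        constructor
        · show (1 - lam) • p + lam • ((1 / 2 : ℝ) • (a + b)) + h • n ∈ S
          have e : (1 - lam) • p + lam • ((1 / 2 : ℝ) • (a + b)) + h • n =
              (1 - lam) • p + lam • a := by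
            rw [hhn]
            ext <;> simp <;> ring
          rw [e]
          exact hS hp ha (by linarith) hl0 (by ring)
        · show (1 - lam) • p + lam • ((1 / 2 : ℝ) • (a + b)) - h • n ∈ S
          have e : (1 - lam) • p + lam • ((1 / 2 : ℝ) • (a + b)) - h • n =
              (1 - lam) • p + lam • b := by
            rw [hhn]
            ext <;> simp <;> ring
          rw [e]
          exact hS hp hb (by linarith) hl0 (by ring)
      refine ⟨_, hmem x hx, _, hmem y hy, ?_⟩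
      have e : (1 - lam) • x + lam • ((1 / 2 : ℝ) • (a + b)) -
          ((1 - lam) • y + lam • ((1 / 2 : ℝ) • (a + b))) = (1 - lam) • (x - y) := by
        rw [add_sub_add_right_eq_sub, smul_sub]
      rw [e, dot_smul_left]
      have h3 : (1 - lam) * W ≤ (1 - lam) * dot (x - y) v :=
        mul_le_mul_of_nonneg_left hxy (by linarith)
      have h4 : (1 - lam) * W = W - 2 * h := by rw [← hlW]; ring
      linarith

/-- A compact convex set whose widths are all at least the total width of a family of segments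
contains a translate of all their signed sums. -/
theorem exists_center {κ : Type*} (s : Finset κ) (n : κ → ℝ × ℝ)
    (hn : ∀ k, dot (n k) (n k) = 1) (h : κ → ℝ) (hh : ∀ k, 0 ≤ h k) :
    ∀ S : Set (ℝ × ℝ), IsCompact S → Convex ℝ S → S.Nonempty → ∀ W : ℝ, WidthGE S W →
      ∑ k ∈ s, 2 * h k ≤ W →
      ∃ z : ℝ × ℝ, ∀ σ : κ → ℝ, (∀ k, σ k = 1 ∨ σ k = -1) →
        z + ∑ j ∈ s, (σ j * h j) • n j ∈ S := by
  classical
  induction s using Finset.induction_on with
  | empty =>
    intro S _ _ hne W _ _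
    obtain ⟨z, hz⟩ := hne
    exact ⟨z, fun σ _ => by simpa using hz⟩
  | insert a s ha ih =>
    intro S hSc hS hne W hW hsum
    rw [Finset.sum_insert ha] at hsum
    have hnn : 0 ≤ ∑ k ∈ s, 2 * h k :=
      Finset.sum_nonneg (fun k _ => mul_nonneg (by norm_num) (hh k))
    have h2 : 2 * h a ≤ W := by linarith
    obtain ⟨hc1, hc2, hc3, hc4⟩ := shrink hSc hS hne hW (n a) (hn a) (hh a) h2
    obtain ⟨z, hz⟩ := ih _ hc1 hc2 hc3 (W - 2 * h a) hc4 (by linarith)
    refine ⟨z, fun σ hσ => ?_⟩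
    rw [Finset.sum_insert ha]
    obtain ⟨hz1, hz2⟩ := hz σ hσ
    rcases hσ a with h1 | h1
    · rw [h1, one_mul]
      have e : z + (h a • n a + ∑ j ∈ s, (σ j * h j) • n j) =
          z + ∑ j ∈ s, (σ j * h j) • n j + h a • n a := by abel
      rw [e]
      exact hz1
    · rw [h1]
      have e : z + ((-1 * h a) • n a + ∑ j ∈ s, (σ j * h j) • n j) =
          z + ∑ j ∈ s, (σ j * h j) • n j - h a • n a := by
        rw [neg_one_mul, neg_smul]
        abel
      rw [e]
      exact hz2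

/-- Bang's plank theorem in the coordinate plane: finitely many closed planks covering a compact
convex set all of whose widths are at least `W` have total width at least `W`. -/
theorem bang_plane {κ : Type*} [Fintype κ] {S : Set (ℝ × ℝ)} (hSc : IsCompact S)
    (hS : Convex ℝ S) (hne : S.Nonempty) (n : κ → ℝ × ℝ) (hn : ∀ k, dot (n k) (n k) = 1)
    (c h : κ → ℝ) (hh : ∀ k, 0 < h k) (hcov : ∀ x ∈ S, ∃ k, |dot x (n k) - c k| ≤ h k)
    {W : ℝ} (hW : WidthGE S W) : W ≤ ∑ k, 2 * h k := by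
  by_contra hlt
  rw [not_le] at hlt
  obtain ⟨x0, hx0⟩ := hne
  obtain ⟨k0, _⟩ := hcov x0 hx0
  have hpos : 0 < ∑ k, 2 * h k :=
    Finset.sum_pos (fun k _ => by have := hh k; linarith) ⟨k0, Finset.mem_univ _⟩
  obtain ⟨ρ, hρdef⟩ : ∃ ρ : ℝ, ρ = W / ∑ k, 2 * h k := ⟨_, rfl⟩
  have hρ : 1 < ρ := by rw [hρdef]; exact (one_lt_div hpos).2 hlt
  have hsum' : ∑ k, 2 * (ρ * h k) ≤ W := by
    have e : ∑ k, 2 * (ρ * h k) = ρ * ∑ k, 2 * h k := by
      rw [Finset.mul_sum]
      exact Finset.sum_congr rfl (fun k _ => by ring)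
    rw [e, hρdef, div_mul_cancel₀ _ hpos.ne']
  obtain ⟨z, hz⟩ := exists_center Finset.univ n hn (fun k => ρ * h k)
    (fun k => (mul_pos (by linarith) (hh k)).le) S hSc hS ⟨x0, hx0⟩ W hW hsum'
  obtain ⟨σ, hσ, hσ2⟩ := bang_signs n hn (fun k => ρ * h k) c
    (fun k => mul_pos (by linarith) (hh k)) z
  obtain ⟨k, hk⟩ := hcov _ (hz σ hσ)
  have h1 := hσ2 k
  have h2 : h k < ρ * h k := by nlinarith [hh k]
  linarith

theorem norm_le_one_of_unit {v : ℝ × ℝ} (hv : dot v v = 1) : ‖v‖ ≤ 1 := by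
  unfold dot at hv
  rw [Prod.norm_def]
  apply max_le
  · rw [Real.norm_eq_abs, abs_le_one_iff_mul_self_le_one]
    nlinarith [mul_self_nonneg v.2]
  · rw [Real.norm_eq_abs, abs_le_one_iff_mul_self_le_one]
    nlinarith [mul_self_nonneg v.1]

theorem grid_disjoint {η : ℝ} (hη : 0 < η) {q q' : ℤ} (hne : q ≠ q') :
    Disjoint (Ioo ((q : ℝ) * η) (((q : ℝ) + 1) * η)) (Ioo ((q' : ℝ) * η) (((q' : ℝ) + 1) * η)) := by
  rw [Set.disjoint_left]
  rintro t ⟨h1, h2⟩ ⟨h3, h4⟩
  rcases lt_or_gt_of_ne hne with hlt | hlt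
  · have : (q : ℝ) + 1 ≤ (q' : ℝ) := by exact_mod_cast Int.add_one_le_iff.mpr hlt
    have := mul_le_mul_of_nonneg_right this hη.le
    linarith
  · have : (q' : ℝ) + 1 ≤ (q : ℝ) := by exact_mod_cast Int.add_one_le_iff.mpr hlt
    have := mul_le_mul_of_nonneg_right this hη.le
    linarith

theorem grid_count_le {η : ℝ} (hη : 0 < η) (F : Finset ℤ) {U : Set ℝ} (hUfin : volume U ≠ ⊤)
    (hF : ∀ q ∈ F, Icc ((q : ℝ) * η) (((q : ℝ) + 1) * η) ⊆ U) :
    ∑ _q ∈ F, η ≤ (volume U).toReal := by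
  have hdisj : Set.PairwiseDisjoint (↑F : Set ℤ)
      (fun q : ℤ => Ioo ((q : ℝ) * η) (((q : ℝ) + 1) * η)) := by
    intro a _ b _ hab
    exact grid_disjoint hη hab
  have hmeas := measure_biUnion_finset (μ := (volume : Measure ℝ)) hdisj
    (fun q _ => measurableSet_Ioo)
  have hsub : (⋃ q ∈ F, Ioo ((q : ℝ) * η) (((q : ℝ) + 1) * η)) ⊆ U := by
    intro t ht
    simp only [mem_iUnion] at ht
    obtain ⟨q, hq, ht⟩ := ht
    exact hF q hq (Ioo_subset_Icc_self ht)
  have hle := measure_mono (μ := (volume : Measure ℝ)) hsub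
  rw [hmeas] at hle
  have e : ∀ q : ℤ, volume (Ioo ((q : ℝ) * η) (((q : ℝ) + 1) * η)) = ENNReal.ofReal η := by
    intro q
    rw [Real.volume_Ioo]
    congr 1
    ring
  rw [Finset.sum_congr rfl (fun q _ => e q), ← ENNReal.ofReal_sum_of_nonneg (fun _ _ => hη.le)] at hle
  exact (ENNReal.ofReal_le_iff_le_toReal hUfin).mp hle

/-- Plank theorem in the coordinate plane for generalised strips: if a compact convex set all of
whose widths are at least `W` is covered by finitely many sets `{x | dot x (v i) ∈ A i}`, then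
the total (outer) measure of the sets `A i` is at least `W`. -/
theorem plank_plane {ι : Type*} [Fintype ι] {S : Set (ℝ × ℝ)} (hSc : IsCompact S)
    (hS : Convex ℝ S) (hne : S.Nonempty) (v : ι → ℝ × ℝ) (hv : ∀ i, dot (v i) (v i) = 1)
    (A : ι → Set ℝ) (hcov : ∀ x ∈ S, ∃ i, dot x (v i) ∈ A i) {W : ℝ} (hW : WidthGE S W) :
    ENNReal.ofReal W ≤ ∑ i, volume (A i) := by
  classical
  by_contra hlt
  rw [not_le] at hlt
  have hWpos : 0 < W := by
    by_contra h
    rw [ENNReal.ofReal_of_nonpos (not_lt.mp h)] at hlt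
    exact not_lt_zero hlt
  have hfin : ∀ i, volume (A i) ≠ ⊤ := by
    intro i
    have : volume (A i) ≤ ∑ j, volume (A j) :=
      Finset.single_le_sum (f := fun j => volume (A j)) (fun _ _ => zero_le) (Finset.mem_univ i)
    exact (lt_of_le_of_lt this (lt_trans hlt ENNReal.ofReal_lt_top)).ne
  have hsumreal : ∑ i, (volume (A i)).toReal < W := by
    have e : ∑ i, volume (A i) = ENNReal.ofReal (∑ i, (volume (A i)).toReal) := by
      rw [ENNReal.ofReal_sum_of_nonneg (fun i _ => ENNReal.toReal_nonneg)]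
      exact Finset.sum_congr rfl (fun i _ => (ENNReal.ofReal_toReal (hfin i)).symm)
    rw [e] at hlt
    exact (ENNReal.ofReal_lt_ofReal_iff hWpos).mp hlt
  obtain ⟨ε, hεdef⟩ : ∃ ε : ℝ, ε = (W - ∑ i, (volume (A i)).toReal) /
      (2 * ((Fintype.card ι : ℝ) + 1)) := ⟨_, rfl⟩
  have hcard : (0 : ℝ) ≤ (Fintype.card ι : ℝ) := Nat.cast_nonneg _
  have hεpos : 0 < ε := by
    rw [hεdef]
    exact div_pos (by linarith) (by linarith)
  have hε2 : ε * (2 * ((Fintype.card ι : ℝ) + 1)) = W - ∑ i, (volume (A i)).toReal := by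
    rw [hεdef]
    field_simp
  have hU : ∀ i, ∃ U : Set ℝ, U ⊇ A i ∧ IsOpen U ∧
      volume U < volume (A i) + ENNReal.ofReal ε :=
    fun i => (A i).exists_isOpen_lt_add (hfin i) (ENNReal.ofReal_pos.mpr hεpos).ne'
  choose U hUA hUo hUlt using hU
  have hAε : ∀ i, volume (A i) + ENNReal.ofReal ε ≠ ⊤ := fun i =>
    ENNReal.add_ne_top.mpr ⟨hfin i, ENNReal.ofReal_ne_top⟩
  have hUfin : ∀ i, volume (U i) ≠ ⊤ := fun i =>
    (lt_of_lt_of_le (hUlt i) le_top).ne
  have hUreal : ∀ i, (volume (U i)).toReal ≤ (volume (A i)).toReal + ε := by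
    intro i
    have := ENNReal.toReal_mono (hAε i) (hUlt i).le
    rwa [ENNReal.toReal_add (hfin i) ENNReal.ofReal_ne_top, ENNReal.toReal_ofReal hεpos.le]
      at this
  have hUsum : ∑ i, (volume (U i)).toReal < W := by
    have h1 : ∑ i, (volume (U i)).toReal ≤ ∑ i, ((volume (A i)).toReal + ε) :=
      Finset.sum_le_sum (fun i _ => hUreal i)
    rw [Finset.sum_add_distrib, Finset.sum_const, Finset.card_univ, nsmul_eq_mul] at h1
    nlinarith [mul_nonneg hcard hεpos.le]
  -- open cover and Lebesgue number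
  have hopen : ∀ i, IsOpen {x : ℝ × ℝ | dot x (v i) ∈ U i} := fun i =>
    (hUo i).preimage (continuous_dot_left (v i))
  have hsub : S ⊆ ⋃ i, {x : ℝ × ℝ | dot x (v i) ∈ U i} := by
    intro x hx
    obtain ⟨i, hi⟩ := hcov x hx
    exact mem_iUnion.mpr ⟨i, hUA i hi⟩
  obtain ⟨δ, hδ, hL⟩ := lebesgue_number_lemma_of_metric hSc hopen hsub
  -- bound on the coordinates
  have hb : ∀ i, ∃ R : ℝ, ∀ x ∈ S, ‖dot x (v i)‖ ≤ R := fun i =>
    hSc.exists_bound_of_continuousOn (continuous_dot_left (v i)).continuousOn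
  choose R0 hR0 using hb
  obtain ⟨R, hRdef⟩ : ∃ R : ℝ, R = ∑ i, |R0 i| := ⟨_, rfl⟩
  have hR : ∀ x ∈ S, ∀ i, |dot x (v i)| ≤ R := by
    intro x hx i
    have h1 := hR0 i x hx
    rw [Real.norm_eq_abs] at h1
    have h2 : |R0 i| ≤ R := by
      rw [hRdef]
      exact Finset.single_le_sum (f := fun j => |R0 j|) (fun _ _ => abs_nonneg _)
        (Finset.mem_univ i)
    exact le_trans h1 (le_trans (le_abs_self _) h2)
  obtain ⟨η, hηdef⟩ : ∃ η : ℝ, η = δ / 2 := ⟨_, rfl⟩
  have hη : 0 < η := by rw [hηdef]; linarith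
  have hηδ : η < δ := by rw [hηdef]; linarith
  obtain ⟨M, hMdef⟩ : ∃ M : ℤ, M = ⌈R / η⌉ + 1 := ⟨_, rfl⟩
  obtain ⟨F, hFdef⟩ : ∃ F : Finset (ι × ℤ), F = (Finset.univ ×ˢ Finset.Icc (-M) M).filter
      (fun p => Icc ((p.2 : ℝ) * η) (((p.2 : ℝ) + 1) * η) ⊆ U p.1) := ⟨_, rfl⟩
  have hcovF : ∀ x ∈ S, ∃ k : F, |dot x (v k.1.1) - (((k.1.2 : ℤ) : ℝ) + 1 / 2) * η| ≤ η / 2 := by
    intro x hx
    obtain ⟨i, hi⟩ := hL x hx
    obtain ⟨t, ht⟩ : ∃ t : ℝ, t = dot x (v i) := ⟨_, rfl⟩
    obtain ⟨q, hq⟩ : ∃ q : ℤ, q = ⌊t / η⌋ := ⟨_, rfl⟩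
    have hq1 : (q : ℝ) * η ≤ t := by
      have := Int.floor_le (t / η)
      rw [← hq, le_div_iff₀ hη] at this
      exact this
    have hq2 : t < ((q : ℝ) + 1) * η := by
      have := Int.lt_floor_add_one (t / η)
      rw [← hq, div_lt_iff₀ hη] at this
      exact this
    have hsubU : Icc ((q : ℝ) * η) (((q : ℝ) + 1) * η) ⊆ U i := by
      intro τ hτ
      have hy : x + (τ - t) • v i ∈ Metric.ball x δ := by
        rw [Metric.mem_ball, dist_eq_norm, add_sub_cancel_left, norm_smul, Real.norm_eq_abs]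
        have h1 : |τ - t| ≤ η := by
          rw [abs_le]
          constructor <;> linarith [hτ.1, hτ.2]
        calc |τ - t| * ‖v i‖ ≤ η * 1 :=
              mul_le_mul h1 (norm_le_one_of_unit (hv i)) (norm_nonneg _) hη.le
          _ < δ := by linarith
      have := hi hy
      have e : dot (x + (τ - t) • v i) (v i) = τ := by
        rw [dot_add_left, dot_smul_left, hv i, ← ht]
        ring
      have h2 : dot (x + (τ - t) • v i) (v i) ∈ U i := this
      rwa [e] at h2
    have hRt : |t| ≤ R := by rw [ht]; exact hR x hx i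
    have hqM : q ∈ Finset.Icc (-M) M := by
      rw [Finset.mem_Icc]
      have hc1 : R / η ≤ (⌈R / η⌉ : ℝ) := Int.le_ceil _
      have ht1 : t / η ≤ R / η := div_le_div_of_nonneg_right (le_trans (le_abs_self t) hRt) hη.le
      have ht2 : -(R / η) ≤ t / η := by
        rw [← neg_div]
        exact div_le_div_of_nonneg_right (by linarith [neg_abs_le t]) hη.le
      have hqf1 : (q : ℝ) ≤ t / η := by rw [hq]; exact Int.floor_le _
      have hqf2 : t / η < (q : ℝ) + 1 := by rw [hq]; exact Int.lt_floor_add_one _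
      constructor
      · have : (-(⌈R / η⌉ : ℝ)) < (q : ℝ) + 1 := by linarith
        have h3 : -⌈R / η⌉ < q + 1 := by exact_mod_cast this
        rw [hMdef]
        omega
      · have : (q : ℝ) ≤ (⌈R / η⌉ : ℝ) := by linarith
        have h3 : q ≤ ⌈R / η⌉ := by exact_mod_cast this
        rw [hMdef]
        omega
    have hmem : (i, q) ∈ F := by
      rw [hFdef, Finset.mem_filter, Finset.mem_product]
      exact ⟨⟨Finset.mem_univ i, hqM⟩, hsubU⟩
    refine ⟨⟨(i, q), hmem⟩, ?_⟩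
    show |dot x (v i) - ((q : ℝ) + 1 / 2) * η| ≤ η / 2
    rw [← ht, abs_le]
    constructor <;> linarith
  have hbang := bang_plane hSc hS hne (fun k : F => v k.1.1) (fun k => hv k.1.1)
    (fun k : F => (((k.1.2 : ℤ) : ℝ) + 1 / 2) * η) (fun _ => η / 2) (fun _ => by linarith)
    hcovF hW
  have e1 : ∑ _k : F, 2 * (η / 2) = ∑ _p ∈ F, η := by
    rw [Finset.sum_coe_sort F (fun _ => 2 * (η / 2))]
    exact Finset.sum_congr rfl (fun _ _ => by ring)
  rw [e1] at hbang
  have e2 : ∑ _p ∈ F, η = ∑ i, ∑ _q ∈ (Finset.Icc (-M) M).filter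
      (fun q : ℤ => Icc ((q : ℝ) * η) (((q : ℝ) + 1) * η) ⊆ U i), η := by
    rw [hFdef, Finset.sum_filter, Finset.sum_product]
    apply Finset.sum_congr rfl
    intro i _
    rw [Finset.sum_filter]
  have e3 : ∑ i, ∑ _q ∈ (Finset.Icc (-M) M).filter
      (fun q : ℤ => Icc ((q : ℝ) * η) (((q : ℝ) + 1) * η) ⊆ U i), η ≤
      ∑ i, (volume (U i)).toReal := by
    apply Finset.sum_le_sum
    intro i _
    apply grid_count_le hη _ (hUfin i)
    intro q hq
    exact (Finset.mem_filter.mp hq).2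
  linarith

end Vale.Agent.Lib.P243.helper23
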