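import Mathlib
import Vale.Agent.Lib.P243.helper23.Plank

open MeasureTheory Set
open scoped ENNReal

namespace Vale.Agent.Lib.P243.helper23

/-- Horizontal slice of a set in `(ℝ × ℝ) × ℝ` at height `z`. -/
def slc (K : Set ((ℝ × ℝ) × ℝ)) (z : ℝ) : Set (ℝ × ℝ) := {p | (p, z) ∈ K}

/-- Shadow of `K`: its image under `((x, y), z) ↦ (dot (x, y) w, z)`, that is, the projection of
`K` along the horizontal direction perpendicular to `w`, in planar coordinates. -/
def shadow (K : Set ((ℝ × ℝ) × ℝ)) (w : ℝ × ℝ) : Set (ℝ × ℝ) :=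
  (fun q : (ℝ × ℝ) × ℝ => (dot q.1 w, q.2)) '' K

theorem slc_compact {K : Set ((ℝ × ℝ) × ℝ)} (hKc : IsCompact K) (z : ℝ) :
    IsCompact (slc K z) := by
  have h : slc K z = Prod.fst '' (K ∩ {q | q.2 = z}) := by
    ext p
    constructor
    · intro hp
      exact ⟨(p, z), ⟨hp, rfl⟩, rfl⟩
    · rintro ⟨q, ⟨hq, hqz⟩, rfl⟩
      have hqz' : q.2 = z := hqz
      show (q.1, z) ∈ K
      rw [← hqz']
      exact hq
  rw [h]
  exact (hKc.inter_right (isClosed_eq continuous_snd continuous_const)).image continuous_fst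

theorem slc_mix {K : Set ((ℝ × ℝ) × ℝ)} (hK : Convex ℝ K) {z z' : ℝ} {p p' : ℝ × ℝ}
    (hp : p ∈ slc K z) (hp' : p' ∈ slc K z') {a b : ℝ} (ha : 0 ≤ a) (hb : 0 ≤ b)
    (hab : a + b = 1) : a • p + b • p' ∈ slc K (a * z + b * z') := by
  have := hK hp hp' ha hb hab
  rw [Prod.smul_mk, Prod.smul_mk, Prod.mk_add_mk] at this
  exact this

theorem slc_convex {K : Set ((ℝ × ℝ) × ℝ)} (hK : Convex ℝ K) (z : ℝ) :
    Convex ℝ (slc K z) := by
  intro p hp p' hp' a b ha hb hab
  have := slc_mix hK hp hp' ha hb hab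
  rw [← add_mul, hab, one_mul] at this
  exact this

theorem widthGE_of_mix {K : Set ((ℝ × ℝ) × ℝ)} (hK : Convex ℝ K) {zm ze z m lam : ℝ}
    (hm : WidthGE (slc K zm) m) (hne : (slc K ze).Nonempty) (hl0 : 0 ≤ lam) (hl1 : lam ≤ 1)
    (hz : z = (1 - lam) * ze + lam * zm) : WidthGE (slc K z) (lam * m) := by
  intro v hv
  obtain ⟨x, hx, y, hy, hxy⟩ := hm v hv
  obtain ⟨q, hq⟩ := hne
  refine ⟨(1 - lam) • q + lam • x, ?_, (1 - lam) • q + lam • y, ?_, ?_⟩
  · rw [hz]
    exact slc_mix hK hq hx (by linarith) hl0 (by ring)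
  · rw [hz]
    exact slc_mix hK hq hy (by linarith) hl0 (by ring)
  · rw [add_sub_add_left_eq_sub, ← smul_sub, dot_smul_left]
    exact mul_le_mul_of_nonneg_left hxy hl0

theorem lintegral_lin_up (a b c : ℝ) (hab : a ≤ b) (hc : 0 ≤ c) :
    ∫⁻ z in Ioc a b, ENNReal.ofReal (c * (z - a)) = ENNReal.ofReal (c * (b - a) ^ 2 / 2) := by
  have hint : ∫ z in a..b, c * (z - a) = c * (b - a) ^ 2 / 2 := by
    have h : ∀ z : ℝ, c * (z - a) = c * z - c * a := fun z => by ring
    simp_rw [h]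
    rw [intervalIntegral.integral_sub (by apply Continuous.intervalIntegrable; fun_prop)
      (by apply Continuous.intervalIntegrable; fun_prop), intervalIntegral.integral_const_mul,
      integral_id, intervalIntegral.integral_const]
    simp only [smul_eq_mul]
    ring
  rw [← hint, intervalIntegral.integral_of_le hab, ofReal_integral_eq_lintegral_ofReal]
  · have : Continuous fun z : ℝ => c * (z - a) := by fun_prop
    exact (this.intervalIntegrable a b).1
  · rw [Filter.EventuallyLE, ae_restrict_iff' measurableSet_Ioc]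
    exact Filter.Eventually.of_forall fun z hz => mul_nonneg hc (by linarith [hz.1])

theorem lintegral_lin_down (a b c : ℝ) (hab : a ≤ b) (hc : 0 ≤ c) :
    ∫⁻ z in Ioc a b, ENNReal.ofReal (c * (b - z)) = ENNReal.ofReal (c * (b - a) ^ 2 / 2) := by
  have hint : ∫ z in a..b, c * (b - z) = c * (b - a) ^ 2 / 2 := by
    have h : ∀ z : ℝ, c * (b - z) = c * b - c * z := fun z => by ring
    simp_rw [h]
    rw [intervalIntegral.integral_sub (by apply Continuous.intervalIntegrable; fun_prop)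
      (by apply Continuous.intervalIntegrable; fun_prop), intervalIntegral.integral_const,
      intervalIntegral.integral_const_mul, integral_id]
    simp only [smul_eq_mul]
    ring
  rw [← hint, intervalIntegral.integral_of_le hab, ofReal_integral_eq_lintegral_ofReal]
  · have : Continuous fun z : ℝ => c * (b - z) := by fun_prop
    exact (this.intervalIntegrable a b).1
  · rw [Filter.EventuallyLE, ae_restrict_iff' measurableSet_Ioc]
    exact Filter.Eventually.of_forall fun z hz => mul_nonneg hc (by linarith [hz.2])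

/-- Lower bound for the total base area: slicing plus the plank theorem. -/
theorem lower_bound {ι : Type*} [Fintype ι] {K : Set ((ℝ × ℝ) × ℝ)} (hK : Convex ℝ K)
    (hKc : IsCompact K) (v : ι → ℝ × ℝ) (hv : ∀ i, dot (v i) (v i) = 1) (β : ι → Set (ℝ × ℝ))
    (hβm : ∀ i, MeasurableSet (β i)) (hcov : ∀ q ∈ K, ∃ i, (dot q.1 (v i), q.2) ∈ β i)
    {z₀ z₁ : ℝ} (hlt : z₀ < z₁) (hZ : Prod.snd '' K = Icc z₀ z₁) {m : ℝ} (hm0 : 0 ≤ m)
    (hm : WidthGE (slc K ((z₀ + z₁) / 2)) m) :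
    ENNReal.ofReal (m * ((z₁ - z₀) / 2)) ≤ ∑ i, volume (β i) := by
  obtain ⟨mid, hmid⟩ : ∃ mid : ℝ, mid = (z₀ + z₁) / 2 := ⟨_, rfl⟩
  obtain ⟨hh, hhdef⟩ : ∃ hh : ℝ, hh = (z₁ - z₀) / 2 := ⟨_, rfl⟩
  rw [← hmid] at hm
  rw [← hhdef]
  have hhpos : 0 < hh := by rw [hhdef]; linarith
  have hmid0 : mid - z₀ = hh := by rw [hmid, hhdef]; ring
  have hmid1 : z₁ - mid = hh := by rw [hmid, hhdef]; ring
  have hne : ∀ z ∈ Icc z₀ z₁, (slc K z).Nonempty := by
    intro z hz
    rw [← hZ] at hz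
    obtain ⟨q, hq, rfl⟩ := hz
    exact ⟨q.1, hq⟩
  have hslice : ∀ z ∈ Icc z₀ z₁, ∀ W : ℝ, WidthGE (slc K z) W →
      ENNReal.ofReal W ≤ ∑ i, volume ((fun t : ℝ => (t, z)) ⁻¹' β i) := by
    intro z hz W hW
    exact plank_plane (slc_compact hKc z) (slc_convex hK z) (hne z hz) v hv
      (fun i => (fun t : ℝ => (t, z)) ⁻¹' β i) (fun p hp => hcov (p, z) hp) hW
  have hlow : ∀ z ∈ Ioc z₀ mid, ENNReal.ofReal (m / hh * (z - z₀)) ≤
      ∑ i, volume ((fun t : ℝ => (t, z)) ⁻¹' β i) := by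
    intro z hz
    have hzI : z ∈ Icc z₀ z₁ := ⟨hz.1.le, by linarith [hz.2]⟩
    have hW := widthGE_of_mix hK (zm := mid) (ze := z₀) (z := z) (lam := (z - z₀) / hh) hm
      (hne z₀ ⟨le_refl _, hlt.le⟩) (div_nonneg (by linarith [hz.1]) hhpos.le)
      (by rw [div_le_one hhpos]; linarith [hz.2])
      (by
        have h1 : (z - z₀) / hh * (mid - z₀) = z - z₀ := by
          rw [hmid0]; exact div_mul_cancel₀ _ hhpos.ne'
        linarith [h1])
    have := hslice z hzI _ hW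
    have e : m / hh * (z - z₀) = (z - z₀) / hh * m := by ring
    rw [e]
    exact this
  have hhigh : ∀ z ∈ Ioc mid z₁, ENNReal.ofReal (m / hh * (z₁ - z)) ≤
      ∑ i, volume ((fun t : ℝ => (t, z)) ⁻¹' β i) := by
    intro z hz
    have hzI : z ∈ Icc z₀ z₁ := ⟨by linarith [hz.1], hz.2⟩
    have hW := widthGE_of_mix hK (zm := mid) (ze := z₁) (z := z) (lam := (z₁ - z) / hh) hm
      (hne z₁ ⟨hlt.le, le_refl _⟩) (div_nonneg (by linarith [hz.2]) hhpos.le)
      (by rw [div_le_one hhpos]; linarith [hz.1])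
      (by
        have h1 : (z₁ - z) / hh * (z₁ - mid) = z₁ - z := by
          rw [hmid1]; exact div_mul_cancel₀ _ hhpos.ne'
        linarith [h1])
    have := hslice z hzI _ hW
    have e : m / hh * (z₁ - z) = (z₁ - z) / hh * m := by ring
    rw [e]
    exact this
  have hT : ∀ i, volume (β i) = ∫⁻ z, volume ((fun t : ℝ => (t, z)) ⁻¹' β i) := by
    intro i
    rw [Measure.volume_eq_prod, Measure.prod_apply_symm (hβm i)]
  have hmeas : ∀ i, Measurable (fun z : ℝ => volume ((fun t : ℝ => (t, z)) ⁻¹' β i)) :=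
    fun i => measurable_measure_prodMk_right (hβm i)
  have hc : 0 ≤ m / hh := div_nonneg hm0 hhpos.le
  have hdisj : Disjoint (Ioc z₀ mid) (Ioc mid z₁) := by
    rw [Set.disjoint_left]
    rintro z ⟨_, h1⟩ ⟨h2, _⟩
    linarith
  calc ENNReal.ofReal (m * hh)
      = ENNReal.ofReal (m / hh * (mid - z₀) ^ 2 / 2) +
          ENNReal.ofReal (m / hh * (z₁ - mid) ^ 2 / 2) := by
        rw [← ENNReal.ofReal_add (by positivity) (by positivity), hmid0, hmid1]
        congr 1
        field_simp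
        ring
    _ = (∫⁻ z in Ioc z₀ mid, ENNReal.ofReal (m / hh * (z - z₀))) +
          ∫⁻ z in Ioc mid z₁, ENNReal.ofReal (m / hh * (z₁ - z)) := by
        rw [lintegral_lin_up z₀ mid _ (by linarith) hc, lintegral_lin_down mid z₁ _ (by linarith) hc]
    _ ≤ (∫⁻ z in Ioc z₀ mid, ∑ i, volume ((fun t : ℝ => (t, z)) ⁻¹' β i)) +
          ∫⁻ z in Ioc mid z₁, ∑ i, volume ((fun t : ℝ => (t, z)) ⁻¹' β i) :=
        add_le_add (setLIntegral_mono' measurableSet_Ioc hlow)
          (setLIntegral_mono' measurableSet_Ioc hhigh)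
    _ = ∫⁻ z in Ioc z₀ mid ∪ Ioc mid z₁, ∑ i, volume ((fun t : ℝ => (t, z)) ⁻¹' β i) :=
        (lintegral_union measurableSet_Ioc hdisj).symm
    _ ≤ ∫⁻ z, ∑ i, volume ((fun t : ℝ => (t, z)) ⁻¹' β i) := setLIntegral_le_lintegral _ _
    _ = ∑ i, ∫⁻ z, volume ((fun t : ℝ => (t, z)) ⁻¹' β i) :=
        lintegral_finsetSum _ (fun i _ => hmeas i)
    _ = ∑ i, volume (β i) := Finset.sum_congr rfl (fun i _ => (hT i).symm)

theorem shadow_compact {K : Set ((ℝ × ℝ) × ℝ)} (hKc : IsCompact K) (w : ℝ × ℝ) :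
    IsCompact (shadow K w) := by
  unfold shadow
  apply hKc.image
  exact ((continuous_dot_left w).comp continuous_fst).prodMk continuous_snd

theorem shadow_sec (K : Set ((ℝ × ℝ) × ℝ)) (w : ℝ × ℝ) (z : ℝ) :
    (fun t : ℝ => (t, z)) ⁻¹' shadow K w = (fun p => dot p w) '' slc K z := by
  ext t
  constructor
  · rintro ⟨q, hq, hqe⟩
    have h1 : dot q.1 w = t := congrArg Prod.fst hqe
    have h2 : q.2 = z := congrArg Prod.snd hqe
    refine ⟨q.1, ?_, h1⟩
    show (q.1, z) ∈ K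
    rw [← h2]
    exact hq
  · rintro ⟨p, hp, rfl⟩
    exact ⟨(p, z), hp, rfl⟩

theorem sec_pair_le {K : Set ((ℝ × ℝ) × ℝ)} (hK : Convex ℝ K) (hKc : IsCompact K) (w : ℝ × ℝ)
    {z z' : ℝ} (hz : (slc K z).Nonempty) (hz' : (slc K z').Nonempty) {m : ℝ}
    (hm : ∀ x ∈ slc K ((z + z') / 2), ∀ y ∈ slc K ((z + z') / 2), dot (x - y) w ≤ m) :
    volume ((fun p => dot p w) '' slc K z) + volume ((fun p => dot p w) '' slc K z') ≤
      ENNReal.ofReal (2 * m) := by
  have hc := (continuous_dot_left w).continuousOn (s := slc K z)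
  have hc' := (continuous_dot_left w).continuousOn (s := slc K z')
  obtain ⟨p1, hp1, hmax⟩ := (slc_compact hKc z).exists_isMaxOn hz hc
  obtain ⟨p2, hp2, hmin⟩ := (slc_compact hKc z).exists_isMinOn hz hc
  obtain ⟨q1, hq1, hmax'⟩ := (slc_compact hKc z').exists_isMaxOn hz' hc'
  obtain ⟨q2, hq2, hmin'⟩ := (slc_compact hKc z').exists_isMinOn hz' hc'
  have hsub : (fun p => dot p w) '' slc K z ⊆ Icc (dot p2 w) (dot p1 w) := by
    rintro _ ⟨p, hp, rfl⟩
    exact ⟨hmin hp, hmax hp⟩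
  have hsub' : (fun p => dot p w) '' slc K z' ⊆ Icc (dot q2 w) (dot q1 w) := by
    rintro _ ⟨p, hp, rfl⟩
    exact ⟨hmin' hp, hmax' hp⟩
  have h1 : volume ((fun p => dot p w) '' slc K z) ≤ ENNReal.ofReal (dot p1 w - dot p2 w) := by
    refine le_trans (measure_mono hsub) ?_
    rw [Real.volume_Icc]
  have h2 : volume ((fun p => dot p w) '' slc K z') ≤ ENNReal.ofReal (dot q1 w - dot q2 w) := by
    refine le_trans (measure_mono hsub') ?_
    rw [Real.volume_Icc]
  have hd1 : 0 ≤ dot p1 w - dot p2 w := sub_nonneg.mpr (hmax hp2)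
  have hd2 : 0 ≤ dot q1 w - dot q2 w := sub_nonneg.mpr (hmax' hq2)
  have hmid1 : (1 / 2 : ℝ) • p1 + (1 / 2 : ℝ) • q1 ∈ slc K ((z + z') / 2) := by
    have := slc_mix hK hp1 hq1 (by norm_num : (0 : ℝ) ≤ 1 / 2) (by norm_num : (0 : ℝ) ≤ 1 / 2)
      (by norm_num)
    have e : 1 / 2 * z + 1 / 2 * z' = (z + z') / 2 := by ring
    rwa [e] at this
  have hmid2 : (1 / 2 : ℝ) • p2 + (1 / 2 : ℝ) • q2 ∈ slc K ((z + z') / 2) := by
    have := slc_mix hK hp2 hq2 (by norm_num : (0 : ℝ) ≤ 1 / 2) (by norm_num : (0 : ℝ) ≤ 1 / 2)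
      (by norm_num)
    have e : 1 / 2 * z + 1 / 2 * z' = (z + z') / 2 := by ring
    rwa [e] at this
  have hkey := hm _ hmid1 _ hmid2
  rw [dot_sub_left, dot_add_left, dot_add_left, dot_smul_left, dot_smul_left, dot_smul_left,
    dot_smul_left] at hkey
  calc volume ((fun p => dot p w) '' slc K z) + volume ((fun p => dot p w) '' slc K z')
      ≤ ENNReal.ofReal (dot p1 w - dot p2 w) + ENNReal.ofReal (dot q1 w - dot q2 w) :=
        add_le_add h1 h2
    _ = ENNReal.ofReal ((dot p1 w - dot p2 w) + (dot q1 w - dot q2 w)) :=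
        (ENNReal.ofReal_add hd1 hd2).symm
    _ ≤ ENNReal.ofReal (2 * m) := ENNReal.ofReal_le_ofReal (by linarith)

/-- Upper bound for the area of a shadow in terms of the width of the middle slice. -/
theorem shadow_le {K : Set ((ℝ × ℝ) × ℝ)} (hK : Convex ℝ K) (hKc : IsCompact K) {z₀ z₁ : ℝ}
    (hle : z₀ ≤ z₁) (hZ : Prod.snd '' K = Icc z₀ z₁) (w : ℝ × ℝ) {m : ℝ}
    (hm : ∀ x ∈ slc K ((z₀ + z₁) / 2), ∀ y ∈ slc K ((z₀ + z₁) / 2), dot (x - y) w ≤ m) :
    volume (shadow K w) ≤ ENNReal.ofReal (m * (z₁ - z₀)) := by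
  have hsm : MeasurableSet (shadow K w) := (shadow_compact hKc w).isClosed.measurableSet
  obtain ⟨g, hg⟩ : ∃ g : ℝ → ℝ≥0∞,
      g = fun z => volume ((fun t : ℝ => (t, z)) ⁻¹' shadow K w) := ⟨_, rfl⟩
  have hgz : ∀ z, g z = volume ((fun p => dot p w) '' slc K z) := by
    intro z
    rw [hg]
    show volume ((fun t : ℝ => (t, z)) ⁻¹' shadow K w) = _
    rw [shadow_sec]
  have hgm : Measurable g := by
    rw [hg]
    exact measurable_measure_prodMk_right hsm
  have hvol : volume (shadow K w) = ∫⁻ z, g z := by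
    rw [hg, Measure.volume_eq_prod, Measure.prod_apply_symm hsm]
  have hne : ∀ z ∈ Icc z₀ z₁, (slc K z).Nonempty := by
    intro z hz
    rw [← hZ] at hz
    obtain ⟨q, hq, rfl⟩ := hz
    exact ⟨q.1, hq⟩
  have hempty : ∀ z, z ∉ Icc z₀ z₁ → g z = 0 := by
    intro z hz
    rw [hgz]
    have : slc K z = ∅ := by
      rw [Set.eq_empty_iff_forall_notMem]
      intro p hp
      apply hz
      rw [← hZ]
      exact ⟨(p, z), hp, rfl⟩
    rw [this]
    simp
  have hm0 : 0 ≤ m := by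
    obtain ⟨p, hp⟩ := hne ((z₀ + z₁) / 2) ⟨by linarith, by linarith⟩
    have := hm p hp p hp
    rwa [sub_self, dot_zero_left] at this
  have hpair : ∀ z, g z + g (z₀ + z₁ - z) ≤
      (Icc z₀ z₁).indicator (fun _ => ENNReal.ofReal (2 * m)) z := by
    intro z
    by_cases hz : z ∈ Icc z₀ z₁
    · rw [indicator_of_mem hz]
      have hz' : z₀ + z₁ - z ∈ Icc z₀ z₁ := ⟨by linarith [hz.2], by linarith [hz.1]⟩
      rw [hgz, hgz]
      apply sec_pair_le hK hKc w (hne z hz) (hne _ hz')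
      have e : (z + (z₀ + z₁ - z)) / 2 = (z₀ + z₁) / 2 := by ring
      rw [e]
      exact hm
    · rw [indicator_of_notMem hz]
      have hz' : z₀ + z₁ - z ∉ Icc z₀ z₁ := by
        intro h
        apply hz
        exact ⟨by linarith [h.2], by linarith [h.1]⟩
      rw [hempty z hz, hempty _ hz']
      simp
  have hrefl : ∫⁻ z, g (z₀ + z₁ - z) = ∫⁻ z, g z := lintegral_sub_left_eq_self g (z₀ + z₁)
  have hd : 0 ≤ z₁ - z₀ := by linarith
  have h2 : volume (shadow K w) + volume (shadow K w) ≤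
      ENNReal.ofReal (m * (z₁ - z₀)) + ENNReal.ofReal (m * (z₁ - z₀)) := by
    calc volume (shadow K w) + volume (shadow K w)
        = (∫⁻ z, g z) + ∫⁻ z, g (z₀ + z₁ - z) := by rw [hvol, hrefl]
      _ = ∫⁻ z, (g z + g (z₀ + z₁ - z)) := (lintegral_add_left hgm _).symm
      _ ≤ ∫⁻ z, (Icc z₀ z₁).indicator (fun _ => ENNReal.ofReal (2 * m)) z :=
          lintegral_mono hpair
      _ = ENNReal.ofReal (2 * m) * volume (Icc z₀ z₁) := by
          rw [lintegral_indicator measurableSet_Icc, setLIntegral_const]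
      _ = ENNReal.ofReal (m * (z₁ - z₀)) + ENNReal.ofReal (m * (z₁ - z₀)) := by
          rw [Real.volume_Icc, ← ENNReal.ofReal_mul (by linarith),
            ← ENNReal.ofReal_add (mul_nonneg hm0 hd) (mul_nonneg hm0 hd)]
          congr 1
          ring
  by_contra hcon
  rw [not_le] at hcon
  exact absurd h2 (not_le.mpr (ENNReal.add_lt_add hcon hcon))

theorem icc_of_compact_convex {S : Set ℝ} (hS : Convex ℝ S) (hSc : IsCompact S)
    (hne : S.Nonempty) : S = Icc (sInf S) (sSup S) := by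
  apply Subset.antisymm
  · intro b hb
    exact ⟨csInf_le hSc.bddBelow hb, le_csSup hSc.bddAbove hb⟩
  · have hoc : OrdConnected S := hS.ordConnected
    exact hoc.out (hSc.sInf_mem hne) (hSc.sSup_mem hne)

/-- Coordinate form of the half-area bound for cylinders whose axes are parallel to a plane.
`K` is a compact convex set in coordinates `((x, y), z)`; the `i`-th cylinder consists of the
points `q` with `(dot q.1 (v i), q.2) ∈ β i`, where `v i` is a horizontal unit vector (the axis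
is horizontal and perpendicular to `v i`) and `β i` is the base in planar coordinates.  If `A`
is a lower bound for the areas of all shadows of `K` along horizontal directions, then `A` is at
most twice the total base area. -/
theorem coplanar_coord {ι : Type*} [Fintype ι] (K : Set ((ℝ × ℝ) × ℝ)) (hK : Convex ℝ K)
    (hKc : IsCompact K) (hne : K.Nonempty) (v : ι → ℝ × ℝ) (hv : ∀ i, dot (v i) (v i) = 1)
    (β : ι → Set (ℝ × ℝ)) (hcov : ∀ q ∈ K, ∃ i, (dot q.1 (v i), q.2) ∈ β i) (A : ℝ≥0∞)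
    (hA : ∀ w : ℝ × ℝ, dot w w = 1 → A ≤ volume (shadow K w)) :
    A ≤ 2 * ∑ i, volume (β i) := by
  -- measurable hulls of the bases
  obtain ⟨β', hβ'⟩ : ∃ β' : ι → Set (ℝ × ℝ), β' = fun i => toMeasurable volume (β i) :=
    ⟨_, rfl⟩
  have hβ'm : ∀ i, MeasurableSet (β' i) := fun i => by
    rw [hβ']; exact measurableSet_toMeasurable _ _
  have hβ'v : ∀ i, volume (β' i) = volume (β i) := fun i => by
    rw [hβ']; exact measure_toMeasurable _
  have hcov' : ∀ q ∈ K, ∃ i, (dot q.1 (v i), q.2) ∈ β' i := by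
    intro q hq
    obtain ⟨i, hi⟩ := hcov q hq
    refine ⟨i, ?_⟩
    rw [hβ']
    exact subset_toMeasurable _ _ hi
  rw [← Finset.sum_congr rfl (fun i _ => hβ'v i)]
  -- the height interval
  have hZc : IsCompact (Prod.snd '' K) := hKc.image continuous_snd
  have hZconv : Convex ℝ (Prod.snd '' K) := hK.linear_image (LinearMap.snd ℝ (ℝ × ℝ) ℝ)
  have hZne : (Prod.snd '' K).Nonempty := hne.image _
  have hZ := icc_of_compact_convex hZconv hZc hZne
  obtain ⟨z₀, hz₀⟩ : ∃ z₀ : ℝ, z₀ = sInf (Prod.snd '' K) := ⟨_, rfl⟩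
  obtain ⟨z₁, hz₁⟩ : ∃ z₁ : ℝ, z₁ = sSup (Prod.snd '' K) := ⟨_, rfl⟩
  rw [← hz₀, ← hz₁] at hZ
  have hle : z₀ ≤ z₁ := by
    obtain ⟨t, ht⟩ := hZne
    rw [hZ] at ht
    exact le_trans ht.1 ht.2
  rcases hle.eq_or_lt with heq | hlt
  · -- flat case: every shadow is a null set
    have hw : dot ((1 : ℝ), (0 : ℝ)) ((1 : ℝ), (0 : ℝ)) = 1 := by unfold dot; norm_num
    have h1 := hA _ hw
    have hsub : shadow K ((1 : ℝ), (0 : ℝ)) ⊆ (univ : Set ℝ) ×ˢ ({z₀} : Set ℝ) := by
      rintro _ ⟨q, hq, rfl⟩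
      refine ⟨mem_univ _, ?_⟩
      have : q.2 ∈ Prod.snd '' K := ⟨q, hq, rfl⟩
      rw [hZ, ← heq] at this
      show q.2 = z₀
      exact le_antisymm this.2 this.1
    have h0 : volume ((univ : Set ℝ) ×ˢ ({z₀} : Set ℝ)) = 0 := by
      rw [Measure.volume_eq_prod, Measure.prod_prod]
      simp
    have h2 : volume (shadow K ((1 : ℝ), (0 : ℝ))) = 0 :=
      le_antisymm (le_trans (measure_mono hsub) h0.le) zero_le
    rw [h2] at h1
    exact le_trans h1 zero_le
  · -- main case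
    obtain ⟨T, hT⟩ : ∃ T : ℝ≥0∞, T = ∑ i, volume (β' i) := ⟨_, rfl⟩
    rw [← hT]
    by_cases hTtop : T = ⊤
    · rw [hTtop]
      simp
    obtain ⟨hh, hhdef⟩ : ∃ hh : ℝ, hh = (z₁ - z₀) / 2 := ⟨_, rfl⟩
    have hhpos : 0 < hh := by rw [hhdef]; linarith
    apply ENNReal.le_of_forall_pos_le_add
    intro ε hε _
    obtain ⟨m, hmdef⟩ : ∃ m : ℝ, m = (T.toReal + (ε : ℝ) / 2) / hh := ⟨_, rfl⟩
    have hεr : (0 : ℝ) < (ε : ℝ) := by exact_mod_cast hε
    have hm0 : 0 ≤ m := by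
      rw [hmdef]
      exact div_nonneg (by have := ENNReal.toReal_nonneg (a := T); linarith) hhpos.le
    have hmh : m * hh = T.toReal + (ε : ℝ) / 2 := by
      rw [hmdef]
      exact div_mul_cancel₀ _ hhpos.ne'
    have hnot : ¬ WidthGE (slc K ((z₀ + z₁) / 2)) m := by
      intro hW
      have h1 := lower_bound hK hKc v hv β' hβ'm hcov' hlt hZ hm0 hW
      rw [← hhdef, hmh, ← hT] at h1
      have h2 := (ENNReal.ofReal_le_iff_le_toReal hTtop).mp h1
      linarith
    unfold WidthGE at hnot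
    push Not at hnot
    obtain ⟨w, hw, hwlt⟩ := hnot
    have h3 := shadow_le hK hKc hle hZ w (m := m) (fun x hx y hy => (hwlt x hx y hy).le)
    have h4 := le_trans (hA w hw) h3
    have e : m * (z₁ - z₀) = 2 * T.toReal + (ε : ℝ) := by
      have : z₁ - z₀ = 2 * hh := by rw [hhdef]; ring
      rw [this, ← mul_assoc, mul_comm m 2, mul_assoc, hmh]
      ring
    rw [e, ENNReal.ofReal_add (by have := ENNReal.toReal_nonneg (a := T); linarith) hεr.le,
      ENNReal.ofReal_mul (by norm_num), ENNReal.ofReal_toReal hTtop,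
      ENNReal.ofReal_coe_nnreal] at h4
    simpa using h4

end Vale.Agent.Lib.P243.helper23
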