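import Mathlib
import Vale.Agent.Lib.P243.helper23.Coplanar

open MeasureTheory Measure Set
open scoped ENNReal NNReal InnerProductSpace

namespace Vale.Agent.Lib.P243.helper23

variable {E : Type*} [NormedAddCommGroup E] [InnerProductSpace ℝ E]

/-- The linear parametrisation `(t, z) ↦ t • a + z • n` of a plane. -/
noncomputable def plane (a n : E) (p : ℝ × ℝ) : E := p.1 • a + p.2 • n

/-- Planar area of the image of a set under an orthonormal parametrisation of a plane. -/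
theorem area_plane [MeasurableSpace E] [BorelSpace E] {a n : E} (ha : ‖a‖ = 1) (hn : ‖n‖ = 1)
    (han : ⟪a, n⟫_ℝ = 0) (S : Set (ℝ × ℝ)) :
    (μHE[2] : Measure E) (plane a n '' S) = volume S := by
  have haa : ⟪a, a⟫_ℝ = 1 := by rw [real_inner_self_eq_norm_sq, ha]; norm_num
  have hnn : ⟪n, n⟫_ℝ = 1 := by rw [real_inner_self_eq_norm_sq, hn]; norm_num
  have hna : ⟪n, a⟫_ℝ = 0 := by rw [real_inner_comm]; exact han
  obtain ⟨L, hL⟩ : ∃ L : EuclideanSpace ℝ (Fin 2) →ₗ[ℝ] E, ∀ x, L x = x 0 • a + x 1 • n := by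
    refine ⟨{ toFun := fun x => x 0 • a + x 1 • n, map_add' := ?_, map_smul' := ?_ }, fun _ => rfl⟩
    · intro x y
      simp only [PiLp.add_apply]
      module
    · intro c x
      simp only [PiLp.smul_apply, smul_eq_mul, RingHom.id_apply]
      module
  have hnorm : ∀ x, ‖L x‖ = ‖x‖ := by
    intro x
    have h1 : ‖L x‖ ^ 2 = ‖x‖ ^ 2 := by
      rw [← real_inner_self_eq_norm_sq, hL, EuclideanSpace.real_norm_sq_eq, Fin.sum_univ_two]
      simp only [inner_add_left, inner_add_right, real_inner_smul_left, real_inner_smul_right,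
        haa, hnn, han, hna]
      ring
    have h2 := abs_eq_abs.mpr (sq_eq_sq_iff_eq_or_eq_neg.mp h1)
    rwa [abs_of_nonneg (norm_nonneg _), abs_of_nonneg (norm_nonneg _)] at h2
  have hiso : Isometry L := AddMonoidHomClass.isometry_of_norm L hnorm
  obtain ⟨g, hg⟩ : ∃ g : EuclideanSpace ℝ (Fin 2) → ℝ × ℝ, g = fun x =>
      MeasurableEquiv.finTwoArrow ((MeasurableEquiv.toLp 2 (Fin 2 → ℝ)).symm x) := ⟨_, rfl⟩
  have hgx : ∀ x, g x = (x 0, x 1) := by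
    intro x
    rw [hg]
    rfl
  have himg : plane a n '' S = L '' (g ⁻¹' S) := by
    ext y
    constructor
    · rintro ⟨p, hp, rfl⟩
      refine ⟨(MeasurableEquiv.toLp 2 (Fin 2 → ℝ)) ![p.1, p.2], ?_, ?_⟩
      · show g _ ∈ S
        rw [hgx]
        exact hp
      · rw [hL]
        rfl
    · rintro ⟨x, hx, rfl⟩
      refine ⟨g x, hx, ?_⟩
      rw [hL, hgx]
      rfl
  rw [himg, hiso.euclideanHausdorffMeasure_image, EuclideanSpace.euclideanHausdorffMeasure_eq_volume]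
  have e1 : g ⁻¹' S = (MeasurableEquiv.toLp 2 (Fin 2 → ℝ)).symm ⁻¹'
      ((MeasurableEquiv.finTwoArrow : (Fin 2 → ℝ) ≃ᵐ ℝ × ℝ) ⁻¹' S) := by
    rw [hg]
    rfl
  rw [e1, (EuclideanSpace.volume_preserving_symm_measurableEquiv_toLp (Fin 2)).measure_preimage_equiv,
    (volume_preserving_finTwoArrow ℝ).measure_preimage_equiv]

/-- In a three-dimensional space there is a nonzero vector orthogonal to two given vectors. -/
theorem exists_normal2 [FiniteDimensional ℝ E] (hdim : Module.finrank ℝ E = 3) (u v : E) :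
    ∃ n : E, n ≠ 0 ∧ ⟪n, u⟫_ℝ = 0 ∧ ⟪n, v⟫_ℝ = 0 := by
  classical
  obtain ⟨S, hS⟩ : ∃ S : Submodule ℝ E, S = Submodule.span ℝ ((({u, v} : Finset E)) : Set E) :=
    ⟨_, rfl⟩
  have h1 : Module.finrank ℝ S ≤ 2 := by
    rw [hS]
    exact (finrank_span_finset_le_card ({u, v} : Finset E)).trans Finset.card_le_two
  have h2 := Submodule.finrank_add_finrank_orthogonal S
  have h4 : 0 < Module.finrank ℝ Sᗮ := by omega
  obtain ⟨⟨n, hn⟩, hn0⟩ := Module.finrank_pos_iff_exists_ne_zero.1 h4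
  have hu : u ∈ S := by rw [hS]; exact Submodule.subset_span (by simp)
  have hv : v ∈ S := by rw [hS]; exact Submodule.subset_span (by simp)
  refine ⟨n, fun h => hn0 (Subtype.ext h), ?_, ?_⟩
  · exact (Submodule.mem_orthogonal' S n).1 hn u hu
  · exact (Submodule.mem_orthogonal' S n).1 hn v hv

/-- Orthonormality of a frame `e₁, e₂, n`. -/
structure Frame (e₁ e₂ n : E) : Prop where
  h11 : ⟪e₁, e₁⟫_ℝ = 1
  h22 : ⟪e₂, e₂⟫_ℝ = 1
  hnn : ⟪n, n⟫_ℝ = 1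
  h12 : ⟪e₁, e₂⟫_ℝ = 0
  h21 : ⟪e₂, e₁⟫_ℝ = 0
  h1n : ⟪e₁, n⟫_ℝ = 0
  hn1 : ⟪n, e₁⟫_ℝ = 0
  h2n : ⟪e₂, n⟫_ℝ = 0
  hn2 : ⟪n, e₂⟫_ℝ = 0

theorem exists_frame [FiniteDimensional ℝ E] (hdim : Module.finrank ℝ E = 3) {n : E}
    (hn : ‖n‖ = 1) : ∃ e₁ e₂ : E, Frame e₁ e₂ n := by
  obtain ⟨a, ha0, ha1, -⟩ := exists_normal2 hdim n n
  obtain ⟨b, hb0, hb1, hb2⟩ := exists_normal2 hdim n ((‖a‖⁻¹ : ℝ) • a)
  have hna : ‖(‖a‖⁻¹ : ℝ) • a‖ = 1 := norm_smul_inv_norm ha0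
  have hnb : ‖(‖b‖⁻¹ : ℝ) • b‖ = 1 := norm_smul_inv_norm hb0
  have h12 : ⟪(‖a‖⁻¹ : ℝ) • a, (‖b‖⁻¹ : ℝ) • b⟫_ℝ = 0 := by
    rw [real_inner_smul_right, real_inner_comm, hb2, mul_zero]
  have h1n : ⟪(‖a‖⁻¹ : ℝ) • a, n⟫_ℝ = 0 := by rw [real_inner_smul_left, ha1, mul_zero]
  have h2n : ⟪(‖b‖⁻¹ : ℝ) • b, n⟫_ℝ = 0 := by rw [real_inner_smul_left, hb1, mul_zero]
  refine ⟨(‖a‖⁻¹ : ℝ) • a, (‖b‖⁻¹ : ℝ) • b, ?_⟩
  exact
    { h11 := by rw [real_inner_self_eq_norm_sq, hna]; norm_num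
      h22 := by rw [real_inner_self_eq_norm_sq, hnb]; norm_num
      hnn := by rw [real_inner_self_eq_norm_sq, hn]; norm_num
      h12 := h12
      h21 := by rw [real_inner_comm]; exact h12
      h1n := h1n
      hn1 := by rw [real_inner_comm]; exact h1n
      h2n := h2n
      hn2 := by rw [real_inner_comm]; exact h2n }

/-- The linear parametrisation `((x, y), z) ↦ x • e₁ + y • e₂ + z • n` of space. -/
noncomputable def fr (e₁ e₂ n : E) : ((ℝ × ℝ) × ℝ) →ₗ[ℝ] E where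
  toFun q := q.1.1 • e₁ + q.1.2 • e₂ + q.2 • n
  map_add' p q := by
    simp only [Prod.fst_add, Prod.snd_add]; module
  map_smul' c p := by
    simp only [Prod.smul_fst, Prod.smul_snd, smul_eq_mul, RingHom.id_apply]; module

theorem fr_apply (e₁ e₂ n : E) (q : (ℝ × ℝ) × ℝ) :
    fr e₁ e₂ n q = q.1.1 • e₁ + q.1.2 • e₂ + q.2 • n := rfl

/-- The horizontal vector with coordinates `w`. -/
noncomputable def lift (e₁ e₂ : E) (w : ℝ × ℝ) : E := w.1 • e₁ + w.2 • e₂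

theorem inner_fr_lift {e₁ e₂ n : E} (F : Frame e₁ e₂ n) (q : (ℝ × ℝ) × ℝ) (w : ℝ × ℝ) :
    ⟪fr e₁ e₂ n q, lift e₁ e₂ w⟫_ℝ = dot q.1 w := by
  simp only [fr_apply, lift, inner_add_left, inner_add_right, real_inner_smul_left,
    real_inner_smul_right, F.h11, F.h22, F.h12, F.h21, F.hn1, F.hn2]
  unfold dot
  ring

theorem inner_fr_n {e₁ e₂ n : E} (F : Frame e₁ e₂ n) (q : (ℝ × ℝ) × ℝ) :
    ⟪fr e₁ e₂ n q, n⟫_ℝ = q.2 := by
  simp only [fr_apply, inner_add_left, real_inner_smul_left, F.h1n, F.h2n, F.hnn]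
  ring

theorem inner_lift_lift {e₁ e₂ n : E} (F : Frame e₁ e₂ n) (w w' : ℝ × ℝ) :
    ⟪lift e₁ e₂ w, lift e₁ e₂ w'⟫_ℝ = dot w w' := by
  simp only [lift, inner_add_left, inner_add_right, real_inner_smul_left,
    real_inner_smul_right, F.h11, F.h22, F.h12, F.h21]
  unfold dot
  ring

theorem inner_lift_n {e₁ e₂ n : E} (F : Frame e₁ e₂ n) (w : ℝ × ℝ) :
    ⟪lift e₁ e₂ w, n⟫_ℝ = 0 := by
  simp only [lift, inner_add_left, real_inner_smul_left, F.h1n, F.h2n]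
  ring

theorem norm_lift {e₁ e₂ n : E} (F : Frame e₁ e₂ n) {w : ℝ × ℝ} (hw : dot w w = 1) :
    ‖lift e₁ e₂ w‖ = 1 := by
  rw [norm_eq_sqrt_real_inner, inner_lift_lift F, hw, Real.sqrt_one]

theorem fr_injective {e₁ e₂ n : E} (F : Frame e₁ e₂ n) : Function.Injective (fr e₁ e₂ n) := by
  rw [← LinearMap.ker_eq_bot, LinearMap.ker_eq_bot']
  intro q hq
  have h1 := inner_fr_lift F q (1, 0)
  have h2 := inner_fr_lift F q (0, 1)
  have h3 := inner_fr_n F q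
  rw [hq, inner_zero_left] at h1 h2 h3
  unfold dot at h1 h2
  simp only [mul_one, mul_zero, add_zero, zero_add] at h1 h2
  exact Prod.ext (Prod.ext h1.symm h2.symm) h3.symm

theorem fr_surjective [FiniteDimensional ℝ E] (hdim : Module.finrank ℝ E = 3) {e₁ e₂ n : E}
    (F : Frame e₁ e₂ n) : Function.Surjective (fr e₁ e₂ n) := by
  have hfr : Module.finrank ℝ ((ℝ × ℝ) × ℝ) = Module.finrank ℝ E := by rw [hdim]; simp
  exact (LinearMap.injective_iff_surjective_of_finrank_eq_finrank hfr).1 (fr_injective F)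

/-- Orthogonal projection along the horizontal unit vector perpendicular to `w`, in
coordinates. -/
theorem proj_fr {e₁ e₂ n : E} (F : Frame e₁ e₂ n) {w : ℝ × ℝ} (hw : dot w w = 1)
    (q : (ℝ × ℝ) × ℝ) :
    fr e₁ e₂ n q - ⟪fr e₁ e₂ n q, lift e₁ e₂ (w.2, -w.1)⟫_ℝ • lift e₁ e₂ (w.2, -w.1) =
      plane (lift e₁ e₂ w) n (dot q.1 w, q.2) := by
  rw [inner_fr_lift F]
  unfold dot at hw
  unfold dot plane lift
  simp only [fr_apply]
  have h1 : q.1.1 - (q.1.1 * w.2 + q.1.2 * -w.1) * w.2 = (q.1.1 * w.1 + q.1.2 * w.2) * w.1 := by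
    linear_combination (-q.1.1) * hw
  have h2 : q.1.2 - (q.1.1 * w.2 + q.1.2 * -w.1) * -w.1 = (q.1.1 * w.1 + q.1.2 * w.2) * w.2 := by
    linear_combination (-q.1.2) * hw
  have e : q.1.1 • e₁ + q.1.2 • e₂ + q.2 • n -
      (q.1.1 * w.2 + q.1.2 * -w.1) • (w.2 • e₁ + -w.1 • e₂) =
      (q.1.1 - (q.1.1 * w.2 + q.1.2 * -w.1) * w.2) • e₁ +
        (q.1.2 - (q.1.1 * w.2 + q.1.2 * -w.1) * -w.1) • e₂ + q.2 • n := by
    module
  rw [e, h1, h2]
  module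

/-- Bang's half-area bound for coverings by cylinders whose axes are all orthogonal to one
vector (parallel to one plane), in a three-dimensional Euclidean space. -/
theorem coplanar_amin [FiniteDimensional ℝ E] [MeasurableSpace E] [BorelSpace E]
    (hdim : Module.finrank ℝ E = 3) {ι : Type*} [Fintype ι]
    {K : Set E} (hK : Convex ℝ K) (hKc : IsCompact K) (hKne : K.Nonempty)
    (d : ι → E) (hd1 : ∀ i, ‖d i‖ = 1) {n₀ : E} (hn₀ : n₀ ≠ 0) (hdn : ∀ i, ⟪d i, n₀⟫_ℝ = 0)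
    (B : ι → Set E) (hB : ∀ i, ∀ x ∈ B i, ⟪x, d i⟫_ℝ = 0)
    (hcov : K ⊆ ⋃ i, {x | ∃ b ∈ B i, ∃ s : ℝ, x = b + s • d i}) :
    (1 / 2 : ℝ≥0∞) * (⨅ w : {w : E // ‖w‖ = 1},
        (μHE[2] : Measure E) ((fun x => x - ⟪x, (w : E)⟫_ℝ • (w : E)) '' K))
      ≤ ∑ i, (μHE[2] : Measure E) (B i) := by
  obtain ⟨n, hndef⟩ : ∃ n : E, n = (‖n₀‖⁻¹ : ℝ) • n₀ := ⟨_, rfl⟩
  have hn1 : ‖n‖ = 1 := by rw [hndef]; exact norm_smul_inv_norm hn₀
  have hdn' : ∀ i, ⟪d i, n⟫_ℝ = 0 := fun i => by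
    rw [hndef, real_inner_smul_right, hdn i, mul_zero]
  obtain ⟨e₁, e₂, F⟩ := exists_frame hdim hn1
  have hsurj := fr_surjective hdim F
  have hinj := fr_injective F
  have hcl : Topology.IsClosedEmbedding (fr e₁ e₂ n) :=
    LinearMap.isClosedEmbedding_of_injective (LinearMap.ker_eq_bot.2 hinj)
  -- the body in coordinates
  have hK' : Convex ℝ (fr e₁ e₂ n ⁻¹' K) := hK.linear_preimage _
  have hK'c : IsCompact (fr e₁ e₂ n ⁻¹' K) := hcl.isCompact_preimage hKc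
  have hK'ne : (fr e₁ e₂ n ⁻¹' K).Nonempty := by
    obtain ⟨x, hx⟩ := hKne
    obtain ⟨q, rfl⟩ := hsurj x
    exact ⟨q, hx⟩
  -- coordinates of the directions
  have hdir : ∀ i, ∃ w : ℝ × ℝ, dot w w = 1 ∧ d i = lift e₁ e₂ (w.2, -w.1) := by
    intro i
    obtain ⟨q, hq⟩ := hsurj (d i)
    have hq2 : q.2 = 0 := by rw [← inner_fr_n F q, hq]; exact hdn' i
    have hdl : d i = lift e₁ e₂ q.1 := by
      rw [← hq, fr_apply, hq2, zero_smul, add_zero]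
      rfl
    have hqq : dot q.1 q.1 = 1 := by
      rw [← inner_lift_lift F, ← hdl, real_inner_self_eq_norm_sq, hd1 i]
      norm_num
    refine ⟨(-q.1.2, q.1.1), ?_, ?_⟩
    · unfold dot at hqq ⊢
      simp only
      linarith
    · rw [hdl]
      simp
  choose w hw1 hw2 using hdir
  -- bases in coordinates
  obtain ⟨β, hβ⟩ : ∃ β : ι → Set (ℝ × ℝ),
      β = fun i => plane (lift e₁ e₂ (w i)) n ⁻¹' B i := ⟨_, rfl⟩
  have hcov' : ∀ q ∈ fr e₁ e₂ n ⁻¹' K, ∃ i, (dot q.1 (w i), q.2) ∈ β i := by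
    intro q hq
    obtain ⟨i, b, hb, s, hx⟩ := mem_iUnion.1 (hcov hq)
    refine ⟨i, ?_⟩
    have hdd : ⟪d i, d i⟫_ℝ = 1 := by rw [real_inner_self_eq_norm_sq, hd1 i]; norm_num
    have hproj : fr e₁ e₂ n q - ⟪fr e₁ e₂ n q, d i⟫_ℝ • d i = b := by
      rw [hx, inner_add_left, real_inner_smul_left, hB i b hb, hdd]
      simp
    rw [hw2 i, proj_fr F (hw1 i) q] at hproj
    rw [hβ]
    show plane (lift e₁ e₂ (w i)) n (dot q.1 (w i), q.2) ∈ B i
    rw [hproj]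
    exact hb
  -- shadows
  have hA : ∀ v : ℝ × ℝ, dot v v = 1 →
      (⨅ u : {u : E // ‖u‖ = 1},
        (μHE[2] : Measure E) ((fun x => x - ⟪x, (u : E)⟫_ℝ • (u : E)) '' K)) ≤
        volume (shadow (fr e₁ e₂ n ⁻¹' K) v) := by
    intro v hv
    have hv' : dot (v.2, -v.1) (v.2, -v.1) = 1 := by
      unfold dot at hv ⊢
      simp only
      linarith
    have hu : ‖lift e₁ e₂ (v.2, -v.1)‖ = 1 := norm_lift F hv'
    refine le_trans (iInf_le _ ⟨lift e₁ e₂ (v.2, -v.1), hu⟩) ?_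
    have hsub : (fun x => x - ⟪x, lift e₁ e₂ (v.2, -v.1)⟫_ℝ • lift e₁ e₂ (v.2, -v.1)) '' K ⊆
        plane (lift e₁ e₂ v) n '' shadow (fr e₁ e₂ n ⁻¹' K) v := by
      rintro _ ⟨x, hx, rfl⟩
      obtain ⟨q, rfl⟩ := hsurj x
      exact ⟨(dot q.1 v, q.2), ⟨q, hx, rfl⟩, (proj_fr F hv q).symm⟩
    refine le_trans (measure_mono hsub) ?_
    rw [area_plane (norm_lift F hv) hn1 (inner_lift_n F v)]
  have key := coplanar_coord (fr e₁ e₂ n ⁻¹' K) hK' hK'c hK'ne w hw1 β hcov' _ hA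
  have hβB : ∀ i, volume (β i) ≤ (μHE[2] : Measure E) (B i) := by
    intro i
    rw [← area_plane (norm_lift F (hw1 i)) hn1 (inner_lift_n F (w i)) (β i), hβ]
    exact measure_mono (image_preimage_subset _ _)
  have key2 : (⨅ u : {u : E // ‖u‖ = 1},
      (μHE[2] : Measure E) ((fun x => x - ⟪x, (u : E)⟫_ℝ • (u : E)) '' K)) ≤
      2 * ∑ i, (μHE[2] : Measure E) (B i) :=
    le_trans key (mul_le_mul_right (Finset.sum_le_sum (fun i _ => hβB i)) 2)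
  calc (1 / 2 : ℝ≥0∞) * (⨅ u : {u : E // ‖u‖ = 1},
        (μHE[2] : Measure E) ((fun x => x - ⟪x, (u : E)⟫_ℝ • (u : E)) '' K))
      ≤ (1 / 2 : ℝ≥0∞) * (2 * ∑ i, (μHE[2] : Measure E) (B i)) := mul_le_mul_right key2 _
    _ = ∑ i, (μHE[2] : Measure E) (B i) := by
        rw [← mul_assoc, one_div, ENNReal.inv_mul_cancel (by norm_num) (by norm_num), one_mul]

end Vale.Agent.Lib.P243.helper23
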