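import Mathlib

open MeasureTheory Set
open scoped ENNReal

namespace Vale.Agent.Lib.P243.helper23

/-- The profile `3 b - 2 b^(3/2)`: the largest volume fraction of a cone lying over a
homothetic part of its base of area fraction `b`. -/
noncomputable def phi (b : ℝ) : ℝ := 3 * b - 2 * b * Real.sqrt b

theorem integral_line_sq (A κ a b : ℝ) (hκ : κ ≠ 0) :
    ∫ t in a..b, A * (1 - κ * t) ^ 2 =
      A * (1 - κ * a) ^ 3 / (3 * κ) - A * (1 - κ * b) ^ 3 / (3 * κ) := by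
  have h : ∀ t, A * (1 - κ * t) ^ 2 = A - (2 * A * κ) * t ^ 1 + (A * κ ^ 2) * t ^ 2 := by
    intro t; ring
  simp_rw [h]
  rw [intervalIntegral.integral_add (by apply Continuous.intervalIntegrable; fun_prop)
    (by apply Continuous.intervalIntegrable; fun_prop),
    intervalIntegral.integral_sub (by apply Continuous.intervalIntegrable; fun_prop)
    (by apply Continuous.intervalIntegrable; fun_prop)]
  rw [intervalIntegral.integral_const_mul, intervalIntegral.integral_const_mul, integral_pow,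
    integral_pow, intervalIntegral.integral_const]
  simp only [smul_eq_mul]
  field_simp
  ring

theorem lintegral_line_sq (A κ a b : ℝ) (hA : 0 ≤ A) (hκ : κ ≠ 0) (hab : a ≤ b) :
    ∫⁻ t in Ioc a b, ENNReal.ofReal (A * (1 - κ * t) ^ 2) =
      ENNReal.ofReal (A * (1 - κ * a) ^ 3 / (3 * κ) - A * (1 - κ * b) ^ 3 / (3 * κ)) := by
  rw [← integral_line_sq A κ a b hκ, intervalIntegral.integral_of_le hab]
  rw [ofReal_integral_eq_lintegral_ofReal]
  · have : Continuous fun t : ℝ => A * (1 - κ * t) ^ 2 := by fun_prop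
    exact (this.intervalIntegrable a b).1
  · exact Filter.Eventually.of_forall fun t => mul_nonneg hA (sq_nonneg _)

/-- Threshold lemma: if `σ` is nonincreasing and lies above every chord from `(0, a)`, then the
line through `(0, a)` with slope `-(1 - s) a / t0` separates the graph at a suitable `t0`. -/
theorem chord_threshold (σ : ℝ → ℝ) (N : ℝ → Prop) (a m s : ℝ) (ha0 : 0 < a)
    (hs0 : 0 < s) (hs1 : s < 1)
    (hσ0 : ∀ t, 0 ≤ σ t)
    (hNanti : ∀ t t', 0 < t → t ≤ t' → N t' → N t)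
    (hNex : ∃ T, 0 < T ∧ N T)
    (hNm : ∀ t, m < t → ¬ N t)
    (hchord : ∀ τ T, 0 < τ → τ ≤ T → N T → (1 - τ / T) * a + (τ / T) * σ T ≤ σ τ) :
    ∃ t0, 0 < t0 ∧ (∀ t, 0 < t → t < t0 → a * (1 - (1 - s) * t / t0) ≤ σ t) ∧
      (∀ t, t0 < t → N t → σ t ≤ a * (1 - (1 - s) * t / t0)) := by
  have hΛne : {t | 0 < t ∧ N t ∧ s * a ≤ σ t}.Nonempty := by
    obtain ⟨T, hT0, hNT⟩ := hNex
    refine ⟨T * (1 - s), by nlinarith, hNanti _ T (by nlinarith) (by nlinarith) hNT, ?_⟩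
    have h := hchord (T * (1 - s)) T (by nlinarith) (by nlinarith) hNT
    have e : T * (1 - s) / T = 1 - s := by field_simp
    rw [e] at h
    have h2 : 0 ≤ (1 - s) * σ T := mul_nonneg (by linarith) (hσ0 T)
    nlinarith
  have hΛbdd : BddAbove {t | 0 < t ∧ N t ∧ s * a ≤ σ t} := by
    refine ⟨m, fun t ht => ?_⟩
    by_contra hlt
    exact hNm t (not_le.mp hlt) ht.2.1
  have ht0pos : 0 < sSup {t | 0 < t ∧ N t ∧ s * a ≤ σ t} := by
    obtain ⟨τ, hτ⟩ := hΛne
    exact lt_of_lt_of_le hτ.1 (le_csSup hΛbdd hτ)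
  refine ⟨sSup {t | 0 < t ∧ N t ∧ s * a ≤ σ t}, ht0pos, ?_, ?_⟩
  · intro t ht htt0
    by_contra hcon
    rw [not_le] at hcon
    obtain ⟨c, hc⟩ : ∃ c, c = 1 - σ t / a := ⟨_, rfl⟩
    have hσc : σ t = a * (1 - c) := by rw [hc]; field_simp; ring
    have hc1 : (1 - s) * t / sSup {t | 0 < t ∧ N t ∧ s * a ≤ σ t} < c := by
      rw [hσc] at hcon
      have := lt_of_mul_lt_mul_left hcon ha0.le
      linarith
    have hcpos : 0 < c := lt_of_le_of_lt (div_nonneg (by nlinarith) ht0pos.le) hc1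
    have hb : (1 - s) * t / c < sSup {t | 0 < t ∧ N t ∧ s * a ≤ σ t} := by
      rw [div_lt_iff₀ hcpos]
      rw [div_lt_iff₀ ht0pos] at hc1
      linarith
    obtain ⟨t', ht'Λ, ht'⟩ := exists_lt_of_lt_csSup hΛne (max_lt htt0 hb)
    have htt' : t < t' := lt_of_le_of_lt (le_max_left _ _) ht'
    have hbt' : (1 - s) * t / c < t' := lt_of_le_of_lt (le_max_right _ _) ht'
    have ht'0 : 0 < t' := ht'Λ.1
    have h := hchord t t' ht htt'.le ht'Λ.2.1
    have h3 : s * a ≤ σ t' := ht'Λ.2.2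
    have h4 : (1 - s) * t / t' < c := by
      rw [div_lt_iff₀ ht'0]
      rw [div_lt_iff₀ hcpos] at hbt'
      linarith
    have h5 : 0 ≤ t / t' := by positivity
    have h6 : (1 - t / t') * a + t / t' * (s * a) ≤ σ t :=
      le_trans (by nlinarith) h
    have h7 : (1 - t / t') * a + t / t' * (s * a) = a * (1 - (1 - s) * t / t') := by
      field_simp
      ring
    rw [h7, hσc] at h6
    have := le_of_mul_le_mul_left h6 ha0
    linarith
  · intro t htt0 hNt
    by_contra hcon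
    rw [not_le] at hcon
    have ht : 0 < t := lt_trans ht0pos htt0
    obtain ⟨t0, ht0⟩ : ∃ t0, t0 = sSup {t | 0 < t ∧ N t ∧ s * a ≤ σ t} := ⟨_, rfl⟩
    rw [← ht0] at hcon htt0 ht0pos
    obtain ⟨c, hc⟩ : ∃ c, c = 1 - σ t / a := ⟨_, rfl⟩
    have hσc : σ t = a * (1 - c) := by rw [hc]; field_simp; ring
    have hc1 : c < (1 - s) * t / t0 := by
      rw [hσc] at hcon
      have := lt_of_mul_lt_mul_left hcon ha0.le
      linarith
    have hgap : 0 < (1 - s) * t - t0 * c := by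
      rw [lt_div_iff₀ ht0pos] at hc1
      linarith
    have hc' : 0 < 2 * (|c| + 1) := by positivity
    obtain ⟨δ, hδ⟩ : ∃ δ, δ = min ((t - t0) / 2) (((1 - s) * t - t0 * c) / (2 * (|c| + 1))) :=
      ⟨_, rfl⟩
    have hδpos : 0 < δ := by rw [hδ]; exact lt_min (by linarith) (div_pos hgap hc')
    have hδ1 : δ ≤ (t - t0) / 2 := by rw [hδ]; exact min_le_left _ _
    have hδ2 : δ ≤ ((1 - s) * t - t0 * c) / (2 * (|c| + 1)) := by rw [hδ]; exact min_le_right _ _
    have ht'0 : 0 < t0 + δ := by linarith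
    have ht't : t0 + δ < t := by linarith
    have hNt' : N (t0 + δ) := hNanti (t0 + δ) t ht'0 ht't.le hNt
    have hnot : ¬ (s * a ≤ σ (t0 + δ)) := by
      intro h
      have hmem : (t0 + δ) ∈ {t | 0 < t ∧ N t ∧ s * a ≤ σ t} := ⟨ht'0, hNt', h⟩
      have := le_csSup hΛbdd hmem
      rw [← ht0] at this
      linarith
    rw [not_le] at hnot
    have h := hchord (t0 + δ) t ht'0 ht't.le hNt
    have h8 : δ * c ≤ ((1 - s) * t - t0 * c) / 2 := by
      have h9 : δ * c ≤ δ * |c| := mul_le_mul_of_nonneg_left (le_abs_self c) hδpos.le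
      have h10 : δ * (2 * (|c| + 1)) ≤ (1 - s) * t - t0 * c := by
        rw [le_div_iff₀ hc'] at hδ2
        exact hδ2
      nlinarith
    have h11 : (t0 + δ) * c < (1 - s) * t := by nlinarith
    have h12 : (t0 + δ) / t * σ t < s * a - (1 - (t0 + δ) / t) * a := by linarith
    have h13 : σ t * (t0 + δ) < (s * a - a) * t + a * (t0 + δ) := by
      have h14 : (t0 + δ) / t * σ t * t < (s * a - (1 - (t0 + δ) / t) * a) * t :=
        mul_lt_mul_of_pos_right h12 ht
      have e1 : (t0 + δ) / t * σ t * t = σ t * (t0 + δ) := by field_simp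
      have e2 : (s * a - (1 - (t0 + δ) / t) * a) * t = (s * a - a) * t + a * (t0 + δ) := by
        field_simp; ring
      rw [e1, e2] at h14
      exact h14
    rw [hσc] at h13
    have h15 : a * ((1 - s) * t) < a * ((t0 + δ) * c) := by nlinarith
    have := lt_of_mul_lt_mul_left h15 ha0.le
    linarith

/-- Real inequality at the end of the argument. -/
theorem final_real (A t0 κ s y : ℝ) (hA : 0 < A) (hκ : 0 < κ) (hs0 : 0 < s) (hs1 : s < 1)
    (hκt0 : κ * t0 = 1 - s) (hyle : y ≤ A * s ^ 3 / (3 * κ)) :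
    s * s * A * t0 + y ≤
      (3 * s ^ 2 - 2 * s ^ 3) * (A / (3 * κ) - A * s ^ 3 / (3 * κ) + y) := by
  obtain ⟨w, hw⟩ : ∃ w, w = A / (3 * κ) := ⟨_, rfl⟩
  have hwpos : 0 < w := by rw [hw]; positivity
  have hAt0 : A * t0 = 3 * (1 - s) * w := by
    rw [hw, ← hκt0]; field_simp
  have hyle' : y ≤ w * s ^ 3 := by
    have : A * s ^ 3 / (3 * κ) = w * s ^ 3 := by rw [hw]; ring
    linarith
  have hXw : A / (3 * κ) - A * s ^ 3 / (3 * κ) = w * (1 - s ^ 3) := by rw [hw]; ring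
  rw [hXw]
  have h1 : s * s * A * t0 = s * s * (3 * (1 - s) * w) := by rw [mul_assoc (s * s) A t0, hAt0]
  rw [h1]
  have h2 : 0 ≤ (1 - s) ^ 2 * (1 + 2 * s) := by positivity
  have h3 : 0 ≤ w * s ^ 3 - y := by linarith
  nlinarith [mul_nonneg h2 h3]

/-- The analytic core: a nonincreasing profile `S` whose square root lies above every chord
from the point `(0, √A)`. -/
theorem calc_core (S : ℝ → ℝ≥0∞) (N : ℝ → Prop) (A m : ℝ) (hA : 0 < A)
    (hSA : ∀ t, 0 < t → S t ≤ ENNReal.ofReal A)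
    (hNanti : ∀ t t', 0 < t → t ≤ t' → N t' → N t)
    (hN0 : ∀ t, 0 < t → ¬ N t → S t = 0)
    (hNex : ∃ T, 0 < T ∧ N T)
    (hNm : ∀ t, m < t → ¬ N t)
    (hchord : ∀ τ T, 0 < τ → τ ≤ T → N T →
      (1 - τ / T) * Real.sqrt A + (τ / T) * Real.sqrt (S T).toReal ≤ Real.sqrt (S τ).toReal)
    (β : ℝ) (hβ0 : 0 < β) (hβ1 : β < 1) :
    ∫⁻ t in Ioi 0, min (S t) (ENNReal.ofReal (β * A)) ≤
      ENNReal.ofReal (phi β) * ∫⁻ t in Ioi 0, S t := by
  obtain ⟨s, hs⟩ : ∃ s, s = Real.sqrt β := ⟨_, rfl⟩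
  have hs0 : 0 < s := by rw [hs]; exact Real.sqrt_pos.mpr hβ0
  have hs1 : s < 1 := by
    rw [hs, show (1:ℝ) = Real.sqrt 1 by simp]
    exact Real.sqrt_lt_sqrt hβ0.le hβ1
  have hss : s * s = β := by rw [hs]; exact Real.mul_self_sqrt hβ0.le
  obtain ⟨a, ha⟩ : ∃ a, a = Real.sqrt A := ⟨_, rfl⟩
  have ha0 : 0 < a := by rw [ha]; exact Real.sqrt_pos.mpr hA
  have haa : a * a = A := by rw [ha]; exact Real.mul_self_sqrt hA.le
  have hSfin : ∀ t, 0 < t → S t ≠ ⊤ := fun t ht =>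
    ne_top_of_le_ne_top ENNReal.ofReal_ne_top (hSA t ht)
  have hσ0 : ∀ t, 0 ≤ Real.sqrt (S t).toReal := fun t => Real.sqrt_nonneg _
  have hσσ : ∀ t, Real.sqrt (S t).toReal * Real.sqrt (S t).toReal = (S t).toReal :=
    fun t => Real.mul_self_sqrt ENNReal.toReal_nonneg
  rw [← ha] at hchord
  obtain ⟨t0, ht0pos, hbelow, habove⟩ :=
    chord_threshold (fun t => Real.sqrt (S t).toReal) N a m s ha0 hs0 hs1 hσ0 hNanti
      hNex hNm hchord
  obtain ⟨κ, hκ⟩ : ∃ κ, κ = (1 - s) / t0 := ⟨_, rfl⟩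
  have hκpos : 0 < κ := by rw [hκ]; exact div_pos (by linarith) ht0pos
  have hκt0 : κ * t0 = 1 - s := by rw [hκ]; field_simp
  have hline : ∀ t, (1 - s) * t / t0 = κ * t := by intro t; rw [hκ]; ring
  have hκinv : κ * (1 / κ) = 1 := mul_one_div_cancel hκpos.ne'
  -- pointwise bounds
  have hP1 : ∀ t ∈ Ioo (0:ℝ) t0, ENNReal.ofReal (A * (1 - κ * t) ^ 2) ≤ S t := by
    intro t ht
    have h := hbelow t ht.1 ht.2
    rw [hline] at h
    have hL : s < 1 - κ * t := by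
      have : κ * t < κ * t0 := mul_lt_mul_of_pos_left ht.2 hκpos
      linarith
    have h2 : A * (1 - κ * t) ^ 2 ≤ (S t).toReal := by
      rw [← hσσ t, ← haa]
      have : 0 ≤ a * (1 - κ * t) := mul_nonneg ha0.le (by linarith)
      nlinarith
    calc ENNReal.ofReal (A * (1 - κ * t) ^ 2) ≤ ENNReal.ofReal (S t).toReal :=
          ENNReal.ofReal_le_ofReal h2
      _ = S t := ENNReal.ofReal_toReal (hSfin t ht.1)
  have hP2 : ∀ t ∈ Ioc t0 (1 / κ), S t ≤ ENNReal.ofReal (A * (1 - κ * t) ^ 2) := by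
    intro t ht
    have ht0' : 0 < t := lt_trans ht0pos ht.1
    by_cases hNt : N t
    · have h := habove t ht.1 hNt
      rw [hline] at h
      have hL : 0 ≤ 1 - κ * t := by
        have : κ * t ≤ κ * (1 / κ) := mul_le_mul_of_nonneg_left ht.2 hκpos.le
        rw [hκinv] at this
        linarith
      have h2 : (S t).toReal ≤ A * (1 - κ * t) ^ 2 := by
        rw [← hσσ t, ← haa]
        nlinarith [hσ0 t, mul_nonneg ha0.le hL]
      calc S t = ENNReal.ofReal (S t).toReal := (ENNReal.ofReal_toReal (hSfin t ht0')).symm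
        _ ≤ _ := ENNReal.ofReal_le_ofReal h2
    · rw [hN0 t ht0' hNt]; simp
  have ht0le : t0 ≤ 1 / κ := by rw [le_div_iff₀ hκpos]; nlinarith
  have hP3 : ∀ t ∈ Ioi (1 / κ), S t = 0 := by
    intro t ht
    have ht1 : t0 < t := lt_of_le_of_lt ht0le ht
    have ht0' : 0 < t := lt_trans ht0pos ht1
    apply hN0 t ht0'
    intro hNt
    have h := habove t ht1 hNt
    rw [hline] at h
    have h1 : 1 < κ * t := by
      have := mul_lt_mul_of_pos_left ht hκpos
      rwa [hκinv] at this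
    have h3 : a * (1 - κ * t) < 0 := mul_neg_of_pos_of_neg ha0 (by linarith)
    linarith [hσ0 t]
  -- the tail integral
  have hYle : ∫⁻ t in Ioi t0, S t ≤ ENNReal.ofReal (A * s ^ 3 / (3 * κ)) := by
    have hsplit : Ioi t0 = Ioc t0 (1 / κ) ∪ Ioi (1 / κ) := (Ioc_union_Ioi_eq_Ioi ht0le).symm
    have hdisj : Disjoint (Ioc t0 (1 / κ)) (Ioi (1 / κ)) := by
      rw [Set.disjoint_left]; intro t ht ht'; exact absurd ht.2 (not_le.mpr ht')
    rw [hsplit, lintegral_union measurableSet_Ioi hdisj]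
    have h1 : ∫⁻ t in Ioc t0 (1 / κ), S t ≤
        ∫⁻ t in Ioc t0 (1 / κ), ENNReal.ofReal (A * (1 - κ * t) ^ 2) :=
      setLIntegral_mono' measurableSet_Ioc hP2
    have h2 : ∫⁻ t in Ioi (1 / κ), S t = 0 := by
      rw [setLIntegral_congr_fun measurableSet_Ioi hP3]
      simp
    rw [h2, add_zero]
    refine le_trans h1 ?_
    rw [lintegral_line_sq A κ t0 (1 / κ) hA.le hκpos.ne' ht0le]
    apply ENNReal.ofReal_le_ofReal
    have e1 : 1 - κ * t0 = s := by linarith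
    have e2 : 1 - κ * (1 / κ) = 0 := by rw [hκinv]; ring
    rw [e1, e2]
    simp
  have hYfin : ∫⁻ t in Ioi t0, S t ≠ ⊤ := ne_top_of_le_ne_top ENNReal.ofReal_ne_top hYle
  -- the left side
  have hLHS : ∫⁻ t in Ioi 0, min (S t) (ENNReal.ofReal (β * A)) ≤
      ENNReal.ofReal (β * A * t0) + ∫⁻ t in Ioi t0, S t := by
    have hsplit : Ioi (0:ℝ) = Ioc 0 t0 ∪ Ioi t0 := (Ioc_union_Ioi_eq_Ioi ht0pos.le).symm
    have hdisj : Disjoint (Ioc (0:ℝ) t0) (Ioi t0) := by
      rw [Set.disjoint_left]; intro t ht ht'; exact absurd ht.2 (not_le.mpr ht')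
    rw [hsplit, lintegral_union measurableSet_Ioi hdisj]
    apply add_le_add
    · calc ∫⁻ t in Ioc 0 t0, min (S t) (ENNReal.ofReal (β * A))
          ≤ ∫⁻ _t in Ioc 0 t0, ENNReal.ofReal (β * A) := lintegral_mono fun t => min_le_right _ _
        _ = ENNReal.ofReal (β * A) * volume (Ioc 0 t0) := by rw [setLIntegral_const]
        _ = ENNReal.ofReal (β * A * t0) := by
            rw [Real.volume_Ioc, sub_zero, ← ENNReal.ofReal_mul (by positivity)]
    · exact lintegral_mono fun t => min_le_left _ _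
  -- the right side
  have hXL : 0 ≤ A / (3 * κ) - A * s ^ 3 / (3 * κ) := by
    have : A * s ^ 3 / (3 * κ) ≤ A / (3 * κ) := by
      apply div_le_div_of_nonneg_right _ (by positivity)
      have : s ^ 3 ≤ 1 := pow_le_one₀ hs0.le hs1.le
      nlinarith
    linarith
  have hRHS : ENNReal.ofReal (A / (3 * κ) - A * s ^ 3 / (3 * κ)) + ∫⁻ t in Ioi t0, S t ≤
      ∫⁻ t in Ioi 0, S t := by
    have hsub : Ioo (0:ℝ) t0 ∪ Ioi t0 ⊆ Ioi 0 := by
      intro t ht
      rcases ht with ht | ht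
      · exact ht.1
      · exact lt_trans ht0pos ht
    have hdisj : Disjoint (Ioo (0:ℝ) t0) (Ioi t0) := by
      rw [Set.disjoint_left]; intro t ht ht'; exact lt_asymm ht.2 ht'
    have hX : ENNReal.ofReal (A / (3 * κ) - A * s ^ 3 / (3 * κ)) ≤ ∫⁻ t in Ioo 0 t0, S t := by
      have h1 := lintegral_line_sq A κ 0 t0 hA.le hκpos.ne' ht0pos.le
      have e1 : 1 - κ * t0 = s := by linarith
      rw [e1] at h1
      simp only [mul_zero, sub_zero, one_pow, mul_one] at h1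
      rw [← h1, ← setLIntegral_congr Ioo_ae_eq_Ioc]
      exact setLIntegral_mono' measurableSet_Ioo hP1
    calc ENNReal.ofReal (A / (3 * κ) - A * s ^ 3 / (3 * κ)) + ∫⁻ t in Ioi t0, S t
        ≤ (∫⁻ t in Ioo 0 t0, S t) + ∫⁻ t in Ioi t0, S t := add_le_add hX le_rfl
      _ = ∫⁻ t in Ioo 0 t0 ∪ Ioi t0, S t := (lintegral_union measurableSet_Ioi hdisj).symm
      _ ≤ ∫⁻ t in Ioi 0, S t := lintegral_mono_set hsub
  -- final arithmetic
  have hφ : phi β = 3 * s ^ 2 - 2 * s ^ 3 := by unfold phi; rw [← hs, ← hss]; ring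
  have hφpos : 0 ≤ phi β := by rw [hφ]; nlinarith [sq_nonneg s, mul_pos hs0 hs0]
  obtain ⟨y, hy⟩ : ∃ y, y = (∫⁻ t in Ioi t0, S t).toReal := ⟨_, rfl⟩
  have hYy : ∫⁻ t in Ioi t0, S t = ENNReal.ofReal y := by
    rw [hy]; exact (ENNReal.ofReal_toReal hYfin).symm
  have hy0 : 0 ≤ y := by rw [hy]; exact ENNReal.toReal_nonneg
  have hyle : y ≤ A * s ^ 3 / (3 * κ) := by
    have := ENNReal.toReal_mono ENNReal.ofReal_ne_top hYle
    rw [ENNReal.toReal_ofReal (by positivity)] at this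
    rw [hy]; exact this
  have hreal : β * A * t0 + y ≤ phi β * (A / (3 * κ) - A * s ^ 3 / (3 * κ) + y) := by
    rw [hφ, ← hss]
    exact final_real A t0 κ s y hA hκpos hs0 hs1 hκt0 hyle
  calc ∫⁻ t in Ioi 0, min (S t) (ENNReal.ofReal (β * A))
      ≤ ENNReal.ofReal (β * A * t0) + ∫⁻ t in Ioi t0, S t := hLHS
    _ = ENNReal.ofReal (β * A * t0 + y) := by
        rw [hYy, ENNReal.ofReal_add (by positivity) hy0]
    _ ≤ ENNReal.ofReal (phi β * (A / (3 * κ) - A * s ^ 3 / (3 * κ) + y)) :=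
        ENNReal.ofReal_le_ofReal hreal
    _ = ENNReal.ofReal (phi β) *
          (ENNReal.ofReal (A / (3 * κ) - A * s ^ 3 / (3 * κ)) + ∫⁻ t in Ioi t0, S t) := by
        rw [ENNReal.ofReal_mul hφpos, ENNReal.ofReal_add hXL hy0, ← hYy]
    _ ≤ ENNReal.ofReal (phi β) * ∫⁻ t in Ioi 0, S t := by gcongr

end Vale.Agent.Lib.P243.helper23
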