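import Mathlib
import Vale.Agent.Lib.P243.helper23.CalcCore
import Vale.Agent.Lib.P243.helper23.Chord
import Vale.Agent.Lib.P243.helper23.PlanarBM

open MeasureTheory Set
open scoped ENNReal Pointwise

namespace Vale.Agent.Lib.P243.helper23

theorem phi_one : phi 1 = 1 := by unfold phi; simp; norm_num

theorem phi_zero : phi 0 = 0 := by unfold phi; simp

theorem snd_image_convex {K : Set (ℝ × ℝ × ℝ)} (hK : Convex ℝ K) :
    Convex ℝ (Prod.snd '' K) := by
  have := hK.linear_image (LinearMap.snd ℝ ℝ (ℝ × ℝ))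
  exact this

theorem snd_image_volume_pos {K : Set (ℝ × ℝ × ℝ)} (hKi : (interior K).Nonempty) :
    0 < volume (Prod.snd '' K) := by
  have hopen : IsOpen (Prod.snd '' interior K) := isOpenMap_snd _ isOpen_interior
  have hne : (Prod.snd '' interior K).Nonempty := hKi.image _
  exact lt_of_lt_of_le (hopen.measure_pos volume hne)
    (measure_mono (image_mono interior_subset))

theorem chord_le_bound {K : Set (ℝ × ℝ × ℝ)} (hKc : IsCompact K) (q : ℝ × ℝ) :
    chord K q ≤ (volume (Prod.fst '' K)).toReal := by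
  unfold chord
  apply ENNReal.toReal_mono (hKc.image continuous_fst).measure_lt_top.ne
  apply measure_mono
  intro a ha
  exact ⟨(a, q), ha, rfl⟩

theorem lev_antitone {K : Set (ℝ × ℝ × ℝ)} {t t' : ℝ} (h : t ≤ t') : lev K t' ⊆ lev K t :=
  fun _ hq => le_trans h hq

/-- Brunn chord property of the superlevel sets of the chord function. -/
theorem brunn_chord {K : Set (ℝ × ℝ × ℝ)} (hK : Convex ℝ K) (hKc : IsCompact K)
    (hKne : K.Nonempty) {τ T : ℝ} (hτ : 0 < τ) (hτT : τ ≤ T) (hN : (lev K T).Nonempty) :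
    (1 - τ / T) * Real.sqrt (volume (Prod.snd '' K)).toReal +
      (τ / T) * Real.sqrt (volume (lev K T)).toReal ≤ Real.sqrt (volume (lev K τ)).toReal := by
  have hT : 0 < T := lt_of_lt_of_le hτ hτT
  have hθ0 : 0 ≤ τ / T := by positivity
  have hθ1 : τ / T ≤ 1 := by rw [div_le_one hT]; exact hτT
  have hD := snd_image_convex hK
  have hDc : IsCompact (Prod.snd '' K) := hKc.image continuous_snd
  have hbm := planar_bm hD (lev_convex hK hKc hT) hDc (lev_compact hK hKc hT) (hKne.image _) hN
    hθ0 hθ1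
  refine le_trans hbm ?_
  apply Real.sqrt_le_sqrt
  apply ENNReal.toReal_mono (lev_compact hK hKc hτ).measure_lt_top.ne
  apply measure_mono
  rintro x ⟨y, hy, z, hz, rfl⟩
  obtain ⟨q, hq, rfl⟩ := hy
  obtain ⟨q', hq', rfl⟩ := hz
  have hc := chord_concave hK hKc hq (lev_subset hT hq') hθ0 hθ1
  have hq'' : T ≤ chord K q' := hq'
  show τ ≤ chord K ((1 - τ / T) • q + (τ / T) • q')
  have h1 : 0 ≤ (1 - τ / T) * chord K q := mul_nonneg (by linarith) (chord_nonneg K q)
  have h2 : τ / T * T ≤ τ / T * chord K q' := mul_le_mul_of_nonneg_left hq'' hθ0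
  have h3 : τ / T * T = τ := by field_simp
  linarith

/-- Lemma V in coordinates: the part of a convex body lying over a base of relative area at most
`β` (in the projection along the first coordinate) has relative volume at most `phi β`. -/
theorem cyl_volume_le {K : Set (ℝ × ℝ × ℝ)} (hK : Convex ℝ K) (hKc : IsCompact K)
    (hKi : (interior K).Nonempty) {B : Set (ℝ × ℝ)} (hB : MeasurableSet B) (β : ℝ)
    (hβ0 : 0 ≤ β) (hβ1 : β ≤ 1)
    (hBβ : volume (B ∩ Prod.snd '' K) ≤ ENNReal.ofReal β * volume (Prod.snd '' K)) :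
    volume (K ∩ Prod.snd ⁻¹' B) ≤ ENNReal.ofReal (phi β) * volume K := by
  have hKne : K.Nonempty := hKi.mono interior_subset
  have hDc : IsCompact (Prod.snd '' K) := hKc.image continuous_snd
  have hDfin : volume (Prod.snd '' K) ≠ ⊤ := hDc.measure_lt_top.ne
  have hDpos := snd_image_volume_pos hKi
  have hDm : MeasurableSet (Prod.snd '' K) := hDc.isClosed.measurableSet
  -- reduce to B ⊆ D
  have hset : K ∩ (Prod.snd ⁻¹' B : Set (ℝ × ℝ × ℝ)) =
      K ∩ (Prod.snd ⁻¹' (B ∩ Prod.snd '' K) : Set (ℝ × ℝ × ℝ)) := by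
    ext p
    constructor
    · rintro ⟨hp, hpB⟩
      exact ⟨hp, hpB, ⟨p, hp, rfl⟩⟩
    · rintro ⟨hp, hpB, _⟩
      exact ⟨hp, hpB⟩
  rw [hset, volume_cyl_eq hKc (hB.inter hDm)]
  rcases eq_or_lt_of_le hβ1 with hβeq | hβlt
  · -- β = 1
    rw [hβeq, phi_one, ENNReal.ofReal_one, one_mul, volume_eq_lintegral_chord hKc]
    exact setLIntegral_le_lintegral _ _
  rcases eq_or_lt_of_le hβ0 with hβeq0 | hβpos
  · -- β = 0
    rw [← hβeq0] at hBβ
    simp only [ENNReal.ofReal_zero, zero_mul, nonpos_iff_eq_zero] at hBβ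
    rw [setLIntegral_measure_zero _ _ hBβ]
    exact zero_le
  -- main case
  set A := (volume (Prod.snd '' K)).toReal with hAdef
  have hApos : 0 < A := ENNReal.toReal_pos hDpos.ne' hDfin
  have hDA : volume (Prod.snd '' K) = ENNReal.ofReal A := (ENNReal.ofReal_toReal hDfin).symm
  have hmeas := chord_measurable hKc
  have hlevm : ∀ t, MeasurableSet {q | t ≤ chord K q} := fun t =>
    measurableSet_le measurable_const hmeas
  -- layer cake on B ∩ D
  have hL1 : ∫⁻ q in B ∩ Prod.snd '' K, ENNReal.ofReal (chord K q) =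
      ∫⁻ t in Ioi 0, volume ({q | t ≤ chord K q} ∩ (B ∩ Prod.snd '' K)) := by
    rw [lintegral_eq_lintegral_meas_le _ (Filter.Eventually.of_forall (chord_nonneg K))
      hmeas.aemeasurable]
    apply lintegral_congr
    intro t
    rw [Measure.restrict_apply (hlevm t)]
  have hL2 : volume K = ∫⁻ t in Ioi 0, volume (lev K t) := by
    rw [volume_eq_lintegral_chord hKc,
      lintegral_eq_lintegral_meas_le _ (Filter.Eventually.of_forall (chord_nonneg K))
      hmeas.aemeasurable]
    rfl
  have hBA : volume (B ∩ Prod.snd '' K) ≤ ENNReal.ofReal (β * A) := by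
    rw [ENNReal.ofReal_mul hβ0, ← hDA]
    exact hBβ
  have hL3 : ∫⁻ t in Ioi 0, volume ({q | t ≤ chord K q} ∩ (B ∩ Prod.snd '' K)) ≤
      ∫⁻ t in Ioi 0, min (volume (lev K t)) (ENNReal.ofReal (β * A)) := by
    apply lintegral_mono
    intro t
    apply le_min
    · exact measure_mono inter_subset_left
    · exact le_trans (measure_mono inter_subset_right) hBA
  rw [hL1, hL2]
  refine le_trans hL3 ?_
  -- apply the analytic core
  obtain ⟨T, hT0, hNT⟩ : ∃ T, 0 < T ∧ (lev K T).Nonempty := by
    by_contra hcon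
    push Not at hcon
    have hz : ∀ q, chord K q = 0 := by
      intro q
      by_contra hne
      have hpos : 0 < chord K q := lt_of_le_of_ne (chord_nonneg K q) (Ne.symm hne)
      have h := hcon (chord K q) hpos
      have hmem : q ∈ lev K (chord K q) := le_refl (chord K q)
      rw [h] at hmem
      exact hmem
    have hvol : volume K = 0 := by
      rw [volume_eq_lintegral_chord hKc]
      simp [hz]
    have hpos : 0 < volume K :=
      lt_of_lt_of_le (isOpen_interior.measure_pos volume hKi) (measure_mono interior_subset)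
    rw [hvol] at hpos
    exact lt_irrefl _ hpos
  refine calc_core (fun t => volume (lev K t)) (fun t => (lev K t).Nonempty) A
    (volume (Prod.fst '' K)).toReal hApos ?_ ?_ ?_ ⟨T, hT0, hNT⟩ ?_ ?_ β hβpos hβlt
  · intro t ht
    rw [← hDA]
    exact measure_mono (lev_subset ht)
  · intro t t' _ htt' hN
    exact hN.mono (lev_antitone htt')
  · intro t _ hN
    rw [Set.not_nonempty_iff_eq_empty] at hN
    show volume (lev K t) = 0
    rw [hN]
    exact measure_empty
  · intro t ht hN
    obtain ⟨q, hq⟩ := hN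
    have hq' : t ≤ chord K q := hq
    have := chord_le_bound hKc q
    linarith
  · intro τ T' hτ hτT hN
    exact brunn_chord hK hKc hKne hτ hτT hN

/-- Lemma V in coordinates, in the ratio form used by the Euclidean transfer: for a base `B`
inside the projection of `K`, the part of `K` over `B` has volume at most `phi` of the relative
base area times the volume of `K`. -/
theorem lemmaV_coord : ∀ K : Set (ℝ × ℝ × ℝ), Convex ℝ K → IsCompact K → (interior K).Nonempty →
    ∀ B : Set (ℝ × ℝ), MeasurableSet B → B ⊆ Prod.snd '' K →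
      volume (K ∩ Prod.snd ⁻¹' B) ≤
        ENNReal.ofReal (phi ((volume B).toReal / (volume (Prod.snd '' K)).toReal)) * volume K := by
  intro K hK hKc hKi B hB hBK
  have hDc : IsCompact (Prod.snd '' K) := hKc.image continuous_snd
  have hDfin : volume (Prod.snd '' K) ≠ ⊤ := hDc.measure_lt_top.ne
  have hDpos := snd_image_volume_pos hKi
  have hBfin : volume B ≠ ⊤ := (lt_of_le_of_lt (measure_mono hBK) hDc.measure_lt_top).ne
  have hApos : 0 < (volume (Prod.snd '' K)).toReal := ENNReal.toReal_pos hDpos.ne' hDfin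
  have hβ0 : 0 ≤ (volume B).toReal / (volume (Prod.snd '' K)).toReal :=
    div_nonneg ENNReal.toReal_nonneg hApos.le
  have hβ1 : (volume B).toReal / (volume (Prod.snd '' K)).toReal ≤ 1 := by
    rw [div_le_one hApos]
    exact ENNReal.toReal_mono hDfin (measure_mono hBK)
  apply cyl_volume_le hK hKc hKi hB _ hβ0 hβ1
  rw [inter_eq_left.mpr hBK, ENNReal.ofReal_div_of_pos hApos, ENNReal.ofReal_toReal hBfin,
    ENNReal.ofReal_toReal hDfin, ENNReal.div_mul_cancel hDpos.ne' hDfin]

end Vale.Agent.Lib.P243.helper23
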