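import Mathlib
import Vale.Agent.Lib.P243.helper23.Chord
import Vale.Agent.Lib.P237.helper23.Planar

open MeasureTheory Measure Set
open scoped ENNReal

namespace Vale.Agent.Lib.P243.helper23

open Vale.Agent.Lib.P237.helper23 (cross vol_image2 mink_seg)

/-- Strip bound: a centrally symmetric planar convex body `D` that misses the point `t • y` lies
in a parallelogram of area `4 t W`, where `W` bounds the cross product with `y` on `D`. -/
theorem strip_bound {D : Set (ℝ × ℝ)} (hD : Convex ℝ D) (hDc : IsCompact D)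
    (hsym : ∀ q ∈ D, -q ∈ D) (h0 : (0 : ℝ × ℝ) ∈ D) {y : ℝ × ℝ} {W t : ℝ}
    (hW : ∀ b ∈ D, cross b y ≤ W) (ht : 0 < t) (hty : t • y ∉ D) :
    (volume D).toReal ≤ 4 * t * W := by
  obtain ⟨f, u, hfu, hu⟩ := geometric_hahn_banach_closed_point hD hDc.isClosed hty
  have hu0 : 0 < u := by simpa using hfu 0 h0
  have hfy : u < t * f y := by simpa using hu
  have hfy0 : 0 < f y := by
    by_contra hcon
    push Not at hcon
    nlinarith
  have hW0 : 0 ≤ W := by simpa [cross] using hW 0 h0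
  obtain ⟨f₁, hf₁⟩ : ∃ f₁, f₁ = f (1, 0) := ⟨_, rfl⟩
  obtain ⟨f₂, hf₂⟩ : ∃ f₂, f₂ = f (0, 1) := ⟨_, rfl⟩
  have hfz : ∀ z : ℝ × ℝ, f z = f₁ * z.1 + f₂ * z.2 := by
    intro z
    have hz : z = z.1 • ((1 : ℝ), (0 : ℝ)) + z.2 • ((0 : ℝ), (1 : ℝ)) := by
      ext <;> simp
    conv_lhs => rw [hz]
    rw [map_add, map_smul, map_smul, hf₁, hf₂]
    simp [mul_comm]
  have hvol := vol_image2 y.2 (-y.1) f₁ f₂ D
  have hdet : y.2 * f₂ - (-y.1) * f₁ = f y := by rw [hfz y]; ring
  rw [hdet, abs_of_pos hfy0] at hvol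
  have hsub : (fun p : ℝ × ℝ => (y.2 * p.1 + (-y.1) * p.2, f₁ * p.1 + f₂ * p.2)) '' D ⊆
      Icc (-W) W ×ˢ Icc (-u) u := by
    rintro _ ⟨z, hz, rfl⟩
    have h1 := hW z hz
    have h2 := hW (-z) (hsym z hz)
    have h3 := hfu z hz
    have h4 := hfu (-z) (hsym z hz)
    rw [hfz] at h3 h4
    simp only [cross, Prod.fst_neg, Prod.snd_neg] at h1 h2 h4
    refine ⟨⟨?_, ?_⟩, ⟨?_, ?_⟩⟩ <;> simp only <;> linarith
  have hrect : volume (Icc (-W) W ×ˢ Icc (-u) u) = ENNReal.ofReal (4 * W * u) := by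
    rw [Measure.volume_eq_prod, Measure.prod_prod, Real.volume_Icc, Real.volume_Icc,
      ← ENNReal.ofReal_mul (by linarith)]
    congr 1
    ring
  have hle : ENNReal.ofReal (f y) * volume D ≤ ENNReal.ofReal (4 * W * u) := by
    rw [← hvol, ← hrect]
    exact measure_mono hsub
  have hreal : f y * (volume D).toReal ≤ 4 * W * u := by
    have h := ENNReal.toReal_mono ENNReal.ofReal_ne_top hle
    rwa [ENNReal.toReal_mul, ENNReal.toReal_ofReal hfy0.le,
      ENNReal.toReal_ofReal (by positivity)] at h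
  have hfin : f y * (volume D).toReal ≤ f y * (4 * t * W) := by nlinarith
  exact le_of_mul_le_mul_left hfin hfy0

end Vale.Agent.Lib.P243.helper23
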