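import Mathlib
import Vale.Agent.Lib.P243.helper23.SymPlanar

open MeasureTheory Measure Set
open scoped ENNReal Pointwise

namespace Vale.Agent.Lib.P243.helper23

open Vale.Agent.Lib.P237.helper23 (cross vol_image2 mink_seg)

/-- The chord function of an origin-symmetric set is even. -/
theorem chord_neg {K : Set (ℝ × ℝ × ℝ)} (hsym : ∀ p ∈ K, -p ∈ K) (q : ℝ × ℝ) :
    chord K (-q) = chord K q := by
  unfold chord
  have e : fib K (-q) = Neg.neg ⁻¹' fib K q := by
    ext a
    constructor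
    · intro ha
      have h := hsym _ ha
      show (-a, q) ∈ K
      simpa using h
    · intro ha
      have h := hsym _ ha
      show (a, -q) ∈ K
      simpa using h
  rw [e, Measure.measure_preimage_neg]

theorem snd_image_neg {K : Set (ℝ × ℝ × ℝ)} (hsym : ∀ p ∈ K, -p ∈ K) :
    ∀ q ∈ Prod.snd '' K, -q ∈ Prod.snd '' K := by
  rintro _ ⟨p, hp, rfl⟩
  exact ⟨-p, hsym p hp, rfl⟩

/-- The integral of the roof profile. -/
theorem lintegral_roof (A W h : ℝ) (hA : 0 ≤ A) (hW : 0 ≤ W) (hh : 0 < h) :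
    ∫⁻ t in Ioo 0 h, ENNReal.ofReal ((1 - t / h) ^ 2 * A + 4 * (t / h) * (1 - t / h) * W) =
      ENNReal.ofReal (h * (A + 2 * W) / 3) := by
  have hint : ∫ t in (0 : ℝ)..h, ((1 - t / h) ^ 2 * A + 4 * (t / h) * (1 - t / h) * W) =
      h * (A + 2 * W) / 3 := by
    have hpoly : ∀ t : ℝ, (1 - t / h) ^ 2 * A + 4 * (t / h) * (1 - t / h) * W =
        A - ((2 * A - 4 * W) / h) * t ^ 1 + ((A - 4 * W) / h ^ 2) * t ^ 2 := by
      intro t
      field_simp
      ring
    simp_rw [hpoly]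
    rw [intervalIntegral.integral_add (by apply Continuous.intervalIntegrable; fun_prop)
      (by apply Continuous.intervalIntegrable; fun_prop),
      intervalIntegral.integral_sub (by apply Continuous.intervalIntegrable; fun_prop)
      (by apply Continuous.intervalIntegrable; fun_prop)]
    rw [intervalIntegral.integral_const_mul, intervalIntegral.integral_const_mul, integral_pow,
      integral_pow, intervalIntegral.integral_const]
    simp only [smul_eq_mul]
    field_simp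
    ring
  rw [setLIntegral_congr Ioo_ae_eq_Ioc, ← hint, intervalIntegral.integral_of_le hh.le,
    ofReal_integral_eq_lintegral_ofReal]
  · have hc : Continuous fun t : ℝ => (1 - t / h) ^ 2 * A + 4 * (t / h) * (1 - t / h) * W := by
      fun_prop
    exact (hc.intervalIntegrable 0 h).1
  · refine (ae_restrict_iff' measurableSet_Ioc).2 (Filter.Eventually.of_forall fun t ht => ?_)
    have h1 : 0 ≤ t / h := div_nonneg ht.1.le hh.le
    have h2 : t / h ≤ 1 := (div_le_one hh).2 ht.2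
    have h3 : 0 ≤ 4 * (t / h) * (1 - t / h) * W :=
      mul_nonneg (mul_nonneg (mul_nonneg (by norm_num) h1) (by linarith)) hW
    have h4 : 0 ≤ (1 - t / h) ^ 2 * A := mul_nonneg (sq_nonneg _) hA
    show (0 : ℝ) ≤ (1 - t / h) ^ 2 * A + 4 * (t / h) * (1 - t / h) * W
    linarith

/-- Roof bound: an origin-symmetric convex body with chord `h` over `y` has volume at least
`h (A + 2 W) / 3`, where `A` is the area of its shadow `D` and `W` is the cross product of `y`
with any point of `D`. -/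
theorem roof_bound {K : Set (ℝ × ℝ × ℝ)} (hK : Convex ℝ K) (hKc : IsCompact K)
    (hsym : ∀ p ∈ K, -p ∈ K) {y b₀ : ℝ × ℝ} (hy : 0 < chord K y) (hb₀ : b₀ ∈ Prod.snd '' K)
    (hW : 0 ≤ cross b₀ y) :
    chord K y * ((volume (Prod.snd '' K)).toReal + 2 * cross b₀ y) ≤ 3 * (volume K).toReal := by
  obtain ⟨D, hDdef⟩ : ∃ D : Set (ℝ × ℝ), D = Prod.snd '' K := ⟨_, rfl⟩
  obtain ⟨h, hh⟩ : ∃ h : ℝ, h = chord K y := ⟨_, rfl⟩
  obtain ⟨W, hWdef⟩ : ∃ W : ℝ, W = cross b₀ y := ⟨_, rfl⟩
  rw [← hDdef, ← hh, ← hWdef]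
  rw [← hh] at hy
  rw [← hWdef] at hW
  rw [← hDdef] at hb₀
  have hDc : IsCompact D := by rw [hDdef]; exact hKc.image continuous_snd
  have hDconv : Convex ℝ D := by
    rw [hDdef]
    exact hK.linear_image (LinearMap.snd ℝ ℝ (ℝ × ℝ))
  have hDfin : volume D ≠ ⊤ := hDc.measure_lt_top.ne
  have hKfin : volume K ≠ ⊤ := hKc.measure_lt_top.ne
  have hnegD : ∀ q ∈ D, -q ∈ D := by rw [hDdef]; exact snd_image_neg hsym
  have hyD : y ∈ D := by
    rw [hDdef]
    by_contra hcon
    have h0 : chord K y = 0 := chord_eq_zero hcon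
    rw [← hh] at h0
    linarith
  obtain ⟨A, hAdef⟩ : ∃ A : ℝ, A = (volume D).toReal := ⟨_, rfl⟩
  have hA0 : 0 ≤ A := by rw [hAdef]; exact ENNReal.toReal_nonneg
  have hDA : volume D = ENNReal.ofReal A := by rw [hAdef, ENNReal.ofReal_toReal hDfin]
  rw [← hAdef]
  have hmeas := chord_measurable hKc
  have hL2 : volume K = ∫⁻ t in Ioi 0, volume (lev K t) := by
    rw [volume_eq_lintegral_chord hKc,
      lintegral_eq_lintegral_meas_le _ (Filter.Eventually.of_forall (chord_nonneg K))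
      hmeas.aemeasurable]
    rfl
  have hpt : ∀ t ∈ Ioo 0 h,
      ENNReal.ofReal ((1 - t / h) ^ 2 * A + 4 * (t / h) * (1 - t / h) * W) ≤
        volume (lev K t) := by
    intro t ht
    obtain ⟨θ, hθ⟩ : ∃ θ, θ = t / h := ⟨_, rfl⟩
    have hθ0 : 0 < θ := by rw [hθ]; exact div_pos ht.1 hy
    have hθ1 : θ < 1 := by rw [hθ, div_lt_one hy]; exact ht.2
    have htθ : t = θ * h := by rw [hθ]; field_simp
    rw [← hθ]
    obtain ⟨Bθ, hBθ⟩ : ∃ Bθ : Set (ℝ × ℝ),
        Bθ = (fun q : ℝ × ℝ => (-θ) • y + (1 - θ) • q) '' D := ⟨_, rfl⟩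
    have hBc : IsCompact Bθ := by rw [hBθ]; exact hDc.image (by fun_prop)
    have hBconv : Convex ℝ Bθ := by rw [hBθ]; exact hDconv.affinity _ _
    have hBvol : volume Bθ = ENNReal.ofReal ((1 - θ) ^ 2) * volume D := by
      have e : Bθ = (fun q : ℝ × ℝ => (-θ) • y + q) '' ((1 - θ) • D) := by
        rw [hBθ, ← Set.image_smul, Set.image_image]
      rw [e, Set.image_add_left, measure_preimage_add, Measure.addHaar_smul]
      have hf : Module.finrank ℝ (ℝ × ℝ) = 2 := by simp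
      rw [hf, abs_of_nonneg (by positivity)]
    have hms := mink_seg hBconv hBc ((2 * θ) • y)
      (b := (-θ) • y + (1 - θ) • b₀) (b' := (-θ) • y + (1 - θ) • (-b₀))
      (by rw [hBθ]; exact ⟨b₀, hb₀, rfl⟩) (by rw [hBθ]; exact ⟨-b₀, hnegD b₀ hb₀, rfl⟩)
    have hcross : cross (((-θ) • y + (1 - θ) • b₀) - ((-θ) • y + (1 - θ) • (-b₀))) ((2 * θ) • y)
        = 4 * θ * (1 - θ) * W := by
      rw [hWdef]
      unfold cross
      simp only [Prod.fst_sub, Prod.snd_sub, Prod.fst_add, Prod.snd_add, Prod.smul_fst,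
        Prod.smul_snd, smul_eq_mul, Prod.fst_neg, Prod.snd_neg]
      ring
    have hnn : 0 ≤ 4 * θ * (1 - θ) * W :=
      mul_nonneg (mul_nonneg (mul_nonneg (by norm_num) hθ0.le) (by linarith)) hW
    rw [hcross, abs_of_nonneg hnn] at hms
    have hSsub : {p : ℝ × ℝ | ∃ q ∈ Bθ, ∃ s ∈ Icc (0 : ℝ) 1, p = q + s • ((2 * θ) • y)} ⊆
        lev K t := by
      rintro p ⟨q, hq, s, hs, rfl⟩
      rw [hBθ] at hq
      obtain ⟨q₀, hq₀, rfl⟩ := hq
      have hmid1 : (2 * s - 1) • y ∈ D := by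
        have hc := hDconv (hnegD y hyD) hyD (by linarith [hs.2] : (0 : ℝ) ≤ 1 - s) hs.1
          (by ring)
        have e : (1 - s) • (-y) + s • y = (2 * s - 1) • y := by module
        rwa [e] at hc
      have hmid2 : h ≤ chord K ((2 * s - 1) • y) := by
        have hc := chord_concave hK hKc (hDdef ▸ hnegD y hyD) (hDdef ▸ hyD) hs.1 hs.2
        have e : (1 - s) • (-y) + s • y = (2 * s - 1) • y := by module
        rw [e, chord_neg hsym, ← hh] at hc
        have e2 : (1 - s) * h + s * h = h := by ring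
        linarith
      have hc := chord_concave hK hKc (hDdef ▸ hq₀) (hDdef ▸ hmid1) hθ0.le hθ1.le
      have e3 : (-θ) • y + (1 - θ) • q₀ + s • ((2 * θ) • y)
          = (1 - θ) • q₀ + θ • ((2 * s - 1) • y) := by module
      show t ≤ chord K ((-θ) • y + (1 - θ) • q₀ + s • ((2 * θ) • y))
      rw [e3]
      have h5 : 0 ≤ (1 - θ) * chord K q₀ := mul_nonneg (by linarith) (chord_nonneg K q₀)
      have h6 : θ * h ≤ θ * chord K ((2 * s - 1) • y) := mul_le_mul_of_nonneg_left hmid2 hθ0.le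
      linarith
    calc ENNReal.ofReal ((1 - θ) ^ 2 * A + 4 * θ * (1 - θ) * W)
        = volume Bθ + ENNReal.ofReal (4 * θ * (1 - θ) * W) := by
          rw [ENNReal.ofReal_add (mul_nonneg (sq_nonneg _) hA0) hnn,
            ENNReal.ofReal_mul (sq_nonneg _), hBvol, hDA]
      _ ≤ _ := hms
      _ ≤ volume (lev K t) := measure_mono hSsub
  have hV : ENNReal.ofReal (h * (A + 2 * W) / 3) ≤ volume K := by
    rw [hL2, ← lintegral_roof A W h hA0 hW hy]
    calc ∫⁻ t in Ioo 0 h, ENNReal.ofReal ((1 - t / h) ^ 2 * A + 4 * (t / h) * (1 - t / h) * W)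
        ≤ ∫⁻ t in Ioo 0 h, volume (lev K t) := setLIntegral_mono' measurableSet_Ioo hpt
      _ ≤ ∫⁻ t in Ioi 0, volume (lev K t) := lintegral_mono_set (fun t ht => ht.1)
  have hr := (ENNReal.ofReal_le_iff_le_toReal hKfin).1 hV
  linarith

end Vale.Agent.Lib.P243.helper23
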