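import Mathlib
import Vale.Agent.Lib.P243.helper23.SymRoof
import Vale.Agent.Lib.P243.helper23.Core

open MeasureTheory Measure Set
open scoped ENNReal Pointwise

namespace Vale.Agent.Lib.P243.helper23

open Vale.Agent.Lib.P237.helper23 (cross vol_image2 mink_seg)

theorem zero_mem_of_sym {K : Set (ℝ × ℝ × ℝ)} (hK : Convex ℝ K) (hKne : K.Nonempty)
    (hsym : ∀ p ∈ K, -p ∈ K) : (0 : ℝ × ℝ × ℝ) ∈ K := by
  obtain ⟨p, hp⟩ := hKne
  have h := hK hp (hsym p hp) (by norm_num : (0 : ℝ) ≤ 1 / 2) (by norm_num : (0 : ℝ) ≤ 1 / 2)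
    (by norm_num)
  have e : (1 / 2 : ℝ) • p + (1 / 2 : ℝ) • (-p) = 0 := by module
  rwa [e] at h

/-- The chord over the centre is the longest. -/
theorem chord_le_zero {K : Set (ℝ × ℝ × ℝ)} (hK : Convex ℝ K) (hKc : IsCompact K)
    (hsym : ∀ p ∈ K, -p ∈ K) {y : ℝ × ℝ} (hy : y ∈ Prod.snd '' K) :
    chord K y ≤ chord K 0 := by
  have hc := chord_concave hK hKc (snd_image_neg hsym y hy) hy (θ := 1 / 2) (by norm_num)
    (by norm_num)
  have e : (1 - 1 / 2 : ℝ) • (-y) + (1 / 2 : ℝ) • y = 0 := by module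
  rw [e, chord_neg hsym] at hc
  linarith

/-- The pointwise chord inequality for origin-symmetric convex bodies. -/
theorem sym_pointwise {K : Set (ℝ × ℝ × ℝ)} (hK : Convex ℝ K) (hKc : IsCompact K)
    (hKne : K.Nonempty) (hsym : ∀ p ∈ K, -p ∈ K) (y : ℝ × ℝ) :
    (5 * chord K y - chord K ((2 : ℝ) • y)) * (volume (Prod.snd '' K)).toReal
      ≤ 12 * (volume K).toReal := by
  obtain ⟨D, hDdef⟩ : ∃ D : Set (ℝ × ℝ), D = Prod.snd '' K := ⟨_, rfl⟩
  obtain ⟨A, hAdef⟩ : ∃ A : ℝ, A = (volume (Prod.snd '' K)).toReal := ⟨_, rfl⟩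
  obtain ⟨V, hVdef⟩ : ∃ V : ℝ, V = (volume K).toReal := ⟨_, rfl⟩
  obtain ⟨h, hh⟩ : ∃ h : ℝ, h = chord K y := ⟨_, rfl⟩
  obtain ⟨h2, hh2⟩ : ∃ h2 : ℝ, h2 = chord K ((2 : ℝ) • y) := ⟨_, rfl⟩
  have hA0 : 0 ≤ A := by rw [hAdef]; exact ENNReal.toReal_nonneg
  have hV0 : 0 ≤ V := by rw [hVdef]; exact ENNReal.toReal_nonneg
  have hh0 : 0 ≤ h := by rw [hh]; exact chord_nonneg K y
  have hh20 : 0 ≤ h2 := by rw [hh2]; exact chord_nonneg K _
  rw [← hAdef, ← hVdef, ← hh, ← hh2]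
  by_cases hy : 0 < h
  swap
  · have hz : h = 0 := le_antisymm (not_lt.1 hy) hh0
    rw [hz]
    nlinarith [mul_nonneg hh20 hA0]
  have hDc : IsCompact D := by rw [hDdef]; exact hKc.image continuous_snd
  have hDconv : Convex ℝ D := by
    rw [hDdef]
    exact hK.linear_image (LinearMap.snd ℝ ℝ (ℝ × ℝ))
  have hnegD : ∀ q ∈ D, -q ∈ D := by rw [hDdef]; exact snd_image_neg hsym
  have h0K := zero_mem_of_sym hK hKne hsym
  have h0D : (0 : ℝ × ℝ) ∈ D := by rw [hDdef]; exact ⟨0, h0K, rfl⟩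
  have hyD : y ∈ D := by
    rw [hDdef]
    by_contra hcon
    have hc0 : chord K y = 0 := chord_eq_zero hcon
    rw [← hh] at hc0
    linarith
  -- the maximal cross product
  have hcont : Continuous fun b : ℝ × ℝ => cross b y := by
    unfold cross
    fun_prop
  obtain ⟨b₀, hb₀, hmax⟩ := hDc.exists_isMaxOn ⟨0, h0D⟩ hcont.continuousOn
  obtain ⟨W, hWdef⟩ : ∃ W : ℝ, W = cross b₀ y := ⟨_, rfl⟩
  have hWmax : ∀ b ∈ D, cross b y ≤ W := by
    intro b hb
    rw [hWdef]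
    exact hmax hb
  have hW0 : 0 ≤ W := by
    have h := hWmax 0 h0D
    simpa [cross] using h
  have hroof : h * (A + 2 * W) ≤ 3 * V := by
    have h := roof_bound hK hKc hsym (y := y) (b₀ := b₀) (by rw [← hh]; exact hy)
      (hDdef ▸ hb₀) (by rw [← hWdef]; exact hW0)
    rw [← hh, ← hWdef, ← hAdef, ← hVdef] at h
    exact h
  have hAD : A = (volume D).toReal := by rw [hAdef, hDdef]
  by_cases h2y : (2 : ℝ) • y ∈ D
  swap
  · -- the doubled point is outside the shadow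
    have hstrip := strip_bound hDconv hDc hnegD h0D hWmax (by norm_num : (0 : ℝ) < 2) h2y
    rw [← hAD] at hstrip
    have hz : h2 = 0 := by
      rw [hh2]
      exact chord_eq_zero (hDdef ▸ h2y)
    rw [hz]
    nlinarith [mul_nonneg hy.le (sub_nonneg.2 hstrip)]
  by_cases hy0 : y = 0
  · have hz : h2 = h := by rw [hh2, hh, hy0, smul_zero]
    rw [hz]
    nlinarith [mul_nonneg hy.le hW0]
  -- the exit parameter
  obtain ⟨T, hTdef⟩ : ∃ T : Set ℝ, T = {t : ℝ | 0 ≤ t ∧ t • y ∈ D} := ⟨_, rfl⟩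
  obtain ⟨R, hR⟩ := hDc.isBounded.exists_norm_le
  have hynorm : 0 < ‖y‖ := norm_pos_iff.2 hy0
  have hTcl : IsClosed T := by
    rw [hTdef]
    exact (isClosed_le continuous_const continuous_id).inter
      (hDc.isClosed.preimage (by fun_prop))
  have hTsub : T ⊆ Icc 0 (R / ‖y‖) := by
    rw [hTdef]
    rintro t ⟨ht0, htD⟩
    refine ⟨ht0, ?_⟩
    have hn := hR _ htD
    rw [norm_smul, Real.norm_eq_abs, abs_of_nonneg ht0] at hn
    rw [le_div_iff₀ hynorm]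
    exact hn
  have hTc : IsCompact T := isCompact_Icc.of_isClosed_subset hTcl hTsub
  have h2T : (2 : ℝ) ∈ T := by rw [hTdef]; exact ⟨by norm_num, h2y⟩
  have hTne : T.Nonempty := ⟨2, h2T⟩
  obtain ⟨τ, hτ⟩ : ∃ τ : ℝ, τ = sSup T := ⟨_, rfl⟩
  have hτT : τ ∈ T := by rw [hτ]; exact hTc.sSup_mem hTne
  have hτ2 : 2 ≤ τ := by rw [hτ]; exact le_csSup hTc.bddAbove h2T
  have hτD : τ • y ∈ D := by
    rw [hTdef] at hτT
    exact hτT.2
  have hout : ∀ t : ℝ, τ < t → A ≤ 4 * t * W := by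
    intro t ht
    have htT : t ∉ T := notMem_of_csSup_lt (hτ ▸ ht) hTc.bddAbove
    have htD : t • y ∉ D := by
      intro hcon
      apply htT
      rw [hTdef]
      exact ⟨by linarith, hcon⟩
    have hstrip := strip_bound hDconv hDc hnegD h0D hWmax (by linarith : (0 : ℝ) < t) htD
    rw [← hAD] at hstrip
    exact hstrip
  have hAτ : A ≤ 4 * τ * W := by
    apply le_of_forall_pos_le_add
    intro ε hε
    have h := hout (τ + ε / (4 * W + 1)) (by have : 0 < ε / (4 * W + 1) := by positivity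
                                             linarith)
    have h1 : 4 * W * (ε / (4 * W + 1)) ≤ ε := by
      rw [mul_div_assoc', div_le_iff₀ (by positivity)]
      nlinarith
    nlinarith
  -- concavity between the centre and the exit point
  obtain ⟨θ, hθ⟩ : ∃ θ : ℝ, θ = 2 / τ := ⟨_, rfl⟩
  have hτpos : 0 < τ := by linarith
  have hθ0 : 0 ≤ θ := by rw [hθ]; positivity
  have hθ1 : θ ≤ 1 := by rw [hθ, div_le_one hτpos]; exact hτ2
  have hθτ : θ * τ = 2 := by rw [hθ]; field_simp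
  have hc := chord_concave hK hKc (hDdef ▸ h0D) (hDdef ▸ hτD) hθ0 hθ1
  have e : (1 - θ) • (0 : ℝ × ℝ) + θ • (τ • y) = (2 : ℝ) • y := by
    rw [smul_zero, zero_add, smul_smul, hθτ]
  rw [e, ← hh2] at hc
  have hcen : h ≤ chord K 0 := by
    rw [hh]
    exact chord_le_zero hK hKc hsym (hDdef ▸ hyD)
  have h7 : (1 - θ) * h ≤ h2 := by
    have h8 : (1 - θ) * h ≤ (1 - θ) * chord K 0 :=
      mul_le_mul_of_nonneg_left hcen (by linarith)
    have h9 : 0 ≤ θ * chord K (τ • y) := mul_nonneg hθ0 (chord_nonneg K _)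
    linarith
  have h10 : θ * A ≤ 8 * W := by
    have h11 : θ * A ≤ θ * (4 * τ * W) := mul_le_mul_of_nonneg_left hAτ hθ0
    have h12 : θ * (4 * τ * W) = 4 * (θ * τ) * W := by ring
    rw [h12, hθτ] at h11
    linarith
  have h13 : (5 * h - h2) * A ≤ (4 + θ) * h * A := by
    have h14 : 5 * h - h2 ≤ (4 + θ) * h := by linarith
    exact mul_le_mul_of_nonneg_right h14 hA0
  have h15 : h * (θ * A) ≤ h * (8 * W) := mul_le_mul_of_nonneg_left h10 hy.le
  nlinarith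

/-- Chords of the half-size copy. -/
theorem chord_half (K : Set (ℝ × ℝ × ℝ)) (q : ℝ × ℝ) :
    chord {p : ℝ × ℝ × ℝ | (2 : ℝ) • p ∈ K} q = chord K ((2 : ℝ) • q) / 2 := by
  unfold chord
  have e : fib {p : ℝ × ℝ × ℝ | (2 : ℝ) • p ∈ K} q
      = (fun a : ℝ => 2 * a) ⁻¹' fib K ((2 : ℝ) • q) := by
    ext a
    exact Iff.rfl
  rw [e, Real.volume_preimage_mul_left (by norm_num : (2 : ℝ) ≠ 0), ENNReal.toReal_mul,
    ENNReal.toReal_ofReal (abs_nonneg _), abs_of_pos (by norm_num : (0 : ℝ) < 2⁻¹)]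
  ring

theorem half_subset {K : Set (ℝ × ℝ × ℝ)} (hK : Convex ℝ K) (h0 : (0 : ℝ × ℝ × ℝ) ∈ K) :
    {p : ℝ × ℝ × ℝ | (2 : ℝ) • p ∈ K} ⊆ K := by
  intro p hp
  have hp' : (2 : ℝ) • p ∈ K := hp
  have h := hK hp' h0 (by norm_num : (0 : ℝ) ≤ 1 / 2) (by norm_num : (0 : ℝ) ≤ 1 / 2)
    (by norm_num)
  have e : (1 / 2 : ℝ) • ((2 : ℝ) • p) + (1 / 2 : ℝ) • (0 : ℝ × ℝ × ℝ) = p := by
    rw [smul_zero, add_zero, smul_smul]
    norm_num
  rwa [e] at h

/-- One cylinder against the two-level weight, in coordinates: with `K₂` the half-size copy of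
an origin-symmetric convex body `K`, three times the volume of the part of `K₂` over `B` plus
five times the volume of the part of `K \ K₂` over `B` is at most twelve times the volume of
`K` times the relative area of `B`. -/
theorem sym_cyl_coord {K : Set (ℝ × ℝ × ℝ)} (hK : Convex ℝ K) (hKc : IsCompact K)
    (hKi : (interior K).Nonempty) (hsym : ∀ p ∈ K, -p ∈ K) {B : Set (ℝ × ℝ)}
    (hB : MeasurableSet B) :
    3 * volume ({p : ℝ × ℝ × ℝ | (2 : ℝ) • p ∈ K} ∩ Prod.snd ⁻¹' B)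
      + 5 * volume ((K \ {p : ℝ × ℝ × ℝ | (2 : ℝ) • p ∈ K}) ∩ Prod.snd ⁻¹' B)
      ≤ 12 * volume K * (volume B / volume (Prod.snd '' K)) := by
  have hKne : K.Nonempty := hKi.mono interior_subset
  have h0K := zero_mem_of_sym hK hKne hsym
  obtain ⟨K₂, hK₂⟩ : ∃ K₂ : Set (ℝ × ℝ × ℝ), K₂ = {p : ℝ × ℝ × ℝ | (2 : ℝ) • p ∈ K} :=
    ⟨_, rfl⟩
  rw [← hK₂]
  have hsub : K₂ ⊆ K := by rw [hK₂]; exact half_subset hK h0K
  have hK₂cl : IsClosed K₂ := by
    rw [hK₂]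
    exact hKc.isClosed.preimage (by fun_prop)
  have hK₂c : IsCompact K₂ := hKc.of_isClosed_subset hK₂cl hsub
  have hCm : MeasurableSet (Prod.snd ⁻¹' B : Set (ℝ × ℝ × ℝ)) := measurable_snd hB
  have hDc : IsCompact (Prod.snd '' K) := hKc.image continuous_snd
  have hDfin : volume (Prod.snd '' K) ≠ ⊤ := hDc.measure_lt_top.ne
  have hDpos := snd_image_volume_pos hKi
  have hKfin : volume K ≠ ⊤ := hKc.measure_lt_top.ne
  obtain ⟨A, hAdef⟩ : ∃ A : ℝ, A = (volume (Prod.snd '' K)).toReal := ⟨_, rfl⟩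
  obtain ⟨V, hVdef⟩ : ∃ V : ℝ, V = (volume K).toReal := ⟨_, rfl⟩
  have hApos : 0 < A := by rw [hAdef]; exact ENNReal.toReal_pos hDpos.ne' hDfin
  have hV0 : 0 ≤ V := by rw [hVdef]; exact ENNReal.toReal_nonneg
  have hDA : volume (Prod.snd '' K) = ENNReal.ofReal A := by
    rw [hAdef, ENNReal.ofReal_toReal hDfin]
  have hKV : volume K = ENNReal.ofReal V := by rw [hVdef, ENNReal.ofReal_toReal hKfin]
  -- splitting the part of `K` over `B`
  have hsplit : volume (K₂ ∩ Prod.snd ⁻¹' B) + volume ((K \ K₂) ∩ Prod.snd ⁻¹' B)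
      = volume (K ∩ Prod.snd ⁻¹' B) := by
    have h := measure_inter_add_sdiff (μ := volume) (K ∩ (Prod.snd ⁻¹' B : Set (ℝ × ℝ × ℝ)))
      hK₂cl.measurableSet
    have e1 : K ∩ (Prod.snd ⁻¹' B : Set (ℝ × ℝ × ℝ)) ∩ K₂ = K₂ ∩ Prod.snd ⁻¹' B := by
      ext p
      constructor
      · rintro ⟨⟨_, h2⟩, h3⟩
        exact ⟨h3, h2⟩
      · rintro ⟨h1, h2⟩
        exact ⟨⟨hsub h1, h2⟩, h1⟩
    have e2 : (K ∩ (Prod.snd ⁻¹' B : Set (ℝ × ℝ × ℝ))) \ K₂ = (K \ K₂) ∩ Prod.snd ⁻¹' B := by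
      ext p
      constructor
      · rintro ⟨⟨h1, h2⟩, h3⟩
        exact ⟨⟨h1, h3⟩, h2⟩
      · rintro ⟨⟨h1, h3⟩, h2⟩
        exact ⟨⟨h1, h2⟩, h3⟩
    rw [e1, e2] at h
    exact h
  have hI : volume (K ∩ Prod.snd ⁻¹' B) = ∫⁻ q in B, ENNReal.ofReal (chord K q) :=
    volume_cyl_eq hKc hB
  have hI₂ : volume (K₂ ∩ Prod.snd ⁻¹' B) = ∫⁻ q in B, ENNReal.ofReal (chord K₂ q) :=
    volume_cyl_eq hK₂c hB
  have hfin₂ : volume (K₂ ∩ Prod.snd ⁻¹' B) ≠ ⊤ :=
    (lt_of_le_of_lt (measure_mono inter_subset_left) hK₂c.measure_lt_top).ne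
  -- pointwise bound
  have hpw : ∀ q : ℝ × ℝ, 5 * ENNReal.ofReal (chord K q)
      ≤ ENNReal.ofReal (12 * V / A) + 2 * ENNReal.ofReal (chord K₂ q) := by
    intro q
    have h := sym_pointwise hK hKc hKne hsym q
    rw [← hAdef, ← hVdef] at h
    have hch : chord K₂ q = chord K ((2 : ℝ) • q) / 2 := by rw [hK₂]; exact chord_half K q
    have h1 : 5 * chord K q ≤ 12 * V / A + 2 * chord K₂ q := by
      rw [hch, div_add' _ _ _ hApos.ne', le_div_iff₀ hApos]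
      linarith
    have h2 : (5 : ℝ≥0∞) = ENNReal.ofReal 5 := by simp
    have h3 : (2 : ℝ≥0∞) = ENNReal.ofReal 2 := by simp
    rw [h2, h3, ← ENNReal.ofReal_mul (by norm_num), ← ENNReal.ofReal_mul (by norm_num),
      ← ENNReal.ofReal_add (by positivity) (mul_nonneg (by norm_num) (chord_nonneg _ _))]
    exact ENNReal.ofReal_le_ofReal h1
  have hmeas₂ : Measurable fun q => ENNReal.ofReal (chord K₂ q) :=
    (chord_measurable hK₂c).ennreal_ofReal
  have hint : 5 * volume (K ∩ Prod.snd ⁻¹' B)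
      ≤ ENNReal.ofReal (12 * V / A) * volume B + 2 * volume (K₂ ∩ Prod.snd ⁻¹' B) := by
    rw [hI, hI₂, ← lintegral_const_mul' _ _ (by norm_num), ← lintegral_const_mul' _ _ (by norm_num),
      ← setLIntegral_const, ← lintegral_add_left measurable_const]
    exact lintegral_mono hpw
  have hconst : ENNReal.ofReal (12 * V / A) * volume B
      = 12 * volume K * (volume B / volume (Prod.snd '' K)) := by
    rw [ENNReal.ofReal_div_of_pos hApos, ENNReal.ofReal_mul (by norm_num), ← hKV, ← hDA,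
      div_eq_mul_inv, div_eq_mul_inv]
    have h12 : ENNReal.ofReal 12 = 12 := by simp
    rw [h12]
    ring
  rw [← hconst]
  have hfinal : 3 * volume (K₂ ∩ Prod.snd ⁻¹' B) + 5 * volume ((K \ K₂) ∩ Prod.snd ⁻¹' B)
      + 2 * volume (K₂ ∩ Prod.snd ⁻¹' B)
      ≤ ENNReal.ofReal (12 * V / A) * volume B + 2 * volume (K₂ ∩ Prod.snd ⁻¹' B) := by
    refine le_trans (le_of_eq ?_) hint
    rw [← hsplit]
    ring
  exact ENNReal.le_of_add_le_add_right (ENNReal.mul_ne_top (by norm_num) hfin₂) hfinal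

end Vale.Agent.Lib.P243.helper23
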