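import Mathlib
import Vale.Agent.Lib.P243.CoreEucl
import Vale.Agent.Lib.P243.Amin
import Vale.Agent.Lib.P243.helper23.SymCoord

open MeasureTheory Measure Set
open scoped ENNReal NNReal InnerProductSpace

namespace Vale.Agent.Lib.P243.helper23

open Vale.Agent.Lib.P243

variable {E : Type*} [NormedAddCommGroup E] [InnerProductSpace ℝ E] [FiniteDimensional ℝ E]
  [MeasurableSpace E] [BorelSpace E]

/-- One cylinder against the two-level weight of an origin-symmetric convex body `K`: with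
`K₂ = {x | 2 x ∈ K}` the half-size copy, `3 vol (K₂ ∩ C) + 5 vol ((K \ K₂) ∩ C)` is at most
`12 vol K` times the relative base area of the cylinder `C`. -/
theorem sym_cyl (hdim : Module.finrank ℝ E = 3) (μ : Measure E) [μ.IsAddHaarMeasure]
    {K : Set E} (hK : Convex ℝ K) (hKc : IsCompact K) (hKi : (interior K).Nonempty)
    (hsym : ∀ x ∈ K, -x ∈ K) {d : E} (hd : ‖d‖ = 1) (B : Set E) :
    3 * μ ({x | (2 : ℝ) • x ∈ K} ∩ {x | x - ⟪x, d⟫_ℝ • d ∈ B})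
      + 5 * μ ((K \ {x | (2 : ℝ) • x ∈ K}) ∩ {x | x - ⟪x, d⟫_ℝ • d ∈ B})
      ≤ 12 * μ K * ((μHE[2] : Measure E) B /
        (μHE[2] : Measure E) ((fun x => x - ⟪x, d⟫_ℝ • d) '' K)) := by
  obtain ⟨n₁, hn₁, hn₁u, -⟩ := exists_normal hdim d d
  obtain ⟨v, hv⟩ : ∃ v : E, v = ‖n₁‖⁻¹ • n₁ := ⟨_, rfl⟩
  have hvn : ‖v‖ = 1 := by rw [hv]; exact norm_smul_inv_norm hn₁
  have hvu : ⟪v, d⟫_ℝ = 0 := by rw [hv, real_inner_smul_left, hn₁u, mul_zero]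
  have hv0 : v ≠ 0 := by
    intro h; rw [h, norm_zero] at hvn; exact zero_ne_one hvn
  have hw : v - ⟪v, d⟫_ℝ • d ≠ 0 := by
    rw [hvu, zero_smul, sub_zero]; exact hv0
  obtain ⟨n, hn, hnu, hnv⟩ := exists_normal hdim d v
  obtain ⟨hK', hKc', hKi', hsurj⟩ := preimage_facts hdim hK hKc hKi hd hn hnu hnv hw
  have hinj := frameMap_injective hd hn hnu hnv hw
  have hnw : ⟪n, v - ⟪v, d⟫_ℝ • d⟫_ℝ = 0 := by
    rw [inner_sub_right, real_inner_smul_right, hnv, hnu]; simp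
  have e1 := proj_image_u (K := K) hd hnu hsurj
  obtain ⟨c₂, hc20, hc2t, hc₂⟩ :=
    exists_area_const (planeMap (v - ⟪v, d⟫_ℝ • d) n) (planeMap_injective hw hn hnw)
  obtain ⟨c₃, hc0, hct, hc₃⟩ := exists_vol_const μ (frameMap d v n) hinj hsurj
  set Ψ := frameMap d v n with hΨ
  set Lp := planeMap (v - ⟪v, d⟫_ℝ • d) n with hLp
  set Bm : Set E := toMeasurable (μHE[2] : Measure E) B with hBm
  have hBmm : MeasurableSet Bm := measurableSet_toMeasurable _ _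
  have hΨc : Continuous Ψ := LinearMap.continuous_of_finiteDimensional _
  have hLm : Measurable Lp := (LinearMap.continuous_of_finiteDimensional _).measurable
  have m1 : MeasurableSet (pr1 (Ψ ⁻¹' K)) := (pr1_compact hKc').measurableSet
  set B' : Set (ℝ × ℝ) := Lp ⁻¹' Bm with hB'
  have hB'm : MeasurableSet B' := hLm hBmm
  have hsym' : ∀ p ∈ Ψ ⁻¹' K, -p ∈ Ψ ⁻¹' K := by
    intro p hp
    show Ψ (-p) ∈ K
    rw [map_neg]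
    exact hsym _ hp
  have hcoord := sym_cyl_coord hK' hKc' hKi' hsym' hB'm
  have hareaK : (μHE[2] : Measure E) ((fun x => x - ⟪x, d⟫_ℝ • d) '' K)
      = c₂ * volume (pr1 (Ψ ⁻¹' K)) := by rw [e1, hc₂ _ m1]
  have hareaB : c₂ * volume B' ≤ (μHE[2] : Measure E) B := by
    rw [← hc₂ _ hB'm]
    calc (μHE[2] : Measure E) (Lp '' B') ≤ (μHE[2] : Measure E) Bm := by
          refine measure_mono ?_
          rintro _ ⟨y, hy, rfl⟩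
          exact hy
      _ = (μHE[2] : Measure E) B := measure_toMeasurable _
  have hKm : MeasurableSet K := hKc.measurableSet
  have hK₂m : MeasurableSet {x : E | (2 : ℝ) • x ∈ K} :=
    (hKc.isClosed.preimage (continuous_const_smul (2 : ℝ))).measurableSet
  have hCm : MeasurableSet {x : E | x - ⟪x, d⟫_ℝ • d ∈ Bm} :=
    (continuous_proj d).measurable hBmm
  have hsubC : {x | x - ⟪x, d⟫_ℝ • d ∈ B} ⊆ {x | x - ⟪x, d⟫_ℝ • d ∈ Bm} :=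
    fun x hx => subset_toMeasurable _ _ hx
  have hpreC : Ψ ⁻¹' {x | x - ⟪x, d⟫_ℝ • d ∈ Bm} = Prod.snd ⁻¹' B' := by
    ext x
    show Ψ x - ⟪Ψ x, d⟫_ℝ • d ∈ Bm ↔ Lp x.2 ∈ Bm
    rw [hΨ, proj_frameMap_u hd hnu x]
  have hpre₂ : Ψ ⁻¹' {x : E | (2 : ℝ) • x ∈ K}
      = {p : ℝ × ℝ × ℝ | (2 : ℝ) • p ∈ Ψ ⁻¹' K} := by
    ext p
    show (2 : ℝ) • Ψ p ∈ K ↔ Ψ ((2 : ℝ) • p) ∈ K
    rw [map_smul]
  have hv1 : μ ({x | (2 : ℝ) • x ∈ K} ∩ {x | x - ⟪x, d⟫_ℝ • d ∈ Bm})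
      = c₃ * volume ({p : ℝ × ℝ × ℝ | (2 : ℝ) • p ∈ Ψ ⁻¹' K} ∩ Prod.snd ⁻¹' B') := by
    rw [hc₃ _ (hK₂m.inter hCm), preimage_inter, hpreC, hpre₂]
  have hv2 : μ ((K \ {x | (2 : ℝ) • x ∈ K}) ∩ {x | x - ⟪x, d⟫_ℝ • d ∈ Bm})
      = c₃ * volume ((Ψ ⁻¹' K \ {p : ℝ × ℝ × ℝ | (2 : ℝ) • p ∈ Ψ ⁻¹' K})
          ∩ Prod.snd ⁻¹' B') := by
    rw [hc₃ _ ((hKm.diff hK₂m).inter hCm), preimage_inter, preimage_sdiff, hpreC, hpre₂]
  calc 3 * μ ({x | (2 : ℝ) • x ∈ K} ∩ {x | x - ⟪x, d⟫_ℝ • d ∈ B})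
        + 5 * μ ((K \ {x | (2 : ℝ) • x ∈ K}) ∩ {x | x - ⟪x, d⟫_ℝ • d ∈ B})
      ≤ 3 * μ ({x | (2 : ℝ) • x ∈ K} ∩ {x | x - ⟪x, d⟫_ℝ • d ∈ Bm})
        + 5 * μ ((K \ {x | (2 : ℝ) • x ∈ K}) ∩ {x | x - ⟪x, d⟫_ℝ • d ∈ Bm}) := by
        gcongr
    _ = c₃ * (3 * volume ({p : ℝ × ℝ × ℝ | (2 : ℝ) • p ∈ Ψ ⁻¹' K} ∩ Prod.snd ⁻¹' B')
        + 5 * volume ((Ψ ⁻¹' K \ {p : ℝ × ℝ × ℝ | (2 : ℝ) • p ∈ Ψ ⁻¹' K})
          ∩ Prod.snd ⁻¹' B')) := by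
        rw [hv1, hv2]; ring
    _ ≤ c₃ * (12 * volume (Ψ ⁻¹' K) * (volume B' / volume (Prod.snd '' (Ψ ⁻¹' K)))) := by
        gcongr
    _ = 12 * (c₃ * volume (Ψ ⁻¹' K))
          * (c₂ * volume B' / (c₂ * volume (pr1 (Ψ ⁻¹' K)))) := by
        rw [ENNReal.mul_div_mul_left _ _ hc20 hc2t]; unfold pr1; ring
    _ ≤ 12 * (c₃ * volume (Ψ ⁻¹' K))
          * ((μHE[2] : Measure E) B / (c₂ * volume (pr1 (Ψ ⁻¹' K)))) := by
        gcongr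
    _ = _ := by rw [hareaK, hc₃ _ hKm]

end Vale.Agent.Lib.P243.helper23
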