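import Mathlib
import Vale.Agent.Lib.P243.helper23.SymEucl

open MeasureTheory Measure Set
open scoped ENNReal NNReal InnerProductSpace

namespace Vale.Agent.Lib.P243.helper23

open Vale.Agent.Lib.P243

variable {E : Type*} [NormedAddCommGroup E] [InnerProductSpace ℝ E] [FiniteDimensional ℝ E]
  [MeasurableSpace E] [BorelSpace E]

/-- An origin-symmetric convex body and any finite covering by cylinders: the directionwise
relative area is at least `19/48`. -/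
theorem sym_all (hdim : Module.finrank ℝ E = 3) (μ : Measure E) [μ.IsAddHaarMeasure]
    {K : Set E} (hK : Convex ℝ K) (hKc : IsCompact K) (hKi : (interior K).Nonempty)
    (hsym : ∀ x ∈ K, -x ∈ K) {ι : Type*} [Fintype ι]
    (d : ι → E) (hd1 : ∀ i, ‖d i‖ = 1)
    (B : ι → Set E) (hB : ∀ i, ∀ x ∈ B i, ⟪x, d i⟫_ℝ = 0)
    (hcov : K ⊆ ⋃ i, {x | ∃ b ∈ B i, ∃ s : ℝ, x = b + s • d i}) :
    (19 / 48 : ℝ≥0∞) ≤ ∑ i, (μHE[2] : Measure E) (B i) /
      (μHE[2] : Measure E) ((fun x => x - ⟪x, d i⟫_ℝ • d i) '' K) := by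
  obtain ⟨K₂, hK₂⟩ : ∃ K₂ : Set E, K₂ = {x : E | (2 : ℝ) • x ∈ K} := ⟨_, rfl⟩
  have hK₂cl : IsClosed K₂ := by
    rw [hK₂]
    exact hKc.isClosed.preimage (continuous_const_smul (2 : ℝ))
  have hK₂m : MeasurableSet K₂ := hK₂cl.measurableSet
  have h0K : (0 : E) ∈ K := by
    obtain ⟨p, hp⟩ := hKi.mono interior_subset
    have h := hK hp (hsym p hp) (by norm_num : (0 : ℝ) ≤ 1 / 2) (by norm_num : (0 : ℝ) ≤ 1 / 2)
      (by norm_num)
    have e : (1 / 2 : ℝ) • p + (1 / 2 : ℝ) • (-p) = 0 := by module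
    rwa [e] at h
  have hsub : K₂ ⊆ K := by
    intro x hx
    rw [hK₂] at hx
    have hx' : (2 : ℝ) • x ∈ K := hx
    have h := hK hx' h0K (by norm_num : (0 : ℝ) ≤ 1 / 2) (by norm_num : (0 : ℝ) ≤ 1 / 2)
      (by norm_num)
    have e : (1 / 2 : ℝ) • ((2 : ℝ) • x) + (1 / 2 : ℝ) • (0 : E) = x := by
      rw [smul_zero, add_zero, smul_smul]
      norm_num
    rwa [e] at h
  have hpos : 0 < μ K :=
    lt_of_lt_of_le (isOpen_interior.measure_pos μ hKi) (measure_mono interior_subset)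
  have hfin : μ K < ⊤ := hKc.measure_lt_top
  have hμ₂ : μ K₂ = ENNReal.ofReal (1 / 8) * μ K := by
    have h := Measure.addHaar_preimage_smul μ (by norm_num : (2 : ℝ) ≠ 0) K
    rw [hdim] at h
    have e : (fun x : E => (2 : ℝ) • x) ⁻¹' K = K₂ := by rw [hK₂]; rfl
    rw [e] at h
    rw [h]
    congr 2
    rw [abs_of_pos (by norm_num)]
    norm_num
  have hμd : μ K₂ + μ (K \ K₂) = μ K := by
    have h := measure_inter_add_sdiff (μ := μ) K hK₂m
    rwa [inter_eq_right.2 hsub] at h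
  have hcov₂ : K₂ ⊆ ⋃ i, (K₂ ∩ {x | x - ⟪x, d i⟫_ℝ • d i ∈ B i}) := by
    intro x hx
    obtain ⟨i, b, hb, s, rfl⟩ := mem_iUnion.1 (hcov (hsub hx))
    refine mem_iUnion.2 ⟨i, hx, ?_⟩
    show (b + s • d i) - ⟪b + s • d i, d i⟫_ℝ • d i ∈ B i
    rw [proj_cyl_point (hd1 i) (hB i b hb) s]
    exact hb
  have hcovd : K \ K₂ ⊆ ⋃ i, ((K \ K₂) ∩ {x | x - ⟪x, d i⟫_ℝ • d i ∈ B i}) := by
    intro x hx
    obtain ⟨i, b, hb, s, rfl⟩ := mem_iUnion.1 (hcov hx.1)
    refine mem_iUnion.2 ⟨i, hx, ?_⟩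
    show (b + s • d i) - ⟪b + s • d i, d i⟫_ℝ • d i ∈ B i
    rw [proj_cyl_point (hd1 i) (hB i b hb) s]
    exact hb
  obtain ⟨R, hR⟩ : ∃ R : ℝ≥0∞, R = ∑ i, (μHE[2] : Measure E) (B i) /
      (μHE[2] : Measure E) ((fun x => x - ⟪x, d i⟫_ℝ • d i) '' K) := ⟨_, rfl⟩
  rw [← hR]
  have hsum : 3 * μ K₂ + 5 * μ (K \ K₂) ≤ 12 * μ K * R := by
    calc 3 * μ K₂ + 5 * μ (K \ K₂)
        ≤ 3 * ∑ i, μ (K₂ ∩ {x | x - ⟪x, d i⟫_ℝ • d i ∈ B i})
          + 5 * ∑ i, μ ((K \ K₂) ∩ {x | x - ⟪x, d i⟫_ℝ • d i ∈ B i}) := by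
          gcongr
          · exact (measure_mono hcov₂).trans (measure_iUnion_fintype_le _ _)
          · exact (measure_mono hcovd).trans (measure_iUnion_fintype_le _ _)
      _ = ∑ i, (3 * μ (K₂ ∩ {x | x - ⟪x, d i⟫_ℝ • d i ∈ B i})
          + 5 * μ ((K \ K₂) ∩ {x | x - ⟪x, d i⟫_ℝ • d i ∈ B i})) := by
          rw [Finset.mul_sum, Finset.mul_sum, ← Finset.sum_add_distrib]
      _ ≤ ∑ i, 12 * μ K * ((μHE[2] : Measure E) (B i) /
          (μHE[2] : Measure E) ((fun x => x - ⟪x, d i⟫_ℝ • d i) '' K)) := by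
          refine Finset.sum_le_sum (fun i _ => ?_)
          have h := sym_cyl hdim μ hK hKc hKi hsym (hd1 i) (B i)
          rw [← hK₂] at h
          exact h
      _ = 12 * μ K * R := by rw [hR, ← Finset.mul_sum]
  by_cases hRt : R = ⊤
  · rw [hRt]; exact le_top
  have hm : 0 < (μ K).toReal := ENNReal.toReal_pos hpos.ne' hfin.ne
  have h₂fin : μ K₂ ≠ ⊤ := (lt_of_le_of_lt (measure_mono hsub) hfin).ne
  have hdfin : μ (K \ K₂) ≠ ⊤ := (lt_of_le_of_lt (measure_mono sdiff_subset) hfin).ne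
  have hr := ENNReal.toReal_mono
    (ENNReal.mul_ne_top (ENNReal.mul_ne_top (by norm_num) hfin.ne) hRt) hsum
  rw [ENNReal.toReal_add (ENNReal.mul_ne_top (by norm_num) h₂fin)
    (ENNReal.mul_ne_top (by norm_num) hdfin)] at hr
  simp only [ENNReal.toReal_mul, ENNReal.toReal_ofNat] at hr
  have ha : (μ K₂).toReal = (μ K).toReal / 8 := by
    rw [hμ₂, ENNReal.toReal_mul, ENNReal.toReal_ofReal (by norm_num)]
    ring
  have hb : (μ K₂).toReal + (μ (K \ K₂)).toReal = (μ K).toReal := by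
    rw [← ENNReal.toReal_add h₂fin hdfin, hμd]
  have hR0 : 0 ≤ R.toReal := ENNReal.toReal_nonneg
  have hreal : 19 / 48 ≤ R.toReal := by
    by_contra hlt
    push Not at hlt
    nlinarith
  have h1948 : (19 / 48 : ℝ≥0∞) = ENNReal.ofReal (19 / 48) := by
    rw [ENNReal.ofReal_div_of_pos (by norm_num)]
    simp
  rw [h1948]
  exact (ENNReal.ofReal_le_iff_le_toReal hRt).2 hreal

omit [FiniteDimensional ℝ E] in
/-- Planar area of a projection is unchanged by translating the body. -/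
theorem proj_translate (c w : E) (K : Set E) :
    (μHE[2] : Measure E) ((fun x => x - ⟪x, w⟫_ℝ • w) '' ((fun x => c + x) ⁻¹' K))
      = (μHE[2] : Measure E) ((fun x => x - ⟪x, w⟫_ℝ • w) '' K) := by
  have e : (fun x => x - ⟪x, w⟫_ℝ • w) '' ((fun x => c + x) ⁻¹' K)
      = (fun z => z + (⟪c, w⟫_ℝ • w - c)) '' ((fun x => x - ⟪x, w⟫_ℝ • w) '' K) := by
    ext z
    constructor
    · rintro ⟨x, hx, rfl⟩
      refine ⟨(c + x) - ⟪c + x, w⟫_ℝ • w, ⟨c + x, hx, rfl⟩, ?_⟩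
      simp only [inner_add_left]
      module
    · rintro ⟨_, ⟨k, hk, rfl⟩, rfl⟩
      refine ⟨k - c, ?_, ?_⟩
      · show c + (k - c) ∈ K
        rw [add_sub_cancel]
        exact hk
      · simp only [inner_sub_left]
        module
  rw [e]
  exact (isometry_add_right _).euclideanHausdorffMeasure_image _

/-- A convex body symmetric about a point `c` and any finite covering by cylinders: both forms
of the `19/48` bound. -/
theorem sym_center_both (hdim : Module.finrank ℝ E = 3) (μ : Measure E) [μ.IsAddHaarMeasure]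
    {K : Set E} (hK : Convex ℝ K) (hKc : IsCompact K) (hKi : (interior K).Nonempty)
    (c : E) (hsym : ∀ x ∈ K, c + c - x ∈ K) {ι : Type*} [Fintype ι]
    (d : ι → E) (hd1 : ∀ i, ‖d i‖ = 1)
    (B : ι → Set E) (hB : ∀ i, ∀ x ∈ B i, ⟪x, d i⟫_ℝ = 0)
    (hcov : K ⊆ ⋃ i, {x | ∃ b ∈ B i, ∃ s : ℝ, x = b + s • d i}) :
    (19 / 48 : ℝ≥0∞) ≤ ∑ i, (μHE[2] : Measure E) (B i) /
        (μHE[2] : Measure E) ((fun x => x - ⟪x, d i⟫_ℝ • d i) '' K)
      ∧ (19 / 48 : ℝ≥0∞) * (⨅ w : {w : E // ‖w‖ = 1}, (μHE[2] : Measure E)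
          ((fun x => x - ⟪x, (w : E)⟫_ℝ • (w : E)) '' K))
        ≤ ∑ i, (μHE[2] : Measure E) (B i) := by
  obtain ⟨K', hK'def⟩ : ∃ K' : Set E, K' = (fun x => c + x) ⁻¹' K := ⟨_, rfl⟩
  have hK' : Convex ℝ K' := by rw [hK'def]; exact hK.translate_preimage_right c
  have hKc' : IsCompact K' := by
    rw [hK'def]
    exact (Homeomorph.addLeft c).isCompact_preimage.2 hKc
  have hKi' : (interior K').Nonempty := by
    obtain ⟨z, hz⟩ := hKi
    refine ⟨-c + z, ?_⟩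
    rw [hK'def]
    have h := (Homeomorph.addLeft c).preimage_interior K
    have hz' : -c + z ∈ (Homeomorph.addLeft c) ⁻¹' interior K := by
      show c + (-c + z) ∈ interior K
      rw [add_neg_cancel_left]
      exact hz
    rw [h] at hz'
    exact hz'
  have hsym' : ∀ x ∈ K', -x ∈ K' := by
    intro x hx
    rw [hK'def] at hx ⊢
    have h := hsym _ hx
    show c + -x ∈ K
    have e : c + c - (c + x) = c + -x := by abel
    rwa [e] at h
  obtain ⟨B', hB'def⟩ : ∃ B' : ι → Set E,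
      B' = fun i => (fun b => b + (⟪c, d i⟫_ℝ • d i - c)) '' B i := ⟨_, rfl⟩
  have hdd : ∀ i, ⟪d i, d i⟫_ℝ = 1 := by
    intro i
    rw [real_inner_self_eq_norm_sq, hd1 i]
    norm_num
  have hB' : ∀ i, ∀ x ∈ B' i, ⟪x, d i⟫_ℝ = 0 := by
    intro i x hx
    rw [hB'def] at hx
    obtain ⟨b, hb, rfl⟩ := hx
    rw [inner_add_left, inner_sub_left, real_inner_smul_left, hB i b hb, hdd i]
    ring
  have hcov' : K' ⊆ ⋃ i, {x | ∃ b ∈ B' i, ∃ s : ℝ, x = b + s • d i} := by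
    intro x hx
    rw [hK'def] at hx
    obtain ⟨i, b, hb, s, hbs⟩ := mem_iUnion.1 (hcov hx)
    refine mem_iUnion.2 ⟨i, b + (⟪c, d i⟫_ℝ • d i - c), ?_, s - ⟪c, d i⟫_ℝ, ?_⟩
    · rw [hB'def]
      exact ⟨b, hb, rfl⟩
    · have hbs' : c + x = b + s • d i := hbs
      have hx' : x = b + s • d i - c := by
        rw [← hbs']
        abel
      rw [hx']
      module
  have hareaB : ∀ i, (μHE[2] : Measure E) (B' i) = (μHE[2] : Measure E) (B i) := by
    intro i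
    rw [hB'def]
    exact (isometry_add_right _).euclideanHausdorffMeasure_image _
  have hareaK : ∀ w : E, (μHE[2] : Measure E) ((fun x => x - ⟪x, w⟫_ℝ • w) '' K')
      = (μHE[2] : Measure E) ((fun x => x - ⟪x, w⟫_ℝ • w) '' K) := by
    intro w
    rw [hK'def]
    exact proj_translate c w K
  have key := sym_all hdim μ hK' hKc' hKi' hsym' d hd1 B' hB' hcov'
  simp only [hareaB, hareaK] at key
  exact ⟨key, amin_of_ratio hdim hK hKc hKi d hd1 B _ key⟩

end Vale.Agent.Lib.P243.helper23
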